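import Vale.Agent.P223.H566.IntS
import Mathlib.Analysis.Normed.Operator.Extend

/-! Operators on `H` given by multiplications, and weighted resolvent identities. -/

namespace Vale.Agent.P223.H620

open scoped ContDiff InnerProductSpace Topology
open MeasureTheory Vale.Agent.P223.H Vale.Agent.P223.X Vale.Agent.P223.H566

section core
variable {n : ℕ} {M X Γ I : Type} [TopologicalSpace M] [TopologicalSpace X] [Group Γ]
    [MulAction Γ X] {V : Type} [NormedAddCommGroup V] [InnerProductSpace ℂ V]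
    {C : Cov n M X Γ I} {G : I → E n → Matrix (Fin n) (Fin n) ℝ} {K : Cliff n V}
    {S : SpX C G K}

theorem nm_mul (f : X → ℝ) (φ : Raw Γ I n V) (x : X) :
    nm C (mulR C f φ) x = |f x| * nm C φ x := by
  unfold nm mulR
  rw [norm_smul, Complex.norm_real, Real.norm_eq_abs, H566.pg_spec]

theorem nm_cl [FiniteDimensional ℂ V] (hL : SpecLocal) (f : X → ℝ) (φ : Raw Γ I n V) (x : X) :
    nm C (S.clR f φ) x = √(gsX C G f x) * nm C φ x := by
  obtain ⟨-, -, -, -, h, -⟩ := hL n V K (G (C.pi x)) (S.β (C.pi x)) (S.met.smooth _)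
    (S.met.pos _) (S.fr _)
  have h1 := (h (C.rep f (C.pg x) (C.pi x)) (C.py x) (φ (C.pg x) (C.pi x) (C.py x)) 0).2.1
  have h2 : nm C (S.clR f φ) x ^ 2 = gsX C G f x * nm C φ x ^ 2 := h1
  have h3 : 0 ≤ gsX C G f x := gsX_nonneg S.met f x
  have h4 : ∀ ψ : Raw Γ I n V, 0 ≤ nm C ψ x := fun ψ => norm_nonneg _
  rw [← Real.sqrt_sq (h4 (S.clR f φ)), h2, Real.sqrt_mul h3, Real.sqrt_sq (h4 _)]

theorem gsX_log {W : X → ℝ} (hW : C.Ck ∞ W) (hp : ∀ x, 0 < W x) (x : X) :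
    gsX C G (fun x => Real.log (W x)) x = gsX C G W x / W x ^ 2 := by
  have hpd : ∀ k, H.pd k (C.rep (fun x => Real.log (W x)) (C.pg x) (C.pi x)) (C.py x) =
      H.pd k (C.rep W (C.pg x) (C.pi x)) (C.py x) / W x := by
    intro k
    have h1 : DifferentiableAt ℝ (C.rep W (C.pg x) (C.pi x)) (C.py x) :=
      (hW _ _).differentiable (by simp) _
    have h2 : C.rep W (C.pg x) (C.pi x) (C.py x) = W x := by
      unfold Cov.rep
      rw [H566.pg_spec]
    have h3 := h1.hasFDerivAt.log (by rw [h2]; exact (hp x).ne')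
    unfold H.pd
    have h4 : C.rep (fun x => Real.log (W x)) (C.pg x) (C.pi x) =
      fun y => Real.log (C.rep W (C.pg x) (C.pi x) y) := rfl
    rw [h4, h3.fderiv, h2]
    simp only [smul_apply, smul_eq_mul]
    field_simp
  unfold gsX Cov.gl gradSq gradIp
  simp only [hpd]
  rw [Finset.sum_div]
  refine Finset.sum_congr rfl fun i _ => ?_
  rw [Finset.sum_div]
  refine Finset.sum_congr rfl fun j _ => ?_
  have := (hp x).ne'
  field_simp

theorem cC_log {W : X → ℝ} (hW : C.Ck ∞ W) (hp : ∀ x, 0 < W x) (φ : Raw Γ I n V) :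
    S.clR W φ = mulR C W (S.clR (fun x => Real.log (W x)) φ) := by
  funext γ i y
  unfold SpX.clR mulR cdf
  have hpd : ∀ k, H.pd k (C.rep W γ i) y =
      W (γ • C.ψ i y) * H.pd k (C.rep (fun x => Real.log (W x)) γ i) y := by
    intro k
    have h1 : DifferentiableAt ℝ (C.rep W γ i) y := (hW _ _).differentiable (by simp) _
    have h3 := h1.hasFDerivAt.log (hp _).ne'
    unfold H.pd
    have h4 : C.rep (fun x => Real.log (W x)) γ i = fun y => Real.log (C.rep W γ i y) := rfl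
    rw [h4, h3.fderiv]
    simp only [smul_apply, smul_eq_mul]
    rw [← mul_assoc]
    change _ = W (γ • C.ψ i y) * (W (γ • C.ψ i y))⁻¹ * _
    rw [mul_inv_cancel₀ (hp _).ne', one_mul]
  simp only [hpd, rs]
  simp only [sum_apply, smul_apply, Finset.smul_sum, smul_smul]
  refine Finset.sum_congr rfl fun k _ => ?_
  push_cast
  rfl

theorem Ck_log {W : X → ℝ} (hW : C.Ck ∞ W) (hp : ∀ x, 0 < W x) :
    C.Ck ∞ (fun x => Real.log (W x)) := fun γ i =>
  (hW γ i).log fun _ => (hp _).ne'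

end core

section op
variable {n : ℕ} {M X Γ I : Type} [TopologicalSpace M] [TopologicalSpace X] [Group Γ]
    [MulAction Γ X] {V : Type} [NormedAddCommGroup V] [InnerProductSpace ℂ V]
    {C : Cov n M X Γ I} {G : I → E n → Matrix (Fin n) (Fin n) ℝ} {K : Cliff n V}
    [MeasurableSpace X] {S : SpX C G K} {μ : Measure X} {H : Type} [NormedAddCommGroup H]
    [InnerProductSpace ℂ H]

/-- operators given by bounded maps on `Core` -/
theorem ext_op [CompleteSpace H] (E : Emb S μ H) (L : Core S →ₗ[ℂ] Core S) (b : ℝ)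
    (hb : ∀ φ, ‖E.e (L φ)‖ ≤ b * ‖E.e φ‖) :
    ∃ T : H →L[ℂ] H, (∀ φ, T (E.e φ) = E.e (L φ)) ∧ ∀ u, ‖T u‖ ≤ b * ‖u‖ :=
  ⟨(E.e ∘ₗ L).extendOfNorm E.e, fun φ => LinearMap.extendOfNorm_eq E.dense ⟨b, hb⟩ φ,
    fun u => LinearMap.norm_extendOfNorm_apply_le E.dense b hb u⟩

theorem ext_core (E : Emb S μ H) {A B : H →L[ℂ] H} (h : ∀ φ, A (E.e φ) = B (E.e φ)) : A = B := by
  refine ContinuousLinearMap.ext fun u => ?_
  exact E.dense.induction (P := fun u => A u = B u) (by rintro _ ⟨φ, rfl⟩; exact h φ)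
    (isClosed_eq A.continuous B.continuous) u

variable [BorelSpace X] [T2Space X]

theorem norm_sq_e (E : Emb S μ H) (hV : VolX C G μ) (φ : Core S) :
    Integrable (fun x => nm C (φ : Raw Γ I n V) x ^ 2) μ ∧
    ‖E.e φ‖ ^ 2 = ∫ x, nm C (φ : Raw Γ I n V) x ^ 2 ∂μ := by
  have h1 : Integrable (hp C (φ : Raw Γ I n V) (φ : Raw Γ I n V)) μ :=
    IsCore.integrable_hp φ.2 φ.2 hV
  have h2 : (fun x => nm C (φ : Raw Γ I n V) x ^ 2) =
      fun x => RCLike.re (hp C (φ : Raw Γ I n V) (φ : Raw Γ I n V) x) := by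
    funext x
    exact IsCore.nm_sq φ.2 x
  constructor
  · rw [h2]; exact h1.re
  · rw [h2, integral_re h1]
    have h3 := E.ip φ φ
    rw [inner_self_eq_norm_sq_to_K] at h3
    unfold ipr at h3
    rw [← h3]
    norm_cast

theorem norm_e_le (E : Emb S μ H) (hV : VolX C G μ) {φ ψ : Core S} {b : ℝ} (hb : 0 ≤ b)
    (h : ∀ x, nm C (φ : Raw Γ I n V) x ≤ b * nm C (ψ : Raw Γ I n V) x) :
    ‖E.e φ‖ ≤ b * ‖E.e ψ‖ := by
  obtain ⟨i1, e1⟩ := norm_sq_e E hV φ
  obtain ⟨i2, e2⟩ := norm_sq_e E hV ψ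
  have h1 : ‖E.e φ‖ ^ 2 ≤ (b * ‖E.e ψ‖) ^ 2 := by
    rw [mul_pow, e1, e2, ← integral_const_mul]
    refine integral_mono i1 (i2.const_mul _) fun x => ?_
    have h2 : 0 ≤ nm C (φ : Raw Γ I n V) x := norm_nonneg _
    calc nm C (φ : Raw Γ I n V) x ^ 2 ≤ (b * nm C (ψ : Raw Γ I n V) x) ^ 2 :=
          pow_le_pow_left₀ h2 (h x) 2
      _ = b ^ 2 * nm C (ψ : Raw Γ I n V) x ^ 2 := mul_pow _ _ _
  exact (sq_le_sq₀ (norm_nonneg _) (by positivity)).1 h1

/-- multiplication by a bounded smooth function -/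
theorem mul_op [CompleteSpace H] (E : Emb S μ H) (hV : VolX C G μ) {f : X → ℝ} (hf : C.Ck ∞ f)
    {b : ℝ} (hb0 : 0 ≤ b) (hb : ∀ x, |f x| ≤ b) :
    ∃ T : H →L[ℂ] H, (∀ φ, T (E.e φ) = E.e (S.mC f hf φ)) ∧ ∀ u, ‖T u‖ ≤ b * ‖u‖ := by
  refine ext_op E (S.mC f hf) b fun φ => norm_e_le E hV hb0 fun x => ?_
  refine (nm_mul f (φ : Raw Γ I n V) x).le.trans ?_
  exact mul_le_mul_of_nonneg_right (hb x) (norm_nonneg _)

/-- Clifford multiplication by the differential of a Lipschitz function -/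
theorem cl_op [FiniteDimensional ℂ V] [CompleteSpace H] (hL : SpecLocal) (E : Emb S μ H)
    (hV : VolX C G μ) {f : X → ℝ} (hf : C.Ck ∞ f)
    {b : ℝ} (hb0 : 0 ≤ b) (hb : ∀ x, gsX C G f x ≤ b ^ 2) :
    ∃ T : H →L[ℂ] H, (∀ φ, T (E.e φ) = E.e (S.cC f hf φ)) ∧ ∀ u, ‖T u‖ ≤ b * ‖u‖ := by
  refine ext_op E (S.cC f hf) b fun φ => norm_e_le E hV hb0 fun x => ?_
  refine (nm_cl (S := S) hL f (φ : Raw Γ I n V) x).le.trans ?_
  refine mul_le_mul_of_nonneg_right ?_ (norm_nonneg _)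
  rw [← Real.sqrt_sq hb0]
  exact Real.sqrt_le_sqrt (hb x)

end op

end Vale.Agent.P223.H620
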