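import Vale.Agent.P223.H566.SupDef
import Vale.Agent.P223.H.Grad
import Vale.Agent.P223.H.Cor
import Vale.Agent.P223.H620.Mul

/-! Sup bound, part B. -/

namespace Vale.Agent.P223.H620

open scoped ContDiff InnerProductSpace Topology
open MeasureTheory Vale.Agent.P223.H Vale.Agent.P223.X Vale.Agent.P223.H566

/-- the pointwise estimate in a chart -/
theorem gs_q {n : ℕ} {G : E n → Matrix (Fin n) (Fin n) ℝ} {y : E n} (hG : (G y).PosDef)
    {u w : E n → ℝ} {f : ℝ → ℝ} {Cw C1 N : ℝ} (hu : DifferentiableAt ℝ u y)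
    (hw : DifferentiableAt ℝ w y) (hu0 : 0 ≤ u y) (hw0 : 0 < w y) (hCw : 0 ≤ Cw)
    (hN : 0 ≤ N)
    (hf : Differentiable ℝ f) (h1 : gradSq G w y ≤ (Cw * w y) ^ 2)
    (h2 : gradSq G u y ≤ 4 * u y * N) (h3 : ∀ t, |t * deriv f t| ≤ C1) :
    gradSq G (fun z => f (u z / w z ^ 2)) y * u y ≤ 8 * C1 ^ 2 * (Cw ^ 2 * u y + N) := by
  have hv : DifferentiableAt ℝ (fun z => (w z ^ 2)⁻¹) y :=
    (hw.fun_pow 2).fun_inv (pow_ne_zero 2 hw0.ne')
  have hq : DifferentiableAt ℝ (fun z => u z * (w z ^ 2)⁻¹) y := hu.mul hv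
  have e0 : (fun z => f (u z / w z ^ 2)) = fun z => f (u z * (w z ^ 2)⁻¹) := by
    funext z; rw [div_eq_mul_inv]
  have e1 : gradSq G (fun z => f (u z / w z ^ 2)) y =
      (deriv f (u y * (w y ^ 2)⁻¹)) ^ 2 * gradSq G (fun z => u z * (w z ^ 2)⁻¹) y := by
    rw [e0]
    exact Grad.gradSq_comp_real (φ := f) (f := fun z => u z * (w z ^ 2)⁻¹)
      (hf _).hasDerivAt hq
  have e2 : gradSq G (fun z => (w z ^ 2)⁻¹) y = (-2 / w y ^ 3) ^ 2 * gradSq G w y := by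
    refine Grad.gradSq_comp_real (φ := fun t => (t ^ 2)⁻¹) (f := w) ?_ hw
    have h := (hasDerivAt_pow 2 (w y)).fun_inv (pow_ne_zero 2 hw0.ne')
    have e : -2 / w y ^ 3 = -(((2 : ℕ) : ℝ) * w y ^ (2 - 1)) / (w y ^ 2) ^ 2 := by
      have := hw0.ne'
      field_simp
      norm_num
    rw [e]
    exact h
  have e3 : √(gradSq G (fun z => (w z ^ 2)⁻¹) y) ≤ 2 * Cw * (w y ^ 2)⁻¹ := by
    rw [e2]
    refine Real.sqrt_le_iff.2 ⟨by positivity, ?_⟩
    calc (-2 / w y ^ 3) ^ 2 * gradSq G w y ≤ (-2 / w y ^ 3) ^ 2 * (Cw * w y) ^ 2 :=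
          mul_le_mul_of_nonneg_left h1 (sq_nonneg _)
      _ = (2 * Cw * (w y ^ 2)⁻¹) ^ 2 := by field_simp
  have e4 : √(gradSq G u y) ≤ 2 * (√(u y) * √N) := by
    refine Real.sqrt_le_iff.2 ⟨by positivity, h2.trans_eq ?_⟩
    rw [mul_pow, mul_pow, Real.sq_sqrt hu0, Real.sq_sqrt hN]
    ring
  have e5 := Grad.sqrt_gradSq_mul_le hG hu hv
  have e6 : √(gradSq G (fun z => u z * (w z ^ 2)⁻¹) y) ≤
      2 * (u y * (w y ^ 2)⁻¹) * Cw + 2 * (w y ^ 2)⁻¹ * (√(u y) * √N) := by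
    refine e5.trans ?_
    rw [abs_of_nonneg hu0, abs_of_nonneg (by positivity : 0 ≤ (w y ^ 2)⁻¹)]
    have a1 := mul_le_mul_of_nonneg_left e3 hu0
    have a2 := mul_le_mul_of_nonneg_left e4 (by positivity : 0 ≤ (w y ^ 2)⁻¹)
    nlinarith [a1, a2]
  set q := u y * (w y ^ 2)⁻¹ with hqd
  have hq0 : 0 ≤ q := by positivity
  -- multiply by |f'(q)| * sqrt u
  have e7 : |deriv f q| * √(gradSq G (fun z => u z * (w z ^ 2)⁻¹) y) * √(u y) ≤
      2 * C1 * (Cw * √(u y) + √N) := by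
    have hs : √(u y) * √(u y) = u y := Real.mul_self_sqrt hu0
    have h4 : |deriv f q| * q ≤ C1 := by
      have := h3 q
      rwa [abs_mul, abs_of_nonneg hq0, mul_comm] at this
    calc |deriv f q| * √(gradSq G (fun z => u z * (w z ^ 2)⁻¹) y) * √(u y)
        ≤ |deriv f q| * (2 * q * Cw + 2 * (w y ^ 2)⁻¹ * (√(u y) * √N)) * √(u y) := by
          gcongr
      _ = 2 * (|deriv f q| * q) * (Cw * √(u y)) +
          2 * |deriv f q| * ((√(u y) * √(u y)) * (w y ^ 2)⁻¹) * √N := by ring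
      _ = 2 * (|deriv f q| * q) * (Cw * √(u y) + √N) := by rw [hs, ← hqd]; ring
      _ ≤ 2 * C1 * (Cw * √(u y) + √N) := by gcongr
  have e8 : gradSq G (fun z => f (u z / w z ^ 2)) y * u y =
      (|deriv f q| * √(gradSq G (fun z => u z * (w z ^ 2)⁻¹) y) * √(u y)) ^ 2 := by
    rw [e1, mul_pow, mul_pow, sq_abs, Real.sq_sqrt (Grad.gradSq_nonneg' hG _), Real.sq_sqrt hu0]
  rw [e8]
  have h5 : 0 ≤ |deriv f q| * √(gradSq G (fun z => u z * (w z ^ 2)⁻¹) y) * √(u y) := by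
    positivity
  calc (|deriv f q| * √(gradSq G (fun z => u z * (w z ^ 2)⁻¹) y) * √(u y)) ^ 2
      ≤ (2 * C1 * (Cw * √(u y) + √N)) ^ 2 := pow_le_pow_left₀ h5 e7 2
    _ ≤ 8 * C1 ^ 2 * ((Cw * √(u y)) ^ 2 + √N ^ 2) := by
        nlinarith [sq_nonneg (C1 * (Cw * √(u y) - √N))]
    _ = 8 * C1 ^ 2 * (Cw ^ 2 * u y + N) := by
        rw [mul_pow, Real.sq_sqrt hu0, Real.sq_sqrt hN]

theorem bdd_tderiv {δ : ℝ} {f : ℝ → ℝ} (hf : Tst δ f) : ∃ C1 : ℝ, 0 ≤ C1 ∧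
    ∀ t, |t * deriv f t| ≤ C1 := by
  have h1 : Continuous (deriv f) := (hf.smooth.continuous_deriv (by simp))
  have h2 : Continuous fun t => t * deriv f t := continuous_id.mul h1
  have h3 : HasCompactSupport fun t => t * deriv f t := hf.supp.mul_left
  obtain ⟨B, hB⟩ := h2.bounded_above_of_compact_support h3
  exact ⟨|B|, abs_nonneg _, fun t => (hB t).trans (le_abs_self B)⟩

section
variable {n : ℕ} {M X Γ I V H : Type} [TopologicalSpace M] [TopologicalSpace X]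
  [Group Γ] [MulAction Γ X] [Fintype I] [T2Space X] [ConnectedSpace X] [T2Space M]
  [MeasurableSpace X] [BorelSpace X] [NormedAddCommGroup V] [InnerProductSpace ℂ V]
  [FiniteDimensional ℂ V] [NormedAddCommGroup H] [InnerProductSpace ℂ H] [CompleteSpace H]

omit [T2Space X] [ConnectedSpace X] [T2Space M] [MeasurableSpace X] [BorelSpace X] in
/-- the scalar curvature is bounded below -/
theorem scal_lower {C : Cov n M X Γ I} {G : I → E n → Matrix (Fin n) (Fin n) ℝ}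
    (hG : MetX C G) : ∃ C2 : ℝ, 0 ≤ C2 ∧ ∀ x : X,
      -C2 ≤ Vale.Agent.P223.H.scal (G (C.pi x)) (C.py x) / 4 := by
  have h := fun i : I => (isCompact_closedBall (0 : E n) 1).exists_bound_of_continuousOn
    (Cor.continuous_scal (hG.smooth i) (hG.pos i)).continuousOn
  choose B hB using h
  refine ⟨∑ i, |B i|, Finset.sum_nonneg fun i _ => abs_nonneg _, fun x => ?_⟩
  have h1 : C.py x ∈ Metric.closedBall (0 : E n) 1 := by
    rw [mem_closedBall_zero_iff]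
    refine (pi_norm_le_iff_of_nonneg zero_le_one).2 fun k => ?_
    exact ((C.cover x).choose_spec.choose_spec.choose_spec.1 k).le
  have h2 := hB (C.pi x) _ h1
  rw [Real.norm_eq_abs] at h2
  have h3 := neg_abs_le (Vale.Agent.P223.H.scal (G (C.pi x)) (C.py x))
  have h4 := le_abs_self (B (C.pi x))
  have h5 : |B (C.pi x)| ≤ ∑ i, |B i| :=
    Finset.single_le_sum (f := fun i => |B i|) (fun i _ => abs_nonneg _) (Finset.mem_univ _)
  have h6 := abs_nonneg (B (C.pi x))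
  linarith

omit [T2Space X] [ConnectedSpace X] [T2Space M] [Fintype I] [MeasurableSpace X] [BorelSpace X]
  [FiniteDimensional ℂ V] in
theorem Ck_nmsq {C : Cov n M X Γ I} {G : I → E n → Matrix (Fin n) (Fin n) ℝ} {K : Cliff n V}
    {S : SpX C G K} (φ : Core S) : C.Ck ∞ (fun x => nm C (φ : Raw Γ I n V) x ^ 2) := by
  intro γ i
  have : C.rep (fun x => nm C (φ : Raw Γ I n V) x ^ 2) γ i =
      fun y => ‖(φ : Raw Γ I n V) γ i y‖ ^ 2 := by
    funext y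
    change nm C (φ : Raw Γ I n V) (γ • C.ψ i y) ^ 2 = _
    rw [φ.2.nm_chart]
  rw [this]
  exact (φ.2.smooth γ i).norm_sq ℂ

/-- bound for the Clifford multiplication by `d f(q)` -/
theorem supB_aux (hL : SpecLocal) (c : Ctx n M X Γ I V H) {s : ℝ} {w : X → ℝ} {δ : ℝ}
    {f : ℝ → ℝ} (hw : Gst c.C c.G s w) (hf : Tst δ f) : ∃ B : ℝ, 0 ≤ B ∧ ∀ (φ : Core c.S)
    (hf : c.C.Ck ∞ (fun x => f (H566.qf c.C w (φ : Raw Γ I n V) x))),
    ‖c.E.e (c.S.cC _ hf φ)‖ ^ 2 ≤ B * (‖c.E.e φ‖ ^ 2 + ‖c.E.e (c.S.DC φ)‖ ^ 2) := by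
  obtain ⟨C1, hC1, h1⟩ := bdd_tderiv hf
  obtain ⟨C2, hC2, h2⟩ := scal_lower c.S.met
  obtain ⟨C0, h0⟩ := hw.grad
  refine ⟨8 * C1 ^ 2 * (1 + C2 + C0 ^ 2), by positivity, fun φ hq => ?_⟩
  set u : X → ℝ := fun x => nm c.C (φ : Raw Γ I n V) x ^ 2 with hu
  have hus : c.C.Ck ∞ u := Ck_nmsq φ
  -- majorant of `|∇φ|²`
  set N : X → ℝ := fun x => -(hp c.C (c.S.DC (c.S.DC φ) : Raw Γ I n V) (φ : Raw Γ I n V) x).re +
    1 / 2 * lapX c.C c.G u x + C2 * u x with hN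
  have key : ∀ x, nm c.C (c.S.cC _ hq φ : Raw Γ I n V) x ^ 2 ≤
      8 * C1 ^ 2 * (C0 ^ 2 * u x + N x) := by
    intro x
    obtain ⟨-, l2, l3, -⟩ := hL n V c.K (c.G (c.C.pi x)) (c.S.β (c.C.pi x)) (c.S.met.smooth _)
      (c.S.met.pos _) (c.S.fr _)
    have hφs := φ.2.smooth (c.C.pg x) (c.C.pi x)
    have b1 := l2 _ hφs (c.C.py x)
    obtain ⟨b2, b3⟩ := l3 _ hφs (c.C.py x)
    have e1 : nm c.C (c.S.cC _ hq φ : Raw Γ I n V) x ^ 2 =
        gsX c.C c.G (fun x => f (H566.qf c.C w (φ : Raw Γ I n V) x)) x * u x := by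
      have := nm_cl (S := c.S) hL (fun x => f (H566.qf c.C w (φ : Raw Γ I n V) x))
        (φ : Raw Γ I n V) x
      change nm c.C (c.S.clR _ _) x ^ 2 = _
      rw [this, mul_pow, Real.sq_sqrt (gsX_nonneg c.S.met _ x)]
    have e2 : c.C.rep u (c.C.pg x) (c.C.pi x) =
        fun y => ‖(φ : Raw Γ I n V) (c.C.pg x) (c.C.pi x) y‖ ^ 2 := by
      funext y
      unfold Cov.rep
      rw [hu]
      simp only
      rw [φ.2.nm_chart]
    have e3 : gsX c.C c.G (fun x => f (H566.qf c.C w (φ : Raw Γ I n V) x)) x =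
        gradSq (c.G (c.C.pi x)) (fun z => f (c.C.rep u (c.C.pg x) (c.C.pi x) z /
          c.C.rep w (c.C.pg x) (c.C.pi x) z ^ 2)) (c.C.py x) := rfl
    have e4 : c.C.rep u (c.C.pg x) (c.C.pi x) (c.C.py x) = u x := by
      unfold Cov.rep
      rw [H566.pg_spec]
    have e5 : c.C.rep w (c.C.pg x) (c.C.pi x) (c.C.py x) = w x := by
      unfold Cov.rep
      rw [H566.pg_spec]
    have e6 : nsq c.K (c.G (c.C.pi x)) (c.S.β (c.C.pi x))
        ((φ : Raw Γ I n V) (c.C.pg x) (c.C.pi x)) (c.C.py x) ≤ N x := by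
      have e7 : lapX c.C c.G u x = lap (c.G (c.C.pi x))
        (fun y => ‖(φ : Raw Γ I n V) (c.C.pg x) (c.C.pi x) y‖ ^ 2) (c.C.py x) := by
        rw [← e2]; rfl
      have e8 : u x = ‖(φ : Raw Γ I n V) (c.C.pg x) (c.C.pi x) (c.C.py x)‖ ^ 2 := rfl
      have e9 : hp c.C (c.S.DC (c.S.DC φ) : Raw Γ I n V) (φ : Raw Γ I n V) x =
          ⟪dir c.K (c.G (c.C.pi x)) (c.S.β (c.C.pi x)) (dir c.K (c.G (c.C.pi x))
            (c.S.β (c.C.pi x)) ((φ : Raw Γ I n V) (c.C.pg x) (c.C.pi x))) (c.C.py x),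
            (φ : Raw Γ I n V) (c.C.pg x) (c.C.pi x) (c.C.py x)⟫_ℂ := rfl
      have h3 := h2 x
      have h4 : 0 ≤ u x := by rw [e8]; positivity
      rw [hN]
      simp only
      rw [e9, e7]
      rw [← e8] at b1
      nlinarith
    rw [e1, e3, ← e4]
    refine (gs_q (Cw := |C0|) (C1 := C1) (c.S.met.pos _ _)
      ((hus _ _).differentiable (by simp) _) ((hw.smooth _ _).differentiable (by simp) _)
      (by rw [e4]; positivity) (by rw [e5]; exact hw.pos x) (abs_nonneg _) b2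
      (hf.smooth.differentiable (by simp)) ?_ ?_ h1).trans ?_
    · have := h0 x
      rw [mul_pow, sq_abs, ← mul_pow, e5]
      exact this
    · rw [e2]; exact b3
    · rw [sq_abs, e4]
      gcongr
  have hV := c.vol
  have hfin := finComp c.S.met hV
  have i1 : Integrable u c.μ := (norm_sq_e c.E hV φ).1
  have i2 : Integrable (hp c.C (c.S.DC (c.S.DC φ) : Raw Γ I n V) (φ : Raw Γ I n V)) c.μ :=
    IsCore.integrable_hp (c.S.DC (c.S.DC φ)).2 φ.2 hV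
  have hcs : HasCompactSupport u := by
    refine HasCompactSupport.intro (φ.2.nm_supp (C := c.C)).isCompact fun x hx => ?_
    have := image_eq_zero_of_notMem_tsupport hx
    rw [hu]
    simp only
    rw [this]
    norm_num
  have i3 : Integrable (lapX c.C c.G u) c.μ := by
    refine Continuous.integrable_of_hasCompactSupport ?_ ?_
    · exact Ck_continuous c.C fun γ i => (Ck_lapX c.S.met
        (fun γ i => contDiff_infty.1 (hus γ i) 4) γ i).of_le (by norm_num)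
    · exact HasCompactSupport.intro hcs.isCompact fun x hx => lapX_zero c.S.met hus hx
  have iN : Integrable N c.μ := (i2.re.neg.add (i3.const_mul _)).add (i1.const_mul _)
  have eN : ∫ x, N x ∂c.μ = ‖c.E.e (c.S.DC φ)‖ ^ 2 + C2 * ‖c.E.e φ‖ ^ 2 := by
    have z1 : ∫ x, lapX c.C c.G u x ∂c.μ = 0 := by
      have h1' : c.C.Ck ∞ (fun _ : X => (1 : ℝ)) := fun γ i => contDiff_const
      have := greenX c.S.met hV hus h1' hcs
      have z2 : ∀ x, lapX c.C c.G (fun _ : X => (1 : ℝ)) x = 0 := by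
        intro x
        have h1'' : c.C.Ck 2 (fun _ : X => (1 : ℝ)) := fun γ i => contDiff_const
        rw [← H566.pg_spec c.C x, lapX_eq c.S.met h1'']
        unfold lap
        have : ∀ γ i, c.C.rep (fun _ : X => (1 : ℝ)) γ i = fun _ => 1 := fun γ i => rfl
        simp [this, Vale.Agent.P223.H.pd]
      simp only [z2, mul_zero, integral_zero, mul_one] at this
      exact this.symm
    have z3 : ∫ x, (hp c.C (c.S.DC (c.S.DC φ) : Raw Γ I n V) (φ : Raw Γ I n V) x).re ∂c.μ =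
        -‖c.E.e (c.S.DC φ)‖ ^ 2 := by
      have h3 := integral_re i2
      have h4 := c.E.ip (c.S.DC (c.S.DC φ)) φ
      rw [e_skew c.E hL hV, inner_self_eq_norm_sq_to_K] at h4
      unfold ipr at h4
      have h5 : ∫ x, (hp c.C (c.S.DC (c.S.DC φ) : Raw Γ I n V) (φ : Raw Γ I n V) x).re ∂c.μ =
        (∫ x, hp c.C (c.S.DC (c.S.DC φ) : Raw Γ I n V) (φ : Raw Γ I n V) x ∂c.μ).re := h3
      rw [h5, ← h4]
      norm_cast
    have i2' : Integrable (fun x => -(hp c.C (c.S.DC (c.S.DC φ) : Raw Γ I n V)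
      (φ : Raw Γ I n V) x).re) c.μ := i2.re.neg
    have i3' : Integrable (fun x => 1 / 2 * lapX c.C c.G u x) c.μ := i3.const_mul _
    have i1' : Integrable (fun x => C2 * u x) c.μ := i1.const_mul _
    have i23 : Integrable (fun x => -(hp c.C (c.S.DC (c.S.DC φ) : Raw Γ I n V)
      (φ : Raw Γ I n V) x).re + 1 / 2 * lapX c.C c.G u x) c.μ := i2'.add i3'
    rw [hN]
    simp only
    rw [integral_add i23 i1', integral_add i2' i3', integral_neg, z3, integral_const_mul, z1,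
      integral_const_mul, ← (norm_sq_e c.E hV φ).2]
    ring
  rw [(norm_sq_e c.E hV _).2]
  calc ∫ x, nm c.C (c.S.cC _ hq φ : Raw Γ I n V) x ^ 2 ∂c.μ
      ≤ ∫ x, 8 * C1 ^ 2 * (C0 ^ 2 * u x + N x) ∂c.μ :=
        integral_mono (norm_sq_e c.E hV _).1 (((i1.const_mul _).add iN).const_mul _) key
    _ = 8 * C1 ^ 2 * (C0 ^ 2 * ‖c.E.e φ‖ ^ 2 + (‖c.E.e (c.S.DC φ)‖ ^ 2 + C2 * ‖c.E.e φ‖ ^ 2)) := by
        rw [integral_const_mul, integral_add (i1.const_mul _) iN, integral_const_mul, eN,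
          ← (norm_sq_e c.E hV φ).2]
    _ ≤ _ := by
        have := sq_nonneg ‖c.E.e φ‖
        have := sq_nonneg ‖c.E.e (c.S.DC φ)‖
        have h9 : C0 ^ 2 * ‖c.E.e φ‖ ^ 2 + (‖c.E.e (c.S.DC φ)‖ ^ 2 + C2 * ‖c.E.e φ‖ ^ 2) ≤
          (1 + C2 + C0 ^ 2) * (‖c.E.e φ‖ ^ 2 + ‖c.E.e (c.S.DC φ)‖ ^ 2) := by
          nlinarith [mul_nonneg hC2 (sq_nonneg ‖c.E.e (c.S.DC φ)‖),
            mul_nonneg (sq_nonneg C0) (sq_nonneg ‖c.E.e (c.S.DC φ)‖)]
        calc _ ≤ 8 * C1 ^ 2 * ((1 + C2 + C0 ^ 2) * (‖c.E.e φ‖ ^ 2 + ‖c.E.e (c.S.DC φ)‖ ^ 2)) :=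
              mul_le_mul_of_nonneg_left h9 (by positivity)
          _ = _ := by ring

end

/-- Part B of the sup bound -/
theorem supB (hL : SpecLocal) : SpecSupB := by
  intro n M X Γ I V H _ _ _ _ _ _ _ _ _ _ _ _ _ _ _ _ c s w δ f hn hw hf
  obtain ⟨B, hB, h⟩ := supB_aux hL c hw hf
  refine ⟨2 * (1 + B), fun φ hq => ?_⟩
  have h1 := h φ hq
  have e1 : c.S.DC (c.S.mC _ hq φ) = c.S.mC _ hq (c.S.DC φ) + c.S.cC _ hq φ := c.S.DC_mC hq φ
  have h2 : ‖c.E.e (c.S.mC _ hq (c.S.DC φ))‖ ≤ 1 * ‖c.E.e (c.S.DC φ)‖ := by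
    refine H620.norm_e_le c.E c.vol zero_le_one fun x => ?_
    refine (nm_mC hq (c.S.DC φ) x).le.trans ?_
    refine mul_le_mul_of_nonneg_right ?_ (norm_nonneg _)
    rw [abs_of_nonneg (hf.nonneg _)]
    exact hf.le _
  rw [one_mul] at h2
  rw [e1, map_add]
  have h3 : ‖c.E.e (c.S.mC _ hq (c.S.DC φ)) + c.E.e (c.S.cC _ hq φ)‖ ≤
      ‖c.E.e (c.S.DC φ)‖ + ‖c.E.e (c.S.cC _ hq φ)‖ :=
    (norm_add_le _ _).trans (add_le_add h2 le_rfl)
  have h4 := pow_le_pow_left₀ (norm_nonneg _) h3 2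
  nlinarith [sq_nonneg (‖c.E.e (c.S.DC φ)‖ - ‖c.E.e (c.S.cC _ hq φ)‖), sq_nonneg ‖c.E.e φ‖,
    norm_nonneg (c.E.e φ), sq_nonneg ‖c.E.e (c.S.DC φ)‖]

end Vale.Agent.P223.H620
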