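import Vale.Agent.P223.H620.Sc
import Vale.Agent.P223.H850.W

/-! The energy of `exp(a h) f`. -/

namespace Vale.Agent.P223.H620

open scoped ContDiff Topology ENNReal
open MeasureTheory Vale.Agent.P223.H Vale.Agent.P223.X

section loc
variable {n : ℕ} {G : E n → Matrix (Fin n) (Fin n) ℝ}

theorem lap_sq {u : E n → ℝ} (hu : ContDiff ℝ ∞ u) (x : E n) :
    lap G (fun y => u y ^ 2) x = 2 * u x * lap G u x + 2 * gradSq G u x :=
  B25c.lap_comp (G := G) (contDiff_infty.1 hu 2) (φ := fun s => s ^ 2) (φ' := fun s => 2 * s)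
    (φ'' := fun _ => 2) (fun s => by simpa using hasDerivAt_pow 2 s)
    (fun s => by simpa using (hasDerivAt_id s).const_mul 2) x

theorem lap_mul (hp : ∀ x, (G x).PosDef) {u v : E n → ℝ} (hu : ContDiff ℝ ∞ u)
    (hv : ContDiff ℝ ∞ v) (x : E n) :
    lap G (fun y => u y * v y) x = u x * lap G v x + v x * lap G u x + 2 * gradIp G u v x := by
  have hdu : DifferentiableAt ℝ u x := hu.differentiable (by simp) x
  have hdv : DifferentiableAt ℝ v x := hv.differentiable (by simp) x
  have e : (fun y => (u y + v y) ^ 2) = fun y => (u y ^ 2 + v y ^ 2) + 2 * (u y * v y) := by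
    funext y; ring
  have h1 := lap_sq (G := G) (u := fun y => u y + v y) (hu.add hv) x
  rw [e, H850.lap_add (contDiff_infty.1 ((hu.pow 2).add (hv.pow 2)) 2)
    (contDiff_infty.1 (contDiff_const.mul (hu.mul hv)) 2),
    H850.lap_add (contDiff_infty.1 (hu.pow 2) 2) (contDiff_infty.1 (hv.pow 2) 2),
    H850.lap_smul 2 (contDiff_infty.1 (hu.mul hv) 2)] at h1
  rw [H850.lap_add (contDiff_infty.1 hu 2) (contDiff_infty.1 hv 2) x,
    Grad.gradSq_add (hp x) hdu hdv, lap_sq hu, lap_sq hv] at h1
  linarith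

/-- the pointwise identity -/
theorem en_loc (hp : ∀ x, (G x).PosDef) {f h : E n → ℝ} (hf : ContDiff ℝ ∞ f)
    (hh : ContDiff ℝ ∞ h) (a : ℝ) (x : E n) :
    Real.exp (-(2 * a * h x)) * gradSq G (fun y => Real.exp (a * h y) * f y) x =
      (gradSq G f x + (-a * lap G h x + a ^ 2 * gradSq G h x) * f x ^ 2) +
        a / 2 * ((lap G (fun y => f y ^ 2 * h y) x + f x ^ 2 * lap G h x) -
          lap G (fun y => f y ^ 2) x * h x) := by
  have hdf : DifferentiableAt ℝ f x := hf.differentiable (by simp) x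
  have hdh : DifferentiableAt ℝ h x := hh.differentiable (by simp) x
  have hde : DifferentiableAt ℝ (fun y => Real.exp (a * h y)) x :=
    (contDiff_const.mul hh).exp.differentiable (n := ∞) (by simp) x
  -- exponential
  have he : HasDerivAt (fun s => Real.exp (a * s)) (a * Real.exp (a * h x)) (h x) := by
    have h1 : HasDerivAt (fun s : ℝ => a * s) a (h x) := by
      simpa using (hasDerivAt_id (h x)).const_mul a
    have := h1.exp
    rwa [mul_comm] at this
  have hs : HasDerivAt (fun s : ℝ => s ^ 2) (2 * f x) (f x) := by simpa using hasDerivAt_pow 2 (f x)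
  have hp' := hp x
  set w : E n → ℝ := fun y => Real.exp (a * h y) * f y with hw
  have i1 : ∀ k : E n → ℝ, gradIp G k w x =
      f x * (a * Real.exp (a * h x) * gradIp G k h x) + Real.exp (a * h x) * gradIp G k f x :=
    fun k => by
    rw [hw, Grad.gradIp_mul_right hde hdf, Grad.gradIp_comp_right (f := h) he hdh]
  have i2 : gradSq G w x = f x * (a * Real.exp (a * h x) *
      (f x * (a * Real.exp (a * h x) * gradSq G h x) + Real.exp (a * h x) * gradIp G h f x)) +
      Real.exp (a * h x) * (f x * (a * Real.exp (a * h x) * gradIp G f h x) +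
        Real.exp (a * h x) * gradSq G f x) := by
    have e0 : gradSq G w x = gradIp G w w x := rfl
    rw [e0, i1 w, Grad.gradIp_comm hp' (f := w) (k := h), Grad.gradIp_comm hp' (f := w) (k := f),
      i1 h, i1 f]
    rfl
  have i3 : gradIp G (fun y => f y ^ 2) h x = 2 * f x * gradIp G f h x := by
    rw [Grad.gradIp_comm hp', Grad.gradIp_comp_right (f := f) hs hdf, Grad.gradIp_comm hp']
  rw [i2, lap_mul hp (hf.pow 2) hh, i3, lap_sq hf, Grad.gradIp_comm hp' (f := h) (k := f)]
  have e1 : Real.exp (-(2 * a * h x)) * (Real.exp (a * h x) * Real.exp (a * h x)) = 1 := by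
    rw [← Real.exp_add, ← Real.exp_add, ← Real.exp_zero]
    congr 1; ring
  linear_combination (f x ^ 2 * a ^ 2 * gradSq G h x + 2 * a * f x * gradIp G f h x +
    gradSq G f x) * e1

end loc

section
variable {n : ℕ} {M X Γ I : Type} [TopologicalSpace M] [TopologicalSpace X] [Group Γ]
    [MulAction Γ X] {C : Cov n M X Γ I} {G : I → E n → Matrix (Fin n) (Fin n) ℝ}

theorem gsX_zero (hG : MetX C G) {f : X → ℝ} {x : X} (hx : x ∉ tsupport f) :
    gsX C G f x = 0 := by
  rw [← H566.pg_spec C x, gsX_eq hG]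
  have e : C.rep f (C.pg x) (C.pi x) =ᶠ[𝓝 (C.py x)] fun _ => 0 := by
    have h1 : f =ᶠ[𝓝 x] fun _ => 0 := notMem_tsupport_iff_eventuallyEq.1 hx
    rw [← H566.pg_spec C x] at h1
    exact (Bas3.chart_emb C (C.pg x) (C.pi x)).continuous.continuousAt.eventually h1
  rw [Grad.gradSq_congr e]
  unfold gradSq gradIp
  simp [Vale.Agent.P223.H.pd]

theorem Ck_cont {f : X → ℝ} (hf : C.Ck ∞ f) : Continuous f :=
  Ck_continuous C fun γ i => contDiff_infty.1 (hf γ i) 0

theorem gsX_cont (hG : MetX C G) {f : X → ℝ} (hf : C.Ck ∞ f) : Continuous (gsX C G f) :=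
  Ck_continuous C fun γ i => (Ck_gsX hG (fun γ i => contDiff_infty.1 (hf γ i) 4) γ i).of_le
    (by norm_num)

theorem lapX_cont (hG : MetX C G) {f : X → ℝ} (hf : C.Ck ∞ f) : Continuous (lapX C G f) :=
  Ck_continuous C fun γ i => (Ck_lapX hG (fun γ i => contDiff_infty.1 (hf γ i) 4) γ i).of_le
    (by norm_num)

theorem gsX_supp [T2Space X] (hG : MetX C G) {f : X → ℝ} (hc : HasCompactSupport f) :
    HasCompactSupport (gsX C G f) :=
  HasCompactSupport.of_support_subset_isCompact hc.isCompact fun x hx => by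
    by_contra h
    exact hx (gsX_zero hG h)

theorem lapX_supp [T2Space X] (hG : MetX C G) {f : X → ℝ} (hf : C.Ck ∞ f) (hc : HasCompactSupport f) :
    HasCompactSupport (lapX C G f) :=
  HasCompactSupport.of_support_subset_isCompact hc.isCompact fun x hx => by
    by_contra h
    exact hx (H566.lapX_zero hG hf h)

theorem en_pt (hG : MetX C G) {f h : X → ℝ} (hf : C.Ck ∞ f)
    (hh : C.Ck ∞ h) (a : ℝ) (x : X) :
    Real.exp (-(2 * a * h x)) * gsX C G (fun y => Real.exp (a * h y) * f y) x =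
      (gsX C G f x + (-a * lapX C G h x + a ^ 2 * gsX C G h x) * f x ^ 2) +
        a / 2 * ((lapX C G (fun y => f y ^ 2 * h y) x + f x ^ 2 * lapX C G h x) -
          lapX C G (fun y => f y ^ 2) x * h x) := by
  have hc2 : ∀ {g : X → ℝ}, C.Ck ∞ g → C.Ck 2 g := fun hg γ i => contDiff_infty.1 (hg γ i) 2
  have hf2 : C.Ck ∞ (fun y => f y ^ 2) := fun γ i => (hf γ i).pow 2
  have hfh : C.Ck ∞ (fun y => f y ^ 2 * h y) := fun γ i => ((hf γ i).pow 2).mul (hh γ i)
  rw [← H566.pg_spec C x, gsX_eq hG, gsX_eq hG, gsX_eq hG, lapX_eq hG (hc2 hh),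
    lapX_eq hG (hc2 hf2), lapX_eq hG (hc2 hfh)]
  exact en_loc (hG.pos _) (hf _ _) (hh _ _) a _

variable [MeasurableSpace X] [BorelSpace X] [T2Space X] {μ : Measure X}

/-- the energy identity -/
theorem en_int [Fintype I] (hG : MetX C G) (hV : VolX C G μ) {f h : X → ℝ} (hf : C.Ck ∞ f)
    (hc : HasCompactSupport f) (hh : C.Ck ∞ h) (a : ℝ) :
    ∫ x, Real.exp (-(2 * a * h x)) * gsX C G (fun y => Real.exp (a * h y) * f y) x ∂μ =
      ∫ x, (gsX C G f x + (-a * lapX C G h x + a ^ 2 * gsX C G h x) * f x ^ 2) ∂μ := by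
  have := H566.finComp hG hV
  have hf2 : C.Ck ∞ (fun y => f y ^ 2) := fun γ i => (hf γ i).pow 2
  have hc2 : HasCompactSupport (fun y => f y ^ 2) := by
    have := hc.comp_left (g := fun s : ℝ => s ^ 2) (by norm_num)
    exact this
  have hfh : C.Ck ∞ (fun y => f y ^ 2 * h y) := fun γ i => ((hf γ i).pow 2).mul (hh γ i)
  have hcfh : HasCompactSupport (fun y => f y ^ 2 * h y) := hc2.mul_right
  have h1 : ∫ x, lapX C G (fun y => f y ^ 2 * h y) x ∂μ = 0 := by
    have h2 := H566.greenX hG hV hfh (h := fun _ => (1 : ℝ)) (fun γ i => contDiff_const) hcfh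
    simp only [H850.lapX_const hG, mul_zero, integral_zero, mul_one] at h2
    exact h2.symm
  have h2 := H566.greenX hG hV hf2 hh hc2
  simp only [en_pt hG hf hh a]
  have i1 : Integrable (fun x => gsX C G f x + (-a * lapX C G h x + a ^ 2 * gsX C G h x) *
      f x ^ 2) μ := by
    refine Continuous.integrable_of_hasCompactSupport ?_ ?_
    · exact (gsX_cont hG hf).add (((continuous_const.mul (lapX_cont hG hh)).add
        (continuous_const.mul (gsX_cont hG hh))).mul ((Ck_cont hf).pow 2))
    · exact (gsX_supp hG hc).add hc2.mul_left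
  have i2 : Integrable (lapX C G (fun y => f y ^ 2 * h y)) μ :=
    (lapX_cont hG hfh).integrable_of_hasCompactSupport (lapX_supp hG hfh hcfh)
  have i3 : Integrable (fun x => f x ^ 2 * lapX C G h x) μ :=
    (((Ck_cont hf).pow 2).mul (lapX_cont hG hh)).integrable_of_hasCompactSupport hc2.mul_right
  have i4 : Integrable (fun x => lapX C G (fun y => f y ^ 2) x * h x) μ :=
    ((lapX_cont hG hf2).mul (Ck_cont hh)).integrable_of_hasCompactSupport
      (lapX_supp hG hf2 hc2).mul_right
  have i5 : Integrable (fun x => lapX C G (fun y => f y ^ 2 * h y) x +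
      f x ^ 2 * lapX C G h x) μ := i2.add i3
  have i6 : Integrable (fun x => lapX C G (fun y => f y ^ 2 * h y) x +
      f x ^ 2 * lapX C G h x - lapX C G (fun y => f y ^ 2) x * h x) μ := i5.sub i4
  rw [integral_add i1 (i6.const_mul _), integral_const_mul,
    integral_sub i5 i4, integral_add i2 i3, h1, h2]
  ring

end

end Vale.Agent.P223.H620
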