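import Vale.Agent.P223.H.Grad
import Mathlib.Analysis.FunctionalSpaces.SobolevInequality
import Mathlib.Algebra.Order.Chebyshev

/-! Sobolev inequality on `ℝ^n`. -/

namespace Vale.Agent.P223.H620

open scoped ContDiff Topology ENNReal NNReal
open MeasureTheory Vale.Agent.P223.H

/-- Sobolev inequality with the euclidean norm of the gradient -/
theorem gns (n : ℕ) (hn : 3 ≤ n) : ∃ K : ℝ, 0 < K ∧ ∀ v : E n → ℝ, ContDiff ℝ 1 v →
    HasCompactSupport v →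
    (∫⁻ x, ENNReal.ofReal (|v x| ^ (2 * (n : ℝ) / (n - 2)))) ^ (((n : ℝ) - 2) / n) ≤
      ENNReal.ofReal K * ∫⁻ x, ENNReal.ofReal (∑ k, Vale.Agent.P223.H.pd k v x ^ 2) := by
  have hn' : (3 : ℝ) ≤ n := by exact_mod_cast hn
  have hn2 : (0 : ℝ) < (n : ℝ) - 2 := by linarith
  set q : ℝ≥0 := ⟨2 * (n : ℝ) / (n - 2), by positivity⟩ with hq
  have hqv : (q : ℝ) = 2 * (n : ℝ) / (n - 2) := rfl
  have hq0 : 0 < (q : ℝ) := by rw [hqv]; positivity
  have hfr : Module.finrank ℝ (E n) = n := by simp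
  set C := SNormLESNormFDerivOfEqConst ℝ (volume : Measure (E n)) (2 : ℝ) with hC
  refine ⟨(C : ℝ) ^ 2 * n + 1, by positivity, fun v hv hc => ?_⟩
  have h := eLpNorm_le_eLpNorm_fderiv_of_eq (F := ℝ) (volume : Measure (E n)) hv hc
    (p := (2 : ℝ≥0)) (p' := q) (by norm_num) (by rw [hfr]; omega) (by
      rw [hqv, hfr]
      push_cast
      field_simp)
  rw [eLpNorm_eq_lintegral_rpow_enorm_toReal (by
      simp only [ne_eq, ENNReal.coe_eq_zero]
      exact fun h => by rw [h] at hq0; simp at hq0) ENNReal.coe_ne_top,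
    eLpNorm_eq_lintegral_rpow_enorm_toReal (by norm_num) ENNReal.coe_ne_top] at h
  simp only [ENNReal.coe_toReal, NNReal.coe_ofNat] at h
  rw [← hC] at h
  have h2 := ENNReal.rpow_le_rpow h (z := 2) (by norm_num)
  rw [ENNReal.mul_rpow_of_nonneg _ _ (by norm_num), ← ENNReal.rpow_mul, ← ENNReal.rpow_mul] at h2
  have e1 : 1 / (q : ℝ) * 2 = ((n : ℝ) - 2) / n := by
    rw [hqv]; field_simp
  have e2 : (1 / 2 : ℝ) * 2 = 1 := by norm_num
  rw [e1, e2, ENNReal.rpow_one] at h2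
  have e3 : ∫⁻ x, ‖v x‖ₑ ^ (q : ℝ) = ∫⁻ x, ENNReal.ofReal (|v x| ^ (2 * (n : ℝ) / (n - 2))) := by
    refine lintegral_congr fun x => ?_
    rw [← hqv, Real.enorm_eq_ofReal_abs, ENNReal.ofReal_rpow_of_nonneg (abs_nonneg _) hq0.le]
  have e4 : ∫⁻ x, ‖fderiv ℝ v x‖ₑ ^ (2 : ℝ) ≤
      ENNReal.ofReal n * ∫⁻ x, ENNReal.ofReal (∑ k, Vale.Agent.P223.H.pd k v x ^ 2) := by
    rw [← lintegral_const_mul' _ _ ENNReal.ofReal_ne_top]
    refine lintegral_mono fun x => ?_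
    rw [← ENNReal.ofReal_mul (by positivity), ← ofReal_norm,
      ENNReal.ofReal_rpow_of_nonneg (norm_nonneg _) (by norm_num)]
    refine ENNReal.ofReal_le_ofReal ?_
    have h3 := Grad.norm_fderiv_le v x
    have h4 : (∑ i, |Vale.Agent.P223.H.pd i v x|) ^ 2 ≤
        n * ∑ k, Vale.Agent.P223.H.pd k v x ^ 2 := by
      have := sq_sum_le_card_mul_sum_sq (s := (Finset.univ : Finset (Fin n)))
        (f := fun i => |Vale.Agent.P223.H.pd i v x|)
      simpa [sq_abs] using this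
    calc ‖fderiv ℝ v x‖ ^ (2 : ℝ) = ‖fderiv ℝ v x‖ ^ 2 := by norm_cast
      _ ≤ (∑ i, |Vale.Agent.P223.H.pd i v x|) ^ 2 := pow_le_pow_left₀ (norm_nonneg _) h3 2
      _ ≤ _ := h4
  rw [e3] at h2
  refine h2.trans ((mul_le_mul_right e4 _).trans ?_)
  rw [← mul_assoc]
  refine mul_le_mul_left ?_ _
  have e5 : (C : ℝ≥0∞) ^ (2 : ℝ) = ENNReal.ofReal ((C : ℝ) ^ 2) := by
    have : (C : ℝ≥0∞) = ENNReal.ofReal (C : ℝ) := (ENNReal.ofReal_coe_nnreal).symm
    rw [this, ENNReal.ofReal_rpow_of_nonneg (NNReal.coe_nonneg C) (by norm_num)]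
    norm_cast
  rw [e5, ← ENNReal.ofReal_mul (by positivity)]
  exact ENNReal.ofReal_le_ofReal (by linarith)

end Vale.Agent.P223.H620
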