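import Vale.Agent.P223.H620.Area
import Vale.Agent.P223.H620.Gns

/-! Sobolev inequality for functions supported in the domain of a conformal map to `ℝ^n`. -/

namespace Vale.Agent.P223.H620

open scoped ContDiff Topology ENNReal
open MeasureTheory Vale.Agent.P223.H Vale.Agent.P223.X

theorem sum_rpow_le {ι : Type} (T : Finset ι) (a : ι → ℝ) (ha : ∀ i, 0 ≤ a i) {s : ℝ}
    (hs : 1 ≤ s) : ∑ i ∈ T, a i ^ s ≤ (∑ i ∈ T, a i) ^ s := by
  classical
  induction T using Finset.induction_on with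
  | empty => simp [Real.zero_rpow (by linarith : s ≠ 0)]
  | insert i T hi ih =>
    rw [Finset.sum_insert hi, Finset.sum_insert hi]
    refine (add_le_add_right ih _).trans ?_
    exact Real.add_rpow_le_rpow_add (ha i) (Finset.sum_nonneg fun i _ => ha i) hs

/-- regularised square roots -/
theorem sqrt_reg {n : ℕ} {S : E n → ℝ} (hS : ContDiff ℝ ∞ S) (hS0 : ∀ p, 0 ≤ S p)
    (hc : HasCompactSupport S) {R : E n → ℝ}
    (hR : ∀ p, ∑ k, Vale.Agent.P223.H.pd k S p ^ 2 ≤ 4 * S p * R p) {ε : ℝ} (hε : 0 < ε)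
    (hR0 : ∀ p, 0 ≤ R p) :
    ContDiff ℝ 1 (fun p => √(S p + ε ^ 2) - ε) ∧ HasCompactSupport (fun p => √(S p + ε ^ 2) - ε) ∧
    ∀ p, ∑ k, Vale.Agent.P223.H.pd k (fun p => √(S p + ε ^ 2) - ε) p ^ 2 ≤ R p := by
  have hp : ∀ p, 0 < S p + ε ^ 2 := fun p => by have := hS0 p; positivity
  refine ⟨?_, ?_, fun p => ?_⟩
  · exact ((ContDiff.sqrt ((contDiff_infty.1 hS 1).add contDiff_const) fun p => (hp p).ne')).sub
      contDiff_const
  · refine HasCompactSupport.intro hc.isCompact fun p hpn => ?_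
    rw [image_eq_zero_of_notMem_tsupport hpn, zero_add, Real.sqrt_sq hε.le, sub_self]
  · have e : ∀ k, Vale.Agent.P223.H.pd k (fun p => √(S p + ε ^ 2) - ε) p =
        Vale.Agent.P223.H.pd k S p / (2 * √(S p + ε ^ 2)) := by
      intro k
      have h1 : HasFDerivAt S (fderiv ℝ S p) p :=
        (hS.differentiable (by simp) p).hasFDerivAt
      have h2 := ((h1.add_const (ε ^ 2)).sqrt (hp p).ne').sub_const ε
      unfold Vale.Agent.P223.H.pd
      rw [h2.fderiv, smul_apply, smul_eq_mul]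
      ring
    simp only [e, div_pow, ← Finset.sum_div]
    rw [mul_pow, Real.sq_sqrt (hp p).le, div_le_iff₀ (by have := hp p; positivity)]
    refine (hR p).trans ?_
    have := hR0 p
    nlinarith [mul_nonneg this (sq_nonneg ε)]

section
variable {n : ℕ} {M X Γ I : Type} [TopologicalSpace M] [TopologicalSpace X] [Group Γ]
    [MulAction Γ X] [T2Space X] {C : Cov n M X Γ I} {G : I → E n → Matrix (Fin n) (Fin n) ℝ}
    {U : Set X}
    {F : Fin n → X → ℝ} {r : X → ℝ} [MeasurableSpace X] [BorelSpace X] {μ : Measure X}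

theorem Cfl.sobolev (hn : 3 ≤ n) (hG : MetX C G) (h : Cfl C G U F r) (hV : VolX C G μ)
    {Kc : ℝ} (hKc : ∀ v : E n → ℝ, ContDiff ℝ 1 v → HasCompactSupport v →
    (∫⁻ x, ENNReal.ofReal (|v x| ^ (2 * (n : ℝ) / (n - 2)))) ^ (((n : ℝ) - 2) / n) ≤
      ENNReal.ofReal Kc * ∫⁻ x, ENNReal.ofReal (∑ k, Vale.Agent.P223.H.pd k v x ^ 2))
    {u : X → ℝ} (hu : C.Ck ∞ u) (hc : HasCompactSupport u) (hU : tsupport u ⊆ U) :
    (∫⁻ x, ENNReal.ofReal (|u x| ^ (2 * (n : ℝ) / (n - 2)) * (r x ^ n)⁻¹) ∂μ) ^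
        (((n : ℝ) - 2) / n) ≤
      ENNReal.ofReal Kc * ∫⁻ x, ENNReal.ofReal (r x ^ 2 * gsX C G u x * (r x ^ n)⁻¹) ∂μ := by
  have hn' : (3 : ℝ) ≤ n := by exact_mod_cast hn
  have hn2 : (0 : ℝ) < (n : ℝ) - 2 := by linarith
  set q : ℝ := 2 * (n : ℝ) / (n - 2) with hq
  have hq2 : 1 ≤ q / 2 := by
    rw [hq, div_div, le_div_iff₀ (by positivity)]; linarith
  have hq0 : 0 < q := by positivity
  set K := tsupport u with hKd
  have hK : IsCompact K := hc.isCompact
  have hf := fun p => h.fib_finite hG hK hU p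
  have hu0 : ∀ x, x ∉ K → u x = 0 := fun x hx => image_eq_zero_of_notMem_tsupport hx
  obtain ⟨s1, s2, s3, s4⟩ := h.fsum_sq hG hK hU hf hu hu0
  set S := fsum hf fun x => u x ^ 2 with hS
  set R := fsum hf fun x => r x ^ 2 * gsX C G u x with hR
  have hg0 : ∀ x, 0 ≤ r x ^ 2 * gsX C G u x := fun x =>
    mul_nonneg (sq_nonneg _) (gsX_nonneg hG u x)
  have hR0 : ∀ p, 0 ≤ R p := fun p => Finset.sum_nonneg fun x _ => hg0 x
  have hucont : Continuous u := Ck_continuous C fun γ i => (hu γ i).of_le (by simp)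
  have hgcont : Continuous (gsX C G u) := Ck_continuous C fun γ i =>
    (Ck_gsX hG (fun γ i => contDiff_infty.1 (hu γ i) 4) γ i).of_le (by norm_num)
  have hr := h.cont
  -- the right hand side
  obtain ⟨-, a1⟩ := h.area hG hV hK hK.measurableSet hU hf
    (q := fun x => ENNReal.ofReal (r x ^ 2 * gsX C G u x))
    ((hr.pow 2).mul hgcont).measurable.ennreal_ofReal
  have hRHS : ∫⁻ p, ENNReal.ofReal (R p) ≤
      ∫⁻ x, ENNReal.ofReal (r x ^ 2 * gsX C G u x * (r x ^ n)⁻¹) ∂μ := by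
    have e : ∀ p, ENNReal.ofReal (R p) =
        fsum hf (fun x => ENNReal.ofReal (r x ^ 2 * gsX C G u x)) p := fun p =>
      ENNReal.ofReal_sum_of_nonneg fun x _ => hg0 x
    simp only [e]
    rw [a1]
    refine (setLIntegral_le_lintegral _ _).trans (lintegral_mono fun x => ?_)
    rw [← ENNReal.ofReal_mul (hg0 x)]
  -- the left hand side
  obtain ⟨-, b1⟩ := h.area hG hV hK hK.measurableSet hU hf
    (q := fun x => ENNReal.ofReal (|u x| ^ q))
    (hucont.abs.measurable.pow_const q).ennreal_ofReal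
  have hLHS : ∫⁻ x, ENNReal.ofReal (|u x| ^ q * (r x ^ n)⁻¹) ∂μ ≤
      ∫⁻ p, ENNReal.ofReal (S p ^ (q / 2)) := by
    have e1 : ∫⁻ x, ENNReal.ofReal (|u x| ^ q * (r x ^ n)⁻¹) ∂μ =
        ∫⁻ x in K, ENNReal.ofReal (|u x| ^ q) * ENNReal.ofReal ((r x ^ n)⁻¹) ∂μ := by
      rw [← lintegral_indicator hK.measurableSet]
      refine lintegral_congr fun x => ?_
      by_cases hx : x ∈ K
      · rw [Set.indicator_of_mem hx, ← ENNReal.ofReal_mul (by positivity)]
      · rw [Set.indicator_of_notMem hx, hu0 x hx, abs_zero, Real.zero_rpow hq0.ne', zero_mul,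
          ENNReal.ofReal_zero]
    rw [e1, ← b1]
    refine lintegral_mono fun p => ?_
    have e2 : fsum hf (fun x => ENNReal.ofReal (|u x| ^ q)) p =
        ENNReal.ofReal (∑ x ∈ (hf p).toFinset, |u x| ^ q) :=
      (ENNReal.ofReal_sum_of_nonneg fun x _ => by positivity).symm
    rw [e2]
    refine ENNReal.ofReal_le_ofReal ?_
    have e3 : ∀ x, |u x| ^ q = (u x ^ 2) ^ (q / 2) := by
      intro x
      rw [← sq_abs (u x), ← Real.rpow_natCast, ← Real.rpow_mul (abs_nonneg _)]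
      congr 1
      push_cast
      ring
    simp only [e3]
    exact sum_rpow_le _ _ (fun x => sq_nonneg _) hq2
  -- approximation
  set ε : ℕ → ℝ := fun j => 1 / ((j : ℝ) + 1) with hε
  have hε0 : ∀ j, 0 < ε j := fun j => by positivity
  set B : ℝ≥0∞ := ENNReal.ofReal Kc *
    ∫⁻ x, ENNReal.ofReal (r x ^ 2 * gsX C G u x * (r x ^ n)⁻¹) ∂μ with hB
  have hj : ∀ j, ∫⁻ p, ENNReal.ofReal (|√(S p + ε j ^ 2) - ε j| ^ q) ≤ B ^ ((n : ℝ) / (n - 2)) := by
    intro j
    obtain ⟨v1, v2, v3⟩ := sqrt_reg s1 s3 s2 s4 (hε0 j) hR0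
    have h1 := hKc _ v1 v2
    have h2 : (∫⁻ p, ENNReal.ofReal (|√(S p + ε j ^ 2) - ε j| ^ q)) ^ (((n : ℝ) - 2) / n) ≤ B := by
      refine h1.trans ?_
      rw [hB]
      refine mul_le_mul_right ?_ _
      exact (lintegral_mono fun p => ENNReal.ofReal_le_ofReal (v3 p)).trans hRHS
    have h3 := ENNReal.rpow_le_rpow h2 (z := (n : ℝ) / (n - 2)) (by positivity)
    rw [← ENNReal.rpow_mul] at h3
    have e : ((n : ℝ) - 2) / n * ((n : ℝ) / (n - 2)) = 1 := by
      have : (n : ℝ) ≠ 0 := by positivity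
      field_simp
    rwa [e, ENNReal.rpow_one] at h3
  have hlim : ∀ p, Filter.Tendsto (fun j => ENNReal.ofReal (|√(S p + ε j ^ 2) - ε j| ^ q))
      Filter.atTop (𝓝 (ENNReal.ofReal (S p ^ (q / 2)))) := by
    intro p
    have hεl : Filter.Tendsto ε Filter.atTop (𝓝 0) := tendsto_one_div_add_atTop_nhds_zero_nat
    have hcont : Continuous fun t : ℝ => ENNReal.ofReal (|√(S p + t ^ 2) - t| ^ q) := by
      refine ENNReal.continuous_ofReal.comp ?_
      refine Continuous.rpow_const ?_ fun t => Or.inr hq0.le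
      exact ((Real.continuous_sqrt.comp (continuous_const.add (continuous_pow 2))).sub
        continuous_id).abs
    have h1 := (hcont.tendsto 0).comp hεl
    have e : ENNReal.ofReal (|√(S p + (0 : ℝ) ^ 2) - 0| ^ q) = ENNReal.ofReal (S p ^ (q / 2)) := by
      congr 1
      rw [sub_zero, abs_of_nonneg (Real.sqrt_nonneg _)]
      have : S p + (0 : ℝ) ^ 2 = S p := by ring
      rw [this, Real.sqrt_eq_rpow, ← Real.rpow_mul (s3 p)]
      congr 1
      ring
    rw [← e]
    exact h1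
  have hfatou : ∫⁻ p, ENNReal.ofReal (S p ^ (q / 2)) ≤ B ^ ((n : ℝ) / (n - 2)) := by
    have e : ∀ p, ENNReal.ofReal (S p ^ (q / 2)) = Filter.liminf
        (fun j => ENNReal.ofReal (|√(S p + ε j ^ 2) - ε j| ^ q)) Filter.atTop := fun p =>
      (hlim p).liminf_eq.symm
    simp only [e]
    refine (lintegral_liminf_le fun j => ?_).trans ?_
    · refine Measurable.ennreal_ofReal ?_
      refine Measurable.pow_const ?_ q
      exact (((Real.continuous_sqrt.comp (s1.continuous.add continuous_const)).sub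
        continuous_const).abs).measurable
    · refine Filter.liminf_le_of_frequently_le' ?_
      exact Filter.Frequently.of_forall hj
  have h4 := ENNReal.rpow_le_rpow (hLHS.trans hfatou) (z := ((n : ℝ) - 2) / n) (by positivity)
  rw [← ENNReal.rpow_mul (B)] at h4
  have e : (n : ℝ) / (n - 2) * (((n : ℝ) - 2) / n) = 1 := by
    have : (n : ℝ) ≠ 0 := by positivity
    field_simp
  rwa [e, ENNReal.rpow_one] at h4

end

end Vale.Agent.P223.H620
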