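import Vale.Agent.P223.H620.Cut
import Vale.Agent.P223.H620.Push

/-! The Sobolev inequality of conformally flat manifolds from the developing map. -/

namespace Vale.Agent.P223.H620

open scoped ContDiff Topology ENNReal
open MeasureTheory Vale.Agent.P223.H Vale.Agent.P223.X

section
variable {n : ℕ} {M X Γ I : Type} [TopologicalSpace M] [TopologicalSpace X] [Group Γ]
    [MulAction Γ X] {C : Cov n M X Γ I} {G : I → E n → Matrix (Fin n) (Fin n) ℝ}
    {D : Fin (n + 1) → X → ℝ} {t : X → ℝ}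

/-- the energy -/
noncomputable def En [MeasurableSpace X] (C : Cov n M X Γ I)
    (G : I → E n → Matrix (Fin n) (Fin n) ℝ) (μ : Measure X) (f : X → ℝ) : ℝ :=
  ∫ x, (gsX C G f x + ((n : ℝ) - 2) / (4 * (n - 1)) * H66.scX C G x * f x ^ 2) ∂μ

theorem log_rr (h : H66.DevX C G D t) (σ : ℝ) : C.Ck ∞ fun x => Real.log (rr D t σ x) :=
  fun γ i => (rr_smooth h σ γ i).log fun _ => (rr_pos h σ _).ne'

theorem log_t (h : H66.DevX C G D t) : C.Ck ∞ fun x => Real.log (t x) :=
  fun γ i => (h.smooth_t γ i).log fun _ => (h.pos _).ne'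

theorem rr_round (h : H66.DevX C G D t) {σ : ℝ} (hσ : σ ^ 2 = 1) {x : X} (hx : x ∈ dU D t σ) :
    rr D t σ x = t x * (2 / (1 + ∑ k, st D t σ k x ^ 2)) := by
  have h1 := rr_eq h hx
  have h2 := rr_pos h σ x
  have h3 := null' h x
  have h4 : ∑ k, st D t σ k x ^ 2 = (∑ k : Fin n, D k.castSucc x ^ 2) / rr D t σ x ^ 2 := by
    rw [Finset.sum_div]
    exact Finset.sum_congr rfl fun k _ => by unfold st; rw [div_pow]
  have h5 : ∑ k : Fin n, D k.castSucc x ^ 2 =
      rr D t σ x * (t x + σ * D (Fin.last n) x) := by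
    rw [h1]
    linear_combination h3 + D (Fin.last n) x ^ 2 * hσ
  rw [h4, h5]
  set ρ := rr D t σ x with hρ
  have h6 : 1 + ρ * (t x + σ * D (Fin.last n) x) / ρ ^ 2 = 2 * t x / ρ := by
    field_simp
    rw [h1]; ring
  rw [h6]
  have := h.pos x
  field_simp

/-- scalar curvature, by `log t` -/
theorem sc_t (hG : MetX C G) (h : H66.DevX C G D t) (x : X) :
    H66.scX C G x = -2 * ((n : ℝ) - 1) * lapX C G (fun x => Real.log (t x)) x +
      ((n : ℝ) - 1) * ((n : ℝ) - 2) * gsX C G (fun x => Real.log (t x)) x +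
      n * (n - 1) * (t x ^ 2)⁻¹ := by
  have key : ∀ σ : ℝ, σ ^ 2 = 1 → x ∈ dU D t σ →
      H66.scX C G x = -2 * ((n : ℝ) - 1) * lapX C G (fun x => Real.log (t x)) x +
      ((n : ℝ) - 1) * ((n : ℝ) - 2) * gsX C G (fun x => Real.log (t x)) x +
      n * (n - 1) * (t x ^ 2)⁻¹ := fun σ hσ hx =>
    (dev_cfl h hσ).scal_round hG h.pos (log_t h) (fun z hz => rr_round h hσ hz) hx
  rcases lt_or_ge (sl D t x) (3 / 4) with hx | hx
  · exact key 1 (by norm_num) (by change 1 * sl D t x < 3 / 4; linarith)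
  · exact key (-1) (by norm_num) (by change -1 * sl D t x < 3 / 4; linarith)

theorem sc_cont (hG : MetX C G) (h : H66.DevX C G D t) : Continuous (H66.scX C G) := by
  have e : H66.scX C G = fun x => -2 * ((n : ℝ) - 1) * lapX C G (fun x => Real.log (t x)) x +
      ((n : ℝ) - 1) * ((n : ℝ) - 2) * gsX C G (fun x => Real.log (t x)) x +
      n * (n - 1) * (t x ^ 2)⁻¹ := funext fun x => sc_t hG h x
  rw [e]
  refine ((continuous_const.mul (lapX_cont hG (log_t h))).add
    (continuous_const.mul (gsX_cont hG (log_t h)))).add (continuous_const.mul ?_)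
  exact ((Ck_cont h.smooth_t).pow 2).inv₀ fun x => pow_ne_zero 2 (h.pos x).ne'

variable [MeasurableSpace X] [BorelSpace X] [T2Space X] {μ : Measure X}

theorem en_integrable (hG : MetX C G) (hV : VolX C G μ) (h : H66.DevX C G D t) {f : X → ℝ}
    (hf : C.Ck ∞ f) (hc : HasCompactSupport f) : Integrable (fun x => gsX C G f x +
      ((n : ℝ) - 2) / (4 * (n - 1)) * H66.scX C G x * f x ^ 2) μ := by
  have := H566.finComp hG hV
  have hc2 : HasCompactSupport (fun y => f y ^ 2) := by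
    have := hc.comp_left (g := fun s : ℝ => s ^ 2) (by norm_num)
    exact this
  refine Continuous.integrable_of_hasCompactSupport ?_ ?_
  · exact (gsX_cont hG hf).add ((continuous_const.mul (sc_cont hG h)).mul ((Ck_cont hf).pow 2))
  · exact (gsX_supp hG hc).add hc2.mul_left

omit [T2Space X] in
theorem t2_integrable (hG : MetX C G) (hV : VolX C G μ) (h : H66.DevX C G D t) {f : X → ℝ}
    (hf : C.Ck ∞ f) (hc : HasCompactSupport f) : Integrable (fun x => (t x ^ 2)⁻¹ * f x ^ 2) μ := by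
  have := H566.finComp hG hV
  have hc2 : HasCompactSupport (fun y => f y ^ 2) := by
    have := hc.comp_left (g := fun s : ℝ => s ^ 2) (by norm_num)
    exact this
  refine Continuous.integrable_of_hasCompactSupport ?_ hc2.mul_left
  exact (((Ck_cont h.smooth_t).pow 2).inv₀ fun x => pow_ne_zero 2 (h.pos x).ne').mul
    ((Ck_cont hf).pow 2)

/-- the spectral gap -/
theorem en_lower [Fintype I] (hn : 3 ≤ n) (hG : MetX C G) (hV : VolX C G μ)
    (h : H66.DevX C G D t) {f : X → ℝ} (hf : C.Ck ∞ f) (hc : HasCompactSupport f) :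
    (n : ℝ) * (n - 2) / 4 * ∫ x, (t x ^ 2)⁻¹ * f x ^ 2 ∂μ ≤ En C G μ f := by
  have := H566.finComp hG hV
  have hn' : (3 : ℝ) ≤ n := by exact_mod_cast hn
  set a : ℝ := ((n : ℝ) - 2) / 2 with ha
  have hc2 : HasCompactSupport (fun y => f y ^ 2) := by
    have := hc.comp_left (g := fun s : ℝ => s ^ 2) (by norm_num)
    exact this
  have h1 := en_int hG hV hf hc (log_t h) a
  have h2 : 0 ≤ ∫ x, (gsX C G f x + (-a * lapX C G (fun x => Real.log (t x)) x +
      a ^ 2 * gsX C G (fun x => Real.log (t x)) x) * f x ^ 2) ∂μ := by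
    rw [← h1]
    exact integral_nonneg fun x => mul_nonneg (Real.exp_pos _).le (gsX_nonneg hG _ _)
  have i1 : Integrable (fun x => gsX C G f x + (-a * lapX C G (fun x => Real.log (t x)) x +
      a ^ 2 * gsX C G (fun x => Real.log (t x)) x) * f x ^ 2) μ := by
    refine Continuous.integrable_of_hasCompactSupport ?_ ?_
    · exact (gsX_cont hG hf).add (((continuous_const.mul (lapX_cont hG (log_t h))).add
        (continuous_const.mul (gsX_cont hG (log_t h)))).mul ((Ck_cont hf).pow 2))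
    · exact (gsX_supp hG hc).add hc2.mul_left
  have h3 : En C G μ f = ∫ x, (gsX C G f x + (-a * lapX C G (fun x => Real.log (t x)) x +
      a ^ 2 * gsX C G (fun x => Real.log (t x)) x) * f x ^ 2) ∂μ +
      (n : ℝ) * (n - 2) / 4 * ∫ x, (t x ^ 2)⁻¹ * f x ^ 2 ∂μ := by
    rw [← integral_const_mul, ← integral_add i1 ((t2_integrable hG hV h hf hc).const_mul _)]
    unfold En
    refine integral_congr_ae (Filter.Eventually.of_forall fun x => ?_)
    simp only
    rw [sc_t hG h x, ha]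
    have : (n : ℝ) - 1 ≠ 0 := by linarith
    field_simp
    ring
  rw [h3]
  linarith

/-- the inequality for functions supported in the domain of a stereographic projection -/
theorem sob_U [Fintype I] (hn : 3 ≤ n) (hG : MetX C G) (hV : VolX C G μ)
    (h : H66.DevX C G D t) {σ : ℝ} (hσ : σ ^ 2 = 1)
    {Kc : ℝ} (hKc : ∀ v : E n → ℝ, ContDiff ℝ 1 v → HasCompactSupport v →
    (∫⁻ x, ENNReal.ofReal (|v x| ^ (2 * (n : ℝ) / (n - 2)))) ^ (((n : ℝ) - 2) / n) ≤
      ENNReal.ofReal Kc * ∫⁻ x, ENNReal.ofReal (∑ k, Vale.Agent.P223.H.pd k v x ^ 2))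
    {f : X → ℝ} (hf : C.Ck ∞ f) (hc : HasCompactSupport f) (hU : tsupport f ⊆ dU D t σ) :
    (∫⁻ x, ENNReal.ofReal (|f x| ^ (2 * (n : ℝ) / (n - 2))) ∂μ) ^ (((n : ℝ) - 2) / n) ≤
      ENNReal.ofReal Kc * ENNReal.ofReal (En C G μ f) := by
  have := H566.finComp hG hV
  have hn' : (3 : ℝ) ≤ n := by exact_mod_cast hn
  have hn2 : (n : ℝ) - 2 ≠ 0 := by linarith
  have hcf := dev_cfl h hσ
  set a : ℝ := ((n : ℝ) - 2) / 2 with ha
  set ℓ : X → ℝ := fun x => Real.log (rr D t σ x) with hℓ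
  have hℓs : C.Ck ∞ ℓ := log_rr h σ
  set u : X → ℝ := fun x => Real.exp (a * ℓ x) * f x with hu
  have hus : C.Ck ∞ u := fun γ i => (contDiff_const.mul (hℓs γ i)).exp.mul (hf γ i)
  have hts : tsupport u ⊆ tsupport f := by
    refine closure_mono fun x hx => ?_
    rw [Function.mem_support] at hx ⊢
    intro h0; exact hx (by rw [hu]; simp only; rw [h0, mul_zero])
  have huc : HasCompactSupport u := hc.mul_left
  have h1 := hcf.sobolev hn hG hV hKc hus huc (hts.trans hU)
  have e1 : ∀ x, |u x| ^ (2 * (n : ℝ) / (n - 2)) * (rr D t σ x ^ n)⁻¹ =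
      |f x| ^ (2 * (n : ℝ) / (n - 2)) := by
    intro x
    have h0 := rr_pos h σ x
    rw [hu]
    simp only
    rw [abs_mul, Real.abs_exp, Real.mul_rpow (Real.exp_pos _).le (abs_nonneg _), ← Real.exp_mul]
    have e : a * ℓ x * (2 * (n : ℝ) / (n - 2)) = (n : ℕ) * ℓ x := by
      rw [ha]; field_simp
    rw [e, Real.exp_nat_mul, hℓ]
    simp only
    rw [Real.exp_log h0]
    have : rr D t σ x ^ n ≠ 0 := by positivity
    field_simp
  have e2 : ∀ x, rr D t σ x ^ 2 * gsX C G u x * (rr D t σ x ^ n)⁻¹ =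
      Real.exp (-(2 * a * ℓ x)) * gsX C G u x := by
    intro x
    have h0 := rr_pos h σ x
    have e : Real.exp (-(2 * a * ℓ x)) = rr D t σ x ^ 2 * (rr D t σ x ^ n)⁻¹ := by
      have e3 : -(2 * a * ℓ x) = (2 : ℕ) * ℓ x - (n : ℕ) * ℓ x := by
        rw [ha]; push_cast; ring
      rw [e3, Real.exp_sub, Real.exp_nat_mul, Real.exp_nat_mul, hℓ]
      simp only
      rw [Real.exp_log h0, div_eq_mul_inv]
    rw [e]; ring
  simp only [e1, e2] at h1
  refine h1.trans (mul_le_mul_right (le_of_eq ?_) _)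
  have i1 : Integrable (fun x => Real.exp (-(2 * a * ℓ x)) * gsX C G u x) μ := by
    refine Continuous.integrable_of_hasCompactSupport ?_ (gsX_supp hG huc).mul_left
    exact (Real.continuous_exp.comp (continuous_const.mul (Ck_cont hℓs)).neg).mul
      (gsX_cont hG hus)
  rw [← ofReal_integral_eq_lintegral_ofReal i1 (Filter.Eventually.of_forall fun x =>
    mul_nonneg (Real.exp_pos _).le (gsX_nonneg hG _ _))]
  congr 1
  rw [en_int hG hV hf hc hℓs a]
  unfold En
  refine integral_congr_ae (Filter.Eventually.of_forall fun x => ?_)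
  simp only
  by_cases hx : x ∈ tsupport f
  · rw [hcf.scal_flat hG hℓs (hU hx), ha]
    have : (n : ℝ) - 1 ≠ 0 := by linarith
    field_simp
    ring
  · rw [image_eq_zero_of_notMem_tsupport hx]; ring

/-- cutting -/
theorem en_cut (hG : MetX C G) (hV : VolX C G μ)
    (h : H66.DevX C G D t) {Θ : ℝ} (hΘ : ∀ x ∈ Set.Icc (-1 : ℝ) 1, deriv th x ^ 2 ≤ Θ)
    {f : X → ℝ} (hf : C.Ck ∞ f) (hc : HasCompactSupport f) :
    En C G μ (fun x => Real.cos (th (sl D t x)) * f x) +
      En C G μ (fun x => Real.sin (th (sl D t x)) * f x) ≤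
      En C G μ f + Θ * ∫ x, (t x ^ 2)⁻¹ * f x ^ 2 ∂μ := by
  have hs1 : C.Ck ∞ (fun x => Real.cos (th (sl D t x)) * f x) := fun γ i =>
    (Real.contDiff_cos.comp (th_smooth.comp (sl_smooth h γ i))).mul (hf γ i)
  have hs2 : C.Ck ∞ (fun x => Real.sin (th (sl D t x)) * f x) := fun γ i =>
    (Real.contDiff_sin.comp (th_smooth.comp (sl_smooth h γ i))).mul (hf γ i)
  have i1 := en_integrable hG hV h hs1 hc.mul_left
  have i2 := en_integrable hG hV h hs2 hc.mul_left
  have i3 := en_integrable hG hV h hf hc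
  have i4 := (t2_integrable hG hV h hf hc).const_mul Θ
  unfold En
  rw [← integral_const_mul, ← integral_add i1 i2, ← integral_add i3 i4]
  refine integral_mono (i1.add i2) (i3.add i4) fun x => ?_
  simp only
  have h1 := cut_pt hG h hf x
  have h2 := gs_sl hG h x
  have h3 := hΘ _ (abs_sl h x)
  have h4 : deriv th (sl D t x) ^ 2 * gsX C G (sl D t) x * f x ^ 2 ≤
      Θ * ((t x ^ 2)⁻¹ * f x ^ 2) := by
    rw [← mul_assoc]
    refine mul_le_mul_of_nonneg_right ?_ (sq_nonneg _)
    exact mul_le_mul h3 h2 (gsX_nonneg hG _ _) ((sq_nonneg _).trans h3)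
  have h5 := Real.sin_sq_add_cos_sq (th (sl D t x))
  set c := ((n : ℝ) - 2) / (4 * (n - 1)) * H66.scX C G x with hcd
  have h6 : c * (Real.cos (th (sl D t x)) * f x) ^ 2 + c * (Real.sin (th (sl D t x)) * f x) ^ 2 =
      c * f x ^ 2 := by linear_combination c * f x ^ 2 * h5
  linarith

omit [MeasurableSpace X] [BorelSpace X] [T2Space X] in
theorem supp_cos (h : H66.DevX C G D t) (f : X → ℝ) :
    tsupport (fun x => Real.cos (th (sl D t x)) * f x) ⊆ dU D t 1 := by
  have h1 : IsClosed {x | sl D t x ≤ 1 / 2} :=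
    isClosed_le (Ck_cont (sl_smooth h)) continuous_const
  refine (closure_minimal (fun x hx => ?_) h1).trans fun x hx => ?_
  · rw [Function.mem_support] at hx
    change sl D t x ≤ 1 / 2
    by_contra h2
    push Not at h2
    exact hx (by rw [th_one h2.le, Real.cos_pi_div_two, zero_mul])
  · change 1 * sl D t x < 3 / 4
    have : sl D t x ≤ 1 / 2 := hx
    linarith

omit [MeasurableSpace X] [BorelSpace X] [T2Space X] in
theorem supp_sin (h : H66.DevX C G D t) (f : X → ℝ) :
    tsupport (fun x => Real.sin (th (sl D t x)) * f x) ⊆ dU D t (-1) := by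
  have h1 : IsClosed {x | -(1 / 2) ≤ sl D t x} :=
    isClosed_le continuous_const (Ck_cont (sl_smooth h))
  refine (closure_minimal (fun x hx => ?_) h1).trans fun x hx => ?_
  · rw [Function.mem_support] at hx
    change -(1 / 2) ≤ sl D t x
    by_contra h2
    push Not at h2
    exact hx (by rw [th_zero h2.le, Real.sin_zero, zero_mul])
  · change -1 * sl D t x < 3 / 4
    have : -(1 / 2) ≤ sl D t x := hx
    linarith

omit [TopologicalSpace X] [BorelSpace X] [T2Space X] in
/-- Minkowski inequality -/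
theorem mink (hn : 3 ≤ n) {f : X → ℝ} (hf : Measurable f) {θ : X → ℝ} (hθ : Measurable θ) :
    (∫⁻ x, ENNReal.ofReal (|f x| ^ (2 * (n : ℝ) / (n - 2))) ∂μ) ^ (((n : ℝ) - 2) / n) ≤
      (∫⁻ x, ENNReal.ofReal (|Real.cos (θ x) * f x| ^ (2 * (n : ℝ) / (n - 2))) ∂μ) ^
        (((n : ℝ) - 2) / n) +
      (∫⁻ x, ENNReal.ofReal (|Real.sin (θ x) * f x| ^ (2 * (n : ℝ) / (n - 2))) ∂μ) ^
        (((n : ℝ) - 2) / n) := by
  have hn' : (3 : ℝ) ≤ n := by exact_mod_cast hn
  have hn2 : (0 : ℝ) < (n : ℝ) - 2 := by linarith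
  set p : ℝ := (n : ℝ) / (n - 2) with hp
  have hp1 : 1 ≤ p := by rw [hp, le_div_iff₀ hn2]; linarith
  have hp0 : 0 ≤ p := by linarith
  have e1 : ((n : ℝ) - 2) / n = 1 / p := by rw [hp, one_div_div]
  have e2 : ∀ s : ℝ, ENNReal.ofReal (|s| ^ (2 * (n : ℝ) / (n - 2))) =
      ENNReal.ofReal (s ^ 2) ^ p := by
    intro s
    rw [ENNReal.ofReal_rpow_of_nonneg (sq_nonneg _) hp0]
    congr 1
    rw [← sq_abs, ← Real.rpow_natCast, ← Real.rpow_mul (abs_nonneg _)]
    congr 1
    rw [hp]; push_cast; ring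
  simp only [e2, e1]
  have h1 := ENNReal.lintegral_Lp_add_le (μ := μ)
    (f := fun x => ENNReal.ofReal ((Real.cos (θ x) * f x) ^ 2))
    (g := fun x => ENNReal.ofReal ((Real.sin (θ x) * f x) ^ 2))
    (((Real.measurable_cos.comp hθ).mul hf).pow_const 2).ennreal_ofReal.aemeasurable
    (((Real.measurable_sin.comp hθ).mul hf).pow_const 2).ennreal_ofReal.aemeasurable hp1
  refine le_trans (le_of_eq ?_) h1
  congr 1
  refine lintegral_congr fun x => ?_
  congr 1
  rw [Pi.add_apply, ← ENNReal.ofReal_add (sq_nonneg _) (sq_nonneg _)]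
  congr 1
  have h5 := Real.sin_sq_add_cos_sq (θ x)
  linear_combination -(f x ^ 2) * h5

end

/-- BLOCK B12b -/
theorem specSob : H66.SpecSob := by
  intro n hn
  have hn' : (3 : ℝ) ≤ n := by exact_mod_cast hn
  have hn2 : (0 : ℝ) < (n : ℝ) - 2 := by linarith
  obtain ⟨K, hK0, hK⟩ := gns n hn
  obtain ⟨Θ, hΘ0, hΘ⟩ := th_bd
  set N : ℝ := (n : ℝ) * (n - 2) / 4 with hN
  have hN0 : 0 < N := by positivity
  set L : ℝ := K * (1 + Θ / N) with hL
  have hL0 : 0 < L := by positivity
  refine ⟨L⁻¹, by positivity, ?_⟩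
  intro M X Γ I _ _ _ _ _ _ _ _ _ _ C G μ D t hG hV h f hf
  obtain ⟨hf1, hc⟩ := hf
  have := H566.finComp hG hV
  have hfc := Ck_cont hf1
  have hs1 : C.Ck ∞ (fun x => Real.cos (th (sl D t x)) * f x) := fun γ i =>
    (Real.contDiff_cos.comp (th_smooth.comp (sl_smooth h γ i))).mul (hf1 γ i)
  have hs2 : C.Ck ∞ (fun x => Real.sin (th (sl D t x)) * f x) := fun γ i =>
    (Real.contDiff_sin.comp (th_smooth.comp (sl_smooth h γ i))).mul (hf1 γ i)
  have b1 := sob_U hn hG hV h (σ := 1) (by norm_num) hK hs1 hc.mul_left (supp_cos h f)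
  have b2 := sob_U hn hG hV h (σ := -1) (by norm_num) hK hs2 hc.mul_left (supp_sin h f)
  have b3 := mink (μ := μ) hn hfc.measurable (θ := fun x => th (sl D t x))
    (th_smooth.continuous.comp (Ck_cont (sl_smooth h))).measurable
  have b4 := en_cut hG hV h hΘ hf1 hc
  have b5 := en_lower hn hG hV h hf1 hc
  have t0 : 0 ≤ ∫ x, (t x ^ 2)⁻¹ * f x ^ 2 ∂μ := integral_nonneg fun x => by positivity
  have e0 : 0 ≤ En C G μ f := (mul_nonneg hN0.le t0).trans b5
  have e1 : 0 ≤ En C G μ (fun x => Real.cos (th (sl D t x)) * f x) := by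
    refine le_trans (mul_nonneg hN0.le ?_) (en_lower hn hG hV h hs1 hc.mul_left)
    exact integral_nonneg fun x => by positivity
  have e2 : 0 ≤ En C G μ (fun x => Real.sin (th (sl D t x)) * f x) := by
    refine le_trans (mul_nonneg hN0.le ?_) (en_lower hn hG hV h hs2 hc.mul_left)
    exact integral_nonneg fun x => by positivity
  have b6 : (∫⁻ x, ENNReal.ofReal (|f x| ^ (2 * (n : ℝ) / (n - 2))) ∂μ) ^ (((n : ℝ) - 2) / n) ≤
      ENNReal.ofReal (L * En C G μ f) := by
    refine (b3.trans (add_le_add b1 b2)).trans ?_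
    rw [← mul_add, ← ENNReal.ofReal_add e1 e2, ← ENNReal.ofReal_mul hK0.le]
    refine ENNReal.ofReal_le_ofReal ?_
    rw [hL, mul_assoc]
    refine mul_le_mul_of_nonneg_left (b4.trans ?_) hK0.le
    rw [add_mul, one_mul, div_mul_eq_mul_div, mul_div_assoc]
    refine add_le_add_right (mul_le_mul_of_nonneg_left ?_ hΘ0) _
    rw [le_div_iff₀ hN0, mul_comm]
    exact b5
  -- back to real integrals
  have hq : 0 < 2 * (n : ℝ) / (n - 2) := by positivity
  have i1 : Integrable (fun x => |f x| ^ (2 * (n : ℝ) / (n - 2))) μ := by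
    refine Continuous.integrable_of_hasCompactSupport (hfc.abs.rpow_const fun x => Or.inr hq.le) ?_
    have := hc.comp_left (g := fun s : ℝ => |s| ^ (2 * (n : ℝ) / (n - 2)))
      (by simp only [abs_zero]; exact Real.zero_rpow hq.ne')
    exact this
  rw [← ofReal_integral_eq_lintegral_ofReal i1 (Filter.Eventually.of_forall fun x => by
    positivity), ENNReal.ofReal_rpow_of_nonneg (integral_nonneg fun x => by positivity)
      (by positivity)] at b6
  have b7 := (ENNReal.ofReal_le_ofReal_iff (mul_nonneg hL0.le e0)).1 b6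
  change L⁻¹ * _ ≤ En C G μ f
  rw [inv_mul_le_iff₀ hL0]
  exact b7

end Vale.Agent.P223.H620
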