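import Vale.Agent.P223.H620.Dec
import Vale.Agent.P223.X.X3

/-! Block K2b: exponential decay. -/

namespace Vale.Agent.P223.H620

open scoped ContDiff InnerProductSpace Topology
open MeasureTheory Vale.Agent.P223.H Vale.Agent.P223.X Vale.Agent.P223.H566

theorem decA (hD : SpecDense) (hL : SpecLocal) : SpecDecA := by
  intro n M X Γ I V H _ _ _ _ _ _ _ _ _ _ _ _ _ _ _ _ c ι _ κ hn hκ
  classical
  obtain ⟨J, _, ⟨F⟩⟩ := X3.main n M X Γ I c.C
  obtain ⟨W, U, c0, hW, -⟩ := X5.main PartX.main Vol.main BddL.main n M X Γ I c.C c.G J F c.μ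
    c.S.met c.vol
  -- the operators
  have hsm : ∀ l : Γ × ι, c.C.Ck ∞ (fun x => κ l.2 (l.1⁻¹ • x)) := fun l =>
    Ck_smul c.C (hκ.sm l.2) l.1⁻¹
  have hk := fun l : Γ × ι => mul_op c.E c.vol (hsm l) (b := 1) zero_le_one fun x => by
    rw [abs_of_nonneg (hκ.nn _ _)]; exact hκ.le _ _
  choose k hk1 hk2 using hk
  -- the compact set
  set B : Set X := ⋃ i, tsupport (κ i) with hB
  have hBc : IsCompact B := isCompact_iUnion fun i => hκ.supp i
  obtain ⟨s, hs⟩ := Bas3.finite_cover c.C hBc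
  obtain ⟨c1, hc1⟩ := hW.harnack 1
  obtain ⟨a, ha⟩ := hW.grad
  have hWc : Continuous W := Ck_continuous c.C (fun γ i => (hW.smooth γ i).of_le (by simp))
  obtain ⟨A', hA'⟩ := hBc.exists_bound_of_continuousOn (f := fun x => (W x)⁻¹)
    ((hWc.inv₀ fun x => (hW.pos x).ne').continuousOn)
  have hA'' : ∀ x ∈ B, 1 ≤ |A'| * W x := fun x hx => by
    have h1 := hA' x hx
    rw [norm_inv, Real.norm_of_nonneg (hW.pos x).le] at h1
    have h2 := h1.trans (le_abs_self A')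
    rw [inv_le_comm₀ (hW.pos x) (lt_of_lt_of_le (inv_pos.2 (hW.pos x)) h2)] at h2
    have h3 : 0 < |A'| := lt_of_lt_of_le (inv_pos.2 (hW.pos x)) (h1.trans (le_abs_self A'))
    rw [inv_le_iff_one_le_mul₀ h3] at h2
    linarith
  set w0 : Γ → ℝ := fun γ => ∑ p ∈ s, W ((γ⁻¹ * p.1) • c.C.ψ p.2 0) with hw0
  have hw0n : ∀ γ, 0 ≤ w0 γ := fun γ => Finset.sum_nonneg fun p _ => (hW.pos _).le
  have hw0s : Summable w0 := by
    refine summable_sum fun p _ => ?_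
    have h1 := (hW.sum (c.C.ψ p.2 0)).summable
    have h2 := ((Equiv.inv Γ).trans (Equiv.mulRight p.1)).summable_iff.2 h1
    exact h2
  have hWle : ∀ γ : Γ, ∀ z ∈ B, W (γ⁻¹ • z) ≤ |c1| * w0 γ := by
    intro γ z hz
    obtain ⟨p, hp, y, hy, rfl⟩ := Set.mem_iUnion₂.1 (hs hz)
    have h1 := hc1 (γ⁻¹ * p.1) p.2 y 0 (mem_ball_zero_iff.1 hy).le (by simp)
    simp only
    rw [← mul_smul]
    refine h1.trans ((mul_le_mul_of_nonneg_right (le_abs_self c1) (hW.pos _).le).trans ?_)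
    refine mul_le_mul_of_nonneg_left ?_ (abs_nonneg _)
    exact Finset.single_le_sum (f := fun p : Γ × I => W ((γ⁻¹ * p.1) • c.C.ψ p.2 0))
      (fun p _ => (hW.pos _).le) hp
  have hWgt : ∀ γ : Γ, Wgt c.C c.G |a| (fun x => W (γ⁻¹ • x)) := fun γ => by
    refine ⟨Ck_smul c.C hW.smooth γ⁻¹, fun x => hW.pos _, fun x => ?_, fun x => ?_⟩
    · have h1 := le_hasSum (hW.sum (γ⁻¹ • x)) (1 : Γ) fun b _ => (hW.pos _).le
      rwa [one_smul] at h1
    · rw [gsX_smul c.S.met]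
      refine (ha _).trans_eq ?_
      rw [mul_pow, mul_pow, sq_abs]
  refine ⟨k, fun γ => |c1| * |A'| * w0 γ, fun j => 2 ^ (j + 1), max 1 (2 * |a|),
    ⟨fun l hl φ => hk1 l φ⟩, fun l => (k l).opNorm_le_bound zero_le_one (hk2 l), le_max_left _ _,
    fun γ => mul_nonneg (by positivity) (hw0n γ), hw0s.mul_left _, ?_⟩
  intro m hm g p hR j l l'
  have hm0 : 0 < m := lt_of_lt_of_le one_pos ((le_max_left _ _).trans hm)
  have h := dec_one hD hL c (abs_nonneg a) (hWgt l'.1) hm0 ((le_max_right _ _).trans hm) hR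
    (hsm l) (hsm l') (hk1 l) (hk1 l') (b := |c1| * w0 (l.1⁻¹ * l'.1)) (b' := |A'|)
    (mul_nonneg (abs_nonneg _) (hw0n _)) (abs_nonneg _) ?_ ?_ j
  · have e1 : (2 / m ^ 2) ^ j = 2 ^ j * m ^ (-(2 * j : ℝ)) := by
      rw [Real.rpow_neg hm0.le, div_pow, ← pow_mul, div_eq_mul_inv]
      congr 2
      have : (2 * j : ℝ) = ((2 * j : ℕ) : ℝ) := by push_cast; ring
      rw [this, Real.rpow_natCast]
    have e2 : 2 / m * (2 / m ^ 2) ^ j = 2 ^ (j + 1) * m ^ (-(2 * j + 1 : ℝ)) := by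
      rw [e1, neg_add, Real.rpow_add hm0, Real.rpow_neg_one, pow_succ]
      ring
    have hx : 0 ≤ |c1| * |A'| * w0 (l.1⁻¹ * l'.1) := mul_nonneg (by positivity) (hw0n _)
    constructor
    · refine h.1.trans ?_
      rw [e1]
      calc |c1| * w0 (l.1⁻¹ * l'.1) * (2 ^ j * m ^ (-(2 * j : ℝ))) * |A'|
          = 2 ^ j * (m ^ (-(2 * j : ℝ)) * (|c1| * |A'| * w0 (l.1⁻¹ * l'.1))) := by ring
        _ ≤ 2 ^ (j + 1) * (m ^ (-(2 * j : ℝ)) * (|c1| * |A'| * w0 (l.1⁻¹ * l'.1))) := by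
            refine mul_le_mul_of_nonneg_right (pow_le_pow_right₀ one_le_two (Nat.le_succ j)) ?_
            exact mul_nonneg (Real.rpow_nonneg hm0.le _) hx
        _ = _ := by ring
    · refine h.2.trans_eq ?_
      rw [e2]
      ring
  · intro x
    rw [abs_of_nonneg (hκ.nn _ _)]
    by_cases h0 : κ l.2 (l.1⁻¹ • x) = 0
    · rw [h0, zero_mul]
      exact mul_nonneg (abs_nonneg _) (hw0n _)
    · have hz : l.1⁻¹ • x ∈ B := Set.mem_iUnion.2 ⟨l.2, subset_tsupport _ h0⟩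
      have h1 := hWle (l.1⁻¹ * l'.1) _ hz
      rw [← mul_smul] at h1
      have e : (l.1⁻¹ * l'.1)⁻¹ * l.1⁻¹ = l'.1⁻¹ := by group
      rw [e] at h1
      calc κ l.2 (l.1⁻¹ • x) * W (l'.1⁻¹ • x) ≤ 1 * W (l'.1⁻¹ • x) :=
            mul_le_mul_of_nonneg_right (hκ.le _ _) (hW.pos _).le
        _ ≤ _ := by rw [one_mul]; exact h1
  · intro x
    rw [abs_of_nonneg (hκ.nn _ _)]
    by_cases h0 : κ l'.2 (l'.1⁻¹ • x) = 0
    · rw [h0]
      exact mul_nonneg (abs_nonneg _) (hW.pos _).le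
    · exact (hκ.le _ _).trans (hA'' _ (Set.mem_iUnion.2 ⟨l'.2, subset_tsupport _ h0⟩))

end Vale.Agent.P223.H620
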