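import Vale.Agent.P223.H620.Fib2
import Vale.Agent.P223.X.Vol
import Mathlib.MeasureTheory.Function.Jacobian

/-! Area formula for the fibre sums. -/

namespace Vale.Agent.P223.H620

open scoped ContDiff Topology ENNReal
open MeasureTheory Vale.Agent.P223.H Vale.Agent.P223.X

section
variable {n : ℕ} {M X Γ I : Type} [TopologicalSpace M] [TopologicalSpace X] [Group Γ]
    [MulAction Γ X] {C : Cov n M X Γ I} {G : I → E n → Matrix (Fin n) (Fin n) ℝ} {U : Set X}
    {F : Fin n → X → ℝ} {r : X → ℝ} [MeasurableSpace X] [BorelSpace X] {μ : Measure X}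

/-- the area formula for small sets -/
theorem Cfl.area_small (hG : MetX C G) (h : Cfl C G U F r) (hV : VolX C G μ) {K : Set X}
    (hKU : K ⊆ U) (hf : ∀ p, (fib F K p).Finite) {q : X → ℝ≥0∞}
    (hq : Measurable q) {A : Set X} (hA : MeasurableSet A) (hAK : A ⊆ K) (γ : Γ) (i : I)
    (hAφ : A ⊆ Set.range fun y => γ • C.ψ i y) (hinj : Set.InjOn (Fm F) A) :
    Measurable (fsum hf (A.indicator q)) ∧ ∫⁻ p, fsum hf (A.indicator q) p =
      ∫⁻ x in A, q x * ENNReal.ofReal ((r x ^ n)⁻¹) ∂μ := by
  classical
  have hemb := Bas3.chart_emb C γ i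
  set φ : E n → X := fun y => γ • C.ψ i y with hφ
  set f := chm C F γ i with hfd
  have hfs : ContDiff ℝ ∞ f := h.chm_smooth γ i
  have hFf : ∀ y, Fm F (φ y) = f y := fun y => rfl
  set A' := φ ⁻¹' A with hA'
  have hA'm : MeasurableSet A' := hemb.continuous.measurable hA
  have himg : φ '' A' = A := by
    rw [hA', Set.image_preimage_eq_inter_range, Set.inter_eq_left.2 hAφ]
  have hinj' : Set.InjOn f A' := by
    intro y hy y' hy' hyy
    exact hemb.injective (hinj hy hy' (by rw [hFf, hFf]; exact hyy))
  -- values of the fibre sum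
  have hval : ∀ y ∈ A', fsum hf (A.indicator q) (f y) = q (φ y) := by
    intro y hy
    have hm : φ y ∈ (hf (f y)).toFinset := (hf (f y)).mem_toFinset.2 ⟨hAK hy, rfl⟩
    unfold fsum
    rw [Finset.sum_eq_single_of_mem (f := A.indicator q) _ hm]
    · exact Set.indicator_of_mem (s := A) (f := q) hy
    · intro z hz hne
      have hzA : z ∉ A := fun hzA => hne (by
        have hz' := (hf (f y)).mem_toFinset.1 hz
        exact hinj hzA hy (by rw [hz'.2, hFf]))
      exact Set.indicator_of_notMem hzA _
  have hval0 : ∀ p, p ∉ f '' A' → fsum hf (A.indicator q) p = 0 := by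
    intro p hp
    refine Finset.sum_eq_zero fun z hz => ?_
    have hzn : z ∉ A := by
      intro hzA
      have hz' := (hf p).mem_toFinset.1 hz
      rw [← himg] at hzA
      obtain ⟨y, hy, rfl⟩ := hzA
      exact hp ⟨y, hy, by rw [← hFf]; exact hz'.2⟩
    exact Set.indicator_of_notMem hzn _
  have hme : MeasurableEmbedding (A'.domRestrict f) :=
    hfs.continuous.continuousOn.measurableEmbedding hA'm hinj'
  have hext : fsum hf (A.indicator q) =
      Function.extend (A'.domRestrict f) (fun y : A' => q (φ y)) fun _ => 0 := by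
    funext p
    by_cases hp : p ∈ f '' A'
    · obtain ⟨y, hy, rfl⟩ := hp
      rw [hval y hy]
      exact (hme.injective.extend_apply (fun y : A' => q (φ y)) (fun _ => 0) ⟨y, hy⟩).symm
    · rw [hval0 p hp, Function.extend_apply']
      rintro ⟨⟨y, hy⟩, rfl⟩
      exact hp ⟨y, hy, rfl⟩
  refine ⟨?_, ?_⟩
  · rw [hext]
    refine hme.measurable_extend ?_ measurable_const
    exact (hq.comp hemb.continuous.measurable).comp measurable_subtype_coe
  · have himg2 : MeasurableSet (f '' A') := by
      have := hme.measurableSet_range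
      rwa [Set.range_domRestrict] at this
    have e1 : ∫⁻ p, fsum hf (A.indicator q) p =
        ∫⁻ p in f '' A', fsum hf (A.indicator q) p := by
      rw [← lintegral_indicator himg2]
      refine lintegral_congr fun p => ?_
      by_cases hp : p ∈ f '' A'
      · rw [Set.indicator_of_mem hp]
      · rw [Set.indicator_of_notMem hp, hval0 p hp]
    rw [e1, lintegral_image_eq_lintegral_abs_det_fderiv_mul volume hA'm
      (fun y _ => (hfs.differentiable (by simp) y).hasFDerivAt.hasFDerivWithinAt) hinj']
    have e3 := Vol.cvX hG hV γ i hA'm fun x => q x * ENNReal.ofReal ((r x ^ n)⁻¹)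
    rw [show (fun y => γ • C.ψ i y) '' A' = A from himg] at e3
    rw [e3]
    refine setLIntegral_congr_fun hA'm fun y hy => ?_
    rw [hval y hy]
    have hyU : γ • C.ψ i y ∈ U := hKU (hAK hy)
    have hr := h.pos (γ • C.ψ i y)
    have e2 : Vol.w G i y = ENNReal.ofReal (Vale.Agent.P223.H.dens (G i) y) := rfl
    rw [e2, h.dens_eq hyU, mul_assoc, ← ENNReal.ofReal_mul (by positivity), mul_comm]
    congr 2
    rw [← mul_assoc, inv_mul_cancel₀ (by positivity), one_mul]

/-- area formula -/
theorem Cfl.area (hG : MetX C G) (h : Cfl C G U F r) (hV : VolX C G μ)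
    {K : Set X} (hK : IsCompact K) (hKm : MeasurableSet K) (hKU : K ⊆ U)
    (hf : ∀ p, (fib F K p).Finite) {q : X → ℝ≥0∞} (hq : Measurable q) :
    Measurable (fsum hf q) ∧ ∫⁻ p, fsum hf q p =
      ∫⁻ x in K, q x * ENNReal.ofReal ((r x ^ n)⁻¹) ∂μ := by
  classical
  have h1 := fun x : X => fun hx : x ∈ K => h.local_inv hG (hKU hx)
  choose! N W g hN hxN hNU hW hFW hgW hgN hgc hgs using h1
  set N' : X → Set X := fun x => N x ∩ Set.range fun y => C.pg x • C.ψ (C.pi x) y with hN'
  have hN'o : ∀ x ∈ K, IsOpen (N' x) := fun x hx =>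
    (hN x hx).inter (Bas3.chart_emb C (C.pg x) (C.pi x)).isOpen_range
  have hxN' : ∀ x ∈ K, x ∈ N' x := fun x hx => ⟨hxN x hx, ⟨C.py x, H566.pg_spec C x⟩⟩
  obtain ⟨t, ht, hcov⟩ := hK.elim_nhds_subcover N' fun x hx => (hN'o x hx).mem_nhds (hxN' x hx)
  have key : ∀ t : Finset X, (∀ x ∈ t, x ∈ K) → ∀ A : Set X, MeasurableSet A → A ⊆ K →
      A ⊆ ⋃ x ∈ t, N' x → Measurable (fsum hf (A.indicator q)) ∧
      ∫⁻ p, fsum hf (A.indicator q) p = ∫⁻ x in A, q x * ENNReal.ofReal ((r x ^ n)⁻¹) ∂μ := by
    intro t
    induction t using Finset.induction_on with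
    | empty =>
      intro _ A hA _ hA0
      have : A = ∅ := by
        refine Set.subset_empty_iff.1 (hA0.trans ?_)
        simp
      subst this
      have e : fsum hf ((∅ : Set X).indicator q) = fun _ => 0 := by
        funext p
        unfold fsum
        simp
      rw [e]
      simp
    | insert x t hxt ih =>
      intro htK A hA hAK hAc
      have hxK := htK x (Finset.mem_insert_self _ _)
      have hm1 : MeasurableSet (A ∩ N' x) := hA.inter (hN'o x hxK).measurableSet
      have hm2 : MeasurableSet (A \ N' x) := hA.diff (hN'o x hxK).measurableSet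
      obtain ⟨a1, a2⟩ := h.area_small hG hV hKU hf hq hm1
        (Set.inter_subset_left.trans hAK) (C.pg x) (C.pi x)
        (fun z hz => hz.2.2) (fun z hz z' hz' hzz => by
          rw [← (hgN x hxK z hz.2.1).2, ← (hgN x hxK z' hz'.2.1).2, hzz])
      obtain ⟨b1, b2⟩ := ih (fun z hz => htK z (Finset.mem_insert_of_mem hz)) (A \ N' x) hm2
        (Set.sdiff_subset.trans hAK) (by
          intro z hz
          have := hAc hz.1
          rw [Finset.set_biUnion_insert] at this
          exact this.resolve_left hz.2)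
      have e : fsum hf (A.indicator q) = fun p => fsum hf ((A ∩ N' x).indicator q) p +
          fsum hf ((A \ N' x).indicator q) p := by
        funext p
        unfold fsum
        rw [← Finset.sum_add_distrib]
        refine Finset.sum_congr rfl fun z _ => ?_
        by_cases hz : z ∈ A
        · by_cases hz2 : z ∈ N' x
          · have i1 : z ∈ A ∩ N' x := ⟨hz, hz2⟩
            have i2 : z ∉ A \ N' x := fun h => h.2 hz2
            rw [Set.indicator_of_mem hz, Set.indicator_of_mem i1, Set.indicator_of_notMem i2,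
              add_zero]
          · have i1 : z ∉ A ∩ N' x := fun h => hz2 h.2
            have i2 : z ∈ A \ N' x := ⟨hz, hz2⟩
            rw [Set.indicator_of_mem hz, Set.indicator_of_notMem i1, Set.indicator_of_mem i2,
              zero_add]
        · have i1 : z ∉ A ∩ N' x := fun h => hz h.1
          have i2 : z ∉ A \ N' x := fun h => hz h.1
          rw [Set.indicator_of_notMem hz, Set.indicator_of_notMem i1, Set.indicator_of_notMem i2,
            add_zero]
      rw [e]
      refine ⟨a1.add b1, ?_⟩
      rw [lintegral_add_left a1, a2, b2]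
      exact lintegral_inter_add_sdiff _ A (hN'o x hxK).measurableSet
  obtain ⟨c1, c2⟩ := key t ht K hKm le_rfl hcov
  have e : fsum hf (K.indicator q) = fsum hf q := by
    funext p
    refine Finset.sum_congr rfl fun z hz => ?_
    exact Set.indicator_of_mem ((hf p).mem_toFinset.1 hz).1 _
  rw [e] at c1 c2
  exact ⟨c1, c2⟩

end

end Vale.Agent.P223.H620
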