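import Vale.Agent.P223.H620.DevC
import Vale.Agent.P223.X.GrdX

/-! Cutoff functions on the sphere. -/

namespace Vale.Agent.P223.H620

open scoped ContDiff Topology ENNReal
open MeasureTheory Vale.Agent.P223.H Vale.Agent.P223.X

section loc
variable {n : ℕ} {G : E n → Matrix (Fin n) (Fin n) ℝ}

theorem fderiv_sum (f : E n → ℝ) (y v : E n) :
    fderiv ℝ f y v = ∑ a, Vale.Agent.P223.H.pd a f y * v a := by
  have e : v = ∑ a, v a • (Pi.single a (1 : ℝ) : E n) := by
    funext b
    rw [Finset.sum_apply, Finset.sum_eq_single b]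
    · simp
    · intro c _ hc
      simp [Ne.symm hc]
    · intro h; exact absurd (Finset.mem_univ b) h
  conv_lhs => rw [e]
  rw [map_sum]
  refine Finset.sum_congr rfl fun a _ => ?_
  rw [map_smul, smul_eq_mul, mul_comm]
  rfl

theorem gradSq_le_of (hp : ∀ y, (G y).PosDef) {f : E n → ℝ} {y : E n} {c : ℝ} (hc : 0 ≤ c)
    (h : ∀ v : E n, fderiv ℝ f y v ^ 2 ≤ c * ∑ a, ∑ b, v a * v b * G y a b) :
    gradSq G f y ≤ c := by
  set v := grd G f y with hv
  have h1 := GrdX.grd_ip hp f y v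
  have h2 : gradSq G f y = fderiv ℝ f y v := by
    rw [fderiv_sum]
    unfold gradSq gradIp
    refine Finset.sum_congr rfl fun i _ => ?_
    rw [hv]
    unfold grd
    rw [Finset.mul_sum]
    exact Finset.sum_congr rfl fun j _ => by ring
  have h3 := h v
  rw [h1, ← h2] at h3
  have h0 := Grad.gradSq_nonneg' (hp y) f
  rcases h0.eq_or_lt with h4 | h4
  · rw [← h4]; exact hc
  · nlinarith

theorem quad_exp (y v : E n) (p q : E n → ℝ) :
    ∑ a, ∑ b, v a * v b * (Vale.Agent.P223.H.pd a p y * Vale.Agent.P223.H.pd b q y) =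
      fderiv ℝ p y v * fderiv ℝ q y v := by
  rw [fderiv_sum, fderiv_sum, Finset.sum_mul_sum]
  exact Finset.sum_congr rfl fun a _ => Finset.sum_congr rfl fun b _ => by ring

/-- partition of unity `cos² + sin² = 1` -/
theorem cut_loc {f θ : E n → ℝ} (hf : ContDiff ℝ ∞ f)
    (hθ : ContDiff ℝ ∞ θ) (x : E n) :
    gradSq G (fun y => Real.cos (θ y) * f y) x + gradSq G (fun y => Real.sin (θ y) * f y) x =
      gradSq G f x + gradSq G θ x * f x ^ 2 := by
  have hdf : DifferentiableAt ℝ f x := hf.differentiable (by simp) x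
  have hdθ : DifferentiableAt ℝ θ x := hθ.differentiable (by simp) x
  have p1 : ∀ k, Vale.Agent.P223.H.pd k (fun y => Real.cos (θ y) * f y) x =
      -Real.sin (θ x) * Vale.Agent.P223.H.pd k θ x * f x +
        Real.cos (θ x) * Vale.Agent.P223.H.pd k f x := by
    intro k
    rw [Bridge.pd_mul hdθ.cos hdf, Grad.pd_comp_real (Real.hasDerivAt_cos (θ x)) hdθ]
  have p2 : ∀ k, Vale.Agent.P223.H.pd k (fun y => Real.sin (θ y) * f y) x =
      Real.cos (θ x) * Vale.Agent.P223.H.pd k θ x * f x +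
        Real.sin (θ x) * Vale.Agent.P223.H.pd k f x := by
    intro k
    rw [Bridge.pd_mul hdθ.sin hdf, Grad.pd_comp_real (Real.hasDerivAt_sin (θ x)) hdθ]
  unfold gradSq gradIp
  simp only [p1, p2, ← Finset.sum_add_distrib, Finset.sum_mul]
  refine Finset.sum_congr rfl fun i _ => Finset.sum_congr rfl fun j _ => ?_
  have h1 := Real.sin_sq_add_cos_sq (θ x)
  linear_combination (G x)⁻¹ i j * (Vale.Agent.P223.H.pd i f x * Vale.Agent.P223.H.pd j f x +
    Vale.Agent.P223.H.pd i θ x * Vale.Agent.P223.H.pd j θ x * f x ^ 2) * h1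

end loc

section
variable {n : ℕ} {M X Γ I : Type} [TopologicalSpace M] [TopologicalSpace X] [Group Γ]
    [MulAction Γ X] {C : Cov n M X Γ I} {G : I → E n → Matrix (Fin n) (Fin n) ℝ}
    {D : Fin (n + 1) → X → ℝ} {t : X → ℝ}

/-- `|ds|² ≤ t⁻²` -/
theorem gs_sl (hG : MetX C G) (h : H66.DevX C G D t) (x : X) :
    gsX C G (sl D t) x ≤ (t x ^ 2)⁻¹ := by
  rw [← H566.pg_spec C x, gsX_eq hG]
  set γ := C.pg x
  set i := C.pi x
  set y := C.py x
  have ht0 := h.pos (γ • C.ψ i y)
  refine gradSq_le_of (hG.pos i) (by positivity) fun v => ?_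
  have d1 : DifferentiableAt ℝ (C.rep (sl D t) γ i) y :=
    (sl_smooth h γ i).differentiable (by simp) y
  have d2 : DifferentiableAt ℝ (C.rep t γ i) y := (h.smooth_t γ i).differentiable (by simp) y
  set T := t (γ • C.ψ i y) with hT
  set τ := fderiv ℝ (C.rep t γ i) y v with hτ
  set d : Fin (n + 1) → ℝ := fun k => fderiv ℝ (C.rep (D k) γ i) y v with hd
  set e : Fin (n + 1) → ℝ := fun k => D k (γ • C.ψ i y) / T with he
  -- derivative of `s`
  have h1 : T * fderiv ℝ (C.rep (sl D t) γ i) y v = d (Fin.last n) - e (Fin.last n) * τ := by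
    have e1 : (fun z => C.rep (sl D t) γ i z * C.rep t γ i z) = C.rep (D (Fin.last n)) γ i := by
      funext z
      have := (h.pos (γ • C.ψ i z)).ne'
      change D (Fin.last n) (γ • C.ψ i z) / t (γ • C.ψ i z) * t (γ • C.ψ i z) =
        D (Fin.last n) (γ • C.ψ i z)
      rw [div_mul_cancel₀ _ this]
    have e2 := (d1.hasFDerivAt.fun_mul d2.hasFDerivAt).fderiv
    rw [e1] at e2
    have e3 : d (Fin.last n) = C.rep (sl D t) γ i y * τ +
        T * fderiv ℝ (C.rep (sl D t) γ i) y v := by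
      rw [hd]
      simp only
      rw [e2]
      rfl
    have e4 : C.rep (sl D t) γ i y = e (Fin.last n) := rfl
    rw [e3, e4]; ring
  -- the null cone
  have h2 : ∑ k, e k * d k = τ := by
    have e1 : ∀ a : Fin n, ∑ k, C.rep (D k) γ i y *
        Vale.Agent.P223.H.pd a (C.rep (D k) γ i) y =
        T * Vale.Agent.P223.H.pd a (C.rep t γ i) y := by
      intro a
      rw [Fin.sum_univ_castSucc]
      exact null_pd h γ i y a
    have e2 : ∑ k, T * e k * d k = T * τ := by
      rw [hτ, fderiv_sum, Finset.mul_sum]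
      have e3 : ∀ a, T * (Vale.Agent.P223.H.pd a (C.rep t γ i) y * v a) =
          ∑ k, C.rep (D k) γ i y * Vale.Agent.P223.H.pd a (C.rep (D k) γ i) y * v a := by
        intro a
        rw [← mul_assoc, ← e1 a, Finset.sum_mul]
      rw [Finset.sum_congr rfl fun a _ => e3 a, Finset.sum_comm]
      refine Finset.sum_congr rfl fun k _ => ?_
      rw [hd]
      simp only
      rw [fderiv_sum, Finset.mul_sum]
      refine Finset.sum_congr rfl fun a _ => ?_
      have : T * e k = C.rep (D k) γ i y := by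
        rw [he]; simp only; rw [mul_div_cancel₀ _ ht0.ne']; rfl
      rw [this]; ring
    apply mul_left_cancel₀ ht0.ne'
    rw [Finset.mul_sum, ← e2]
    exact Finset.sum_congr rfl fun k _ => by ring
  have h3 : ∑ k, e k ^ 2 = 1 := by
    have := h.null (γ • C.ψ i y)
    rw [he]
    simp only [div_pow]
    rw [← Finset.sum_div, this, div_self (by positivity)]
  have h4 : ∑ a, ∑ b, v a * v b * G i y a b = ∑ k, (d k - e k * τ) ^ 2 := by
    have e1 : ∑ a, ∑ b, v a * v b * G i y a b = ∑ k, d k ^ 2 - τ ^ 2 := by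
      have e2 : ∀ a b, v a * v b * G i y a b =
          (∑ k, v a * v b * (Vale.Agent.P223.H.pd a (C.rep (D k) γ i) y *
            Vale.Agent.P223.H.pd b (C.rep (D k) γ i) y)) -
          v a * v b * (Vale.Agent.P223.H.pd a (C.rep t γ i) y *
            Vale.Agent.P223.H.pd b (C.rep t γ i) y) := by
        intro a b
        rw [h.iso γ i y a b, mul_sub, Finset.mul_sum]
      simp only [e2, Finset.sum_sub_distrib]
      rw [quad_exp, ← hτ, sq τ]
      congr 1
      have e3 : ∀ a : Fin n, ∑ b, ∑ k, v a * v b *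
          (Vale.Agent.P223.H.pd a (C.rep (D k) γ i) y *
            Vale.Agent.P223.H.pd b (C.rep (D k) γ i) y) = ∑ k, ∑ b, v a * v b *
          (Vale.Agent.P223.H.pd a (C.rep (D k) γ i) y *
            Vale.Agent.P223.H.pd b (C.rep (D k) γ i) y) := fun a => Finset.sum_comm
      rw [Finset.sum_congr rfl fun a _ => e3 a, Finset.sum_comm]
      refine Finset.sum_congr rfl fun k _ => ?_
      rw [quad_exp, sq]
    rw [e1]
    have e2 : ∑ k, (d k - e k * τ) ^ 2 =
        ∑ k, d k ^ 2 - 2 * τ * ∑ k, e k * d k + τ ^ 2 * ∑ k, e k ^ 2 := by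
      rw [Finset.mul_sum, Finset.mul_sum, ← Finset.sum_sub_distrib, ← Finset.sum_add_distrib]
      exact Finset.sum_congr rfl fun k _ => by ring
    rw [e2, h2, h3]; ring
  have h5 : (d (Fin.last n) - e (Fin.last n) * τ) ^ 2 ≤ ∑ k, (d k - e k * τ) ^ 2 :=
    Finset.single_le_sum (f := fun k => (d k - e k * τ) ^ 2) (fun k _ => sq_nonneg _)
      (Finset.mem_univ _)
  rw [← h1, ← h4, mul_pow] at h5
  rw [inv_mul_eq_div, le_div_iff₀ (by positivity), mul_comm]
  exact h5

theorem abs_sl (h : H66.DevX C G D t) (x : X) : sl D t x ∈ Set.Icc (-1 : ℝ) 1 := by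
  have h1 := null' h x
  have h2 : 0 ≤ ∑ k : Fin n, D k.castSucc x ^ 2 := Finset.sum_nonneg fun k _ => sq_nonneg _
  have h3 := h.pos x
  have h4 : |D (Fin.last n) x| ≤ t x := Real.abs_le_sqrt (by linarith) |>.trans
    (Real.sqrt_sq h3.le).le
  rw [abs_le] at h4
  unfold sl
  constructor
  · rw [le_div_iff₀ h3]; linarith
  · rw [div_le_iff₀ h3]; linarith

/-- the angle -/
noncomputable def th (x : ℝ) : ℝ := Real.pi / 2 * Real.smoothTransition (x + 1 / 2)

theorem th_smooth : ContDiff ℝ ∞ th :=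
  contDiff_const.mul (Real.smoothTransition.contDiff.comp (contDiff_id.add contDiff_const))

theorem th_zero {x : ℝ} (hx : x ≤ -(1 / 2)) : th x = 0 := by
  unfold th
  rw [Real.smoothTransition.zero_of_nonpos (by linarith), mul_zero]

theorem th_one {x : ℝ} (hx : 1 / 2 ≤ x) : th x = Real.pi / 2 := by
  unfold th
  rw [Real.smoothTransition.one_of_one_le (by linarith), mul_one]

theorem th_bd : ∃ Θ : ℝ, 0 ≤ Θ ∧ ∀ x ∈ Set.Icc (-1 : ℝ) 1, deriv th x ^ 2 ≤ Θ := by
  have h1 : Continuous (deriv th) := th_smooth.continuous_deriv (by simp)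
  obtain ⟨c, hc⟩ := isCompact_Icc.exists_bound_of_continuousOn (s := Set.Icc (-1 : ℝ) 1)
    h1.continuousOn
  refine ⟨c ^ 2, sq_nonneg _, fun x hx => ?_⟩
  have := hc x hx
  rw [Real.norm_eq_abs] at this
  rw [← sq_abs]
  exact pow_le_pow_left₀ (abs_nonneg _) this 2

theorem cut_pt (hG : MetX C G) (h : H66.DevX C G D t) {f : X → ℝ} (hf : C.Ck ∞ f) (x : X) :
    gsX C G (fun x => Real.cos (th (sl D t x)) * f x) x +
      gsX C G (fun x => Real.sin (th (sl D t x)) * f x) x =
      gsX C G f x + deriv th (sl D t x) ^ 2 * gsX C G (sl D t) x * f x ^ 2 := by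
  rw [← H566.pg_spec C x, gsX_eq hG, gsX_eq hG, gsX_eq hG, gsX_eq hG]
  have h1 := cut_loc (G := G (C.pi x)) (hf (C.pg x) (C.pi x))
    (th_smooth.comp (sl_smooth h (C.pg x) (C.pi x))) (C.py x)
  have h2 : gradSq (G (C.pi x)) (th ∘ C.rep (sl D t) (C.pg x) (C.pi x)) (C.py x) =
      deriv th (sl D t (C.pg x • C.ψ (C.pi x) (C.py x))) ^ 2 *
        gradSq (G (C.pi x)) (C.rep (sl D t) (C.pg x) (C.pi x)) (C.py x) :=
    Grad.gradSq_comp_real (f := C.rep (sl D t) (C.pg x) (C.pi x)) (φ := th)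
      ((th_smooth.differentiable (by simp) _).hasDerivAt)
      ((sl_smooth h (C.pg x) (C.pi x)).differentiable (by simp) _)
  rw [h2] at h1
  exact h1

end

end Vale.Agent.P223.H620
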