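import Vale.Agent.P223.H620.Mul
import Vale.Agent.P223.X.X5
import Vale.Agent.P223.X.BddL

/-! Exponential decay of the resolvents away from the diagonal. -/

namespace Vale.Agent.P223.H620

open scoped ContDiff InnerProductSpace Topology
open MeasureTheory Vale.Agent.P223.H Vale.Agent.P223.X Vale.Agent.P223.H566

section conj
variable {H : Type} [NormedAddCommGroup H] [InnerProductSpace ℂ H] [CompleteSpace H]

/-- perturbation of the resolvent -/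
theorem conj_one {s W B : H →L[ℂ] H} {m c : ℝ} (hm : 0 < m) (hc0 : 0 ≤ c) (hc : 2 * c ≤ m)
    (hs : ∀ u, m * ‖s u‖ ≤ ‖u‖) (hB : ∀ u, ‖B u‖ ≤ c * ‖u‖)
    (h : s * W * (1 + B * s) = W * s) : ∃ T : H →L[ℂ] H, s * W = W * T ∧ ‖T‖ ≤ 2 / m := by
  have hs' : ‖s‖ ≤ 1 / m := by
    refine s.opNorm_le_bound (by positivity) fun u => ?_
    rw [div_mul_eq_mul_div, one_mul, le_div_iff₀ hm, mul_comm]
    exact hs u
  have hB' : ‖B‖ ≤ c := B.opNorm_le_bound hc0 hB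
  have ht : ‖-(B * s)‖ ≤ 1 / 2 := by
    rw [norm_neg]
    calc ‖B * s‖ ≤ ‖B‖ * ‖s‖ := norm_mul_le _ _
      _ ≤ c * (1 / m) := mul_le_mul hB' hs' (norm_nonneg _) hc0
      _ ≤ 1 / 2 := by
        rw [mul_one_div, div_le_div_iff₀ hm two_pos]
        linarith
  have ht1 : ‖-(B * s)‖ < 1 := lt_of_le_of_lt ht (by norm_num)
  set U := Units.oneSub (-(B * s)) ht1 with hU
  have hUv : (U : H →L[ℂ] H) = 1 + B * s := by
    rw [hU, Units.val_oneSub, sub_neg_eq_add]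
  refine ⟨s * (↑U⁻¹ : H →L[ℂ] H), ?_, ?_⟩
  · calc s * W = s * W * ((U : H →L[ℂ] H) * (↑U⁻¹ : H →L[ℂ] H)) := by
          rw [Units.mul_inv, mul_one]
      _ = s * W * (1 + B * s) * (↑U⁻¹ : H →L[ℂ] H) := by rw [hUv, mul_assoc (s * W)]
      _ = W * (s * (↑U⁻¹ : H →L[ℂ] H)) := by rw [h, mul_assoc]
  · have h1 : ‖(↑U⁻¹ : H →L[ℂ] H)‖ ≤ 2 := by
      have h2 : (↑U⁻¹ : H →L[ℂ] H) = ∑' k : ℕ, (-(B * s)) ^ k := rfl
      rw [h2]
      refine (tsum_geometric_le_of_norm_lt_one _ ht1).trans ?_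
      have h3 : ‖(1 : H →L[ℂ] H)‖ ≤ 1 := ContinuousLinearMap.norm_id_le
      have h4 : (1 - ‖-(B * s)‖)⁻¹ ≤ 2 := by
        rw [inv_le_comm₀ (by linarith) two_pos]
        linarith
      linarith
    calc ‖s * (↑U⁻¹ : H →L[ℂ] H)‖ ≤ ‖s‖ * ‖(↑U⁻¹ : H →L[ℂ] H)‖ := norm_mul_le _ _
      _ ≤ 1 / m * 2 := mul_le_mul hs' h1 (norm_nonneg _) (by positivity)
      _ = 2 / m := by ring

omit [CompleteSpace H] in
theorem pow_conj {g W T : H →L[ℂ] H} (h : g * W = W * T) (j : ℕ) : g ^ j * W = W * T ^ j := by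
  induction j with
  | zero => simp
  | succ j ih => rw [pow_succ, mul_assoc, h, ← mul_assoc, ih, mul_assoc, pow_succ]

end conj

section res
variable {n : ℕ} {M X Γ I V H : Type} [TopologicalSpace M] [TopologicalSpace X]
  [Group Γ] [MulAction Γ X] [Fintype I] [T2Space X] [ConnectedSpace X] [T2Space M]
  [MeasurableSpace X] [BorelSpace X] [NormedAddCommGroup V] [InnerProductSpace ℂ V]
  [FiniteDimensional ℂ V] [NormedAddCommGroup H] [InnerProductSpace ℂ H] [CompleteSpace H]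

/-- operators are determined by their values on the range of `m ± D` -/
theorem ext_res (hD : SpecDense) (c : Ctx n M X Γ I V H) {m : ℝ} (hm : 0 < m) {ε : ℂ}
    (hε : ε = 1 ∨ ε = -1) {A B : H →L[ℂ] H}
    (h : ∀ φ, A (c.E.e ((m : ℂ) • φ + ε • c.S.DC φ)) =
      B (c.E.e ((m : ℂ) • φ + ε • c.S.DC φ))) : A = B := by
  have key : ∀ v : H, (ContinuousLinearMap.adjoint (A - B)) v = 0 := by
    intro v
    rcases hε with rfl | rfl
    · refine hD n M X Γ I V H c m hm.ne' _ fun φ => ?_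
      rw [ContinuousLinearMap.adjoint_inner_left]
      have := h φ
      rw [one_smul] at this
      rw [sub_apply, this, sub_self, inner_zero_right]
    · refine hD n M X Γ I V H c (-m) (neg_ne_zero.2 hm.ne') _ fun φ => ?_
      rw [ContinuousLinearMap.adjoint_inner_left]
      have := h φ
      have e : ((-m : ℝ) : ℂ) • φ + c.S.DC φ = -((m : ℂ) • φ + (-1 : ℂ) • c.S.DC φ) := by
        push_cast
        module
      rw [e, map_neg, sub_apply, map_neg, map_neg, this, sub_self, inner_zero_right]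
  have h0 : A - B = 0 := by
    refine ContinuousLinearMap.ext fun x => ?_
    have h1 := ContinuousLinearMap.adjoint_inner_left (A - B) x ((A - B) x)
    rw [key, inner_zero_left] at h1
    rw [zero_apply]
    exact inner_self_eq_zero.1 h1.symm
  exact sub_eq_zero.1 h0

/-- weight functions -/
structure Wgt (C : Cov n M X Γ I) (G : I → E n → Matrix (Fin n) (Fin n) ℝ) (c : ℝ)
    (W : X → ℝ) : Prop where
  smooth : C.Ck ∞ W
  pos : ∀ x, 0 < W x
  le : ∀ x, W x ≤ 1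
  grad : ∀ x, gsX C G W x ≤ (c * W x) ^ 2

theorem conj_gp (hD : SpecDense) (hL : SpecLocal) (c : Ctx n M X Γ I V H) {a : ℝ} (ha : 0 ≤ a)
    {W : X → ℝ} (hW : Wgt c.C c.G a W) {m : ℝ} (hm : 0 < m) (ham : 2 * a ≤ m)
    {g p : H →L[ℂ] H} (hR : Rsv c.E m g p) {W' : H →L[ℂ] H}
    (hW' : ∀ φ, W' (c.E.e φ) = c.E.e (c.S.mC W hW.smooth φ)) :
    ∃ Tg Tp : H →L[ℂ] H, g * W' = W' * Tg ∧ p * W' = W' * Tp ∧ ‖Tg‖ ≤ 2 / m ^ 2 ∧
      ‖Tp‖ ≤ 2 / m := by
  obtain ⟨sp, sm, h1, h2, h3, h4, rfl, rfl⟩ := hR.ex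
  have hl : c.C.Ck ∞ (fun x => Real.log (W x)) := Ck_log hW.smooth hW.pos
  have hgl : ∀ x, gsX c.C c.G (fun x => Real.log (W x)) x ≤ a ^ 2 := fun x => by
    rw [gsX_log hW.smooth hW.pos, div_le_iff₀ (by have := hW.pos x; positivity), ← mul_pow]
    exact hW.grad x
  obtain ⟨B, hB1, hB2⟩ := cl_op hL c.E c.vol hl ha hgl
  have key : ∀ (ε : ℂ) (s : H →L[ℂ] H), (ε = 1 ∨ ε = -1) →
      (∀ φ, s (c.E.e ((m : ℂ) • φ + ε • c.S.DC φ)) = c.E.e φ) →
      s * W' * (1 + (ε • B) * s) = W' * s := by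
    intro ε s hε hs
    refine ext_res hD c hm hε fun φ => ?_
    have e0 : c.S.DC (c.S.mC W hW.smooth φ) = c.S.mC W hW.smooth (c.S.DC φ) +
        c.S.mC W hW.smooth (c.S.cC _ hl φ) := by
      rw [c.S.DC_mC]
      congr 1
      exact Subtype.ext (cC_log hW.smooth hW.pos _)
    have e1 : (s * W' * (1 + (ε • B) * s)) (c.E.e ((m : ℂ) • φ + ε • c.S.DC φ)) =
        s (W' (c.E.e ((m : ℂ) • φ + ε • c.S.DC φ) + ε • B (s (c.E.e ((m : ℂ) • φ + ε • c.S.DC φ))))) := rfl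
    have e2 : (W' * s) (c.E.e ((m : ℂ) • φ + ε • c.S.DC φ)) =
        W' (s (c.E.e ((m : ℂ) • φ + ε • c.S.DC φ))) := rfl
    have e3 : c.E.e ((m : ℂ) • φ + ε • c.S.DC φ) + ε • c.E.e (c.S.cC _ hl φ) =
        c.E.e ((m : ℂ) • φ + ε • c.S.DC φ + ε • c.S.cC _ hl φ) := by
      rw [map_add c.E.e _ (ε • c.S.cC _ hl φ), map_smul c.E.e ε (c.S.cC _ hl φ)]
    rw [e1, e2, hs, hB1, e3, hW', hW']
    refine Eq.trans (congrArg (fun z => s (c.E.e z)) ?_) (hs (c.S.mC W hW.smooth φ))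
    rw [e0, map_add, map_add, map_smul, map_smul, map_smul, smul_add]
    abel
  obtain ⟨T₁, t1, t2⟩ := conj_one (c := a) hm ha ham h3 (B := (1 : ℂ) • B)
    (fun u => by rw [one_smul]; exact hB2 u) (key 1 sp (Or.inl rfl) fun φ => by
      rw [one_smul]; exact h1 φ)
  obtain ⟨T₂, t3, t4⟩ := conj_one (c := a) hm ha ham h4 (B := (-1 : ℂ) • B)
    (fun u => by rw [smul_apply, norm_smul, norm_neg, norm_one, one_mul]; exact hB2 u)
    (key (-1) sm (Or.inr rfl) fun φ => by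
      have e : (m : ℂ) • φ + (-1 : ℂ) • c.S.DC φ = (m : ℂ) • φ - c.S.DC φ := by module
      rw [e]; exact h2 φ)
  refine ⟨((1 / (2 * m) : ℝ) : ℂ) • (T₁ + T₂), (1 / 2 : ℂ) • (T₂ - T₁), ?_, ?_, ?_, ?_⟩
  · rw [smul_mul_assoc, add_mul, t1, t3, mul_smul_comm, mul_add]
  · rw [smul_mul_assoc, sub_mul, t1, t3, mul_smul_comm, mul_sub]
  · rw [norm_smul, Complex.norm_real, Real.norm_of_nonneg (by positivity)]
    calc 1 / (2 * m) * ‖T₁ + T₂‖ ≤ 1 / (2 * m) * (2 / m + 2 / m) := by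
          gcongr
          exact (norm_add_le _ _).trans (add_le_add t2 t4)
      _ = 2 / m ^ 2 := by field_simp; ring
  · rw [norm_smul]
    have : ‖(1 / 2 : ℂ)‖ = 1 / 2 := by norm_num
    rw [this]
    calc 1 / 2 * ‖T₂ - T₁‖ ≤ 1 / 2 * (2 / m + 2 / m) := by
          gcongr
          exact (norm_sub_le _ _).trans (add_le_add t4 t2)
      _ = 2 / m := by ring

/-- decay estimate for one pair of cutoff functions -/
theorem dec_one (hD : SpecDense) (hL : SpecLocal) (c : Ctx n M X Γ I V H) {a : ℝ} (ha : 0 ≤ a)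
    {W : X → ℝ} (hW : Wgt c.C c.G a W) {m : ℝ} (hm : 0 < m) (ham : 2 * a ≤ m)
    {g p : H →L[ℂ] H} (hR : Rsv c.E m g p) {f f' : X → ℝ} (hf : c.C.Ck ∞ f)
    (hf' : c.C.Ck ∞ f') {k k' : H →L[ℂ] H} (hk : ∀ φ, k (c.E.e φ) = c.E.e (c.S.mC f hf φ))
    (hk' : ∀ φ, k' (c.E.e φ) = c.E.e (c.S.mC f' hf' φ)) {b b' : ℝ} (hb0 : 0 ≤ b) (hb0' : 0 ≤ b')
    (hb : ∀ x, |f x| * W x ≤ b) (hb' : ∀ x, |f' x| ≤ b' * W x) (j : ℕ) :
    ‖k * g ^ j * k'‖ ≤ b * (2 / m ^ 2) ^ j * b' ∧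
      ‖k * (p * g ^ j) * k'‖ ≤ b * (2 / m * (2 / m ^ 2) ^ j) * b' := by
  obtain ⟨W', hW', -⟩ := mul_op c.E c.vol hW.smooth (b := 1) zero_le_one fun x => by
    rw [abs_of_pos (hW.pos x)]; exact hW.le x
  obtain ⟨Tg, Tp, h1, h2, h3, h4⟩ := conj_gp hD hL c ha hW hm ham hR hW'
  have hfW : c.C.Ck ∞ (fun x => f x * W x) := fun γ i => (hf γ i).mul (hW.smooth γ i)
  have hfW' : c.C.Ck ∞ (fun x => f' x / W x) := fun γ i =>
    (hf' γ i).div (hW.smooth γ i) fun _ => (hW.pos _).ne'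
  obtain ⟨K1, hK1, hK1b⟩ := mul_op c.E c.vol hfW hb0 fun x => by
    rw [abs_mul, abs_of_pos (hW.pos x)]; exact hb x
  obtain ⟨K2, hK2, hK2b⟩ := mul_op c.E c.vol hfW' hb0' fun x => by
    rw [abs_div, abs_of_pos (hW.pos x), div_le_iff₀ (hW.pos x)]; exact hb' x
  have e1 : k * W' = K1 := ext_core c.E fun φ => by
    rw [mul_apply_eq_comp, hW', hk, hK1]
    congr 1
    refine Subtype.ext ?_
    funext γ i y
    change (f _ : ℂ) • (W _ : ℂ) • _ = ((f _ * W _ : ℝ) : ℂ) • _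
    rw [smul_smul]; push_cast; rfl
  have e2 : W' * K2 = k' := ext_core c.E fun φ => by
    rw [mul_apply_eq_comp, hK2, hW', hk']
    congr 1
    refine Subtype.ext ?_
    funext γ i y
    change (W _ : ℂ) • ((f' _ / W _ : ℝ) : ℂ) • _ = (f' _ : ℂ) • _
    have h0 : W (γ • c.C.ψ i y) * (f' (γ • c.C.ψ i y) / W (γ • c.C.ψ i y)) =
        f' (γ • c.C.ψ i y) := mul_div_cancel₀ _ (hW.pos _).ne'
    rw [smul_smul, ← Complex.ofReal_mul, h0]
  have hK1n : ‖K1‖ ≤ b := K1.opNorm_le_bound hb0 hK1b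
  have hK2n : ‖K2‖ ≤ b' := K2.opNorm_le_bound hb0' hK2b
  have main : ∀ (A T : H →L[ℂ] H) (t : ℝ), A * W' = W' * T → ‖T‖ ≤ t →
      ‖k * A * k'‖ ≤ b * t * b' := by
    intro A T t hA hT
    have e3 : k * A * k' = K1 * T * K2 := by
      rw [← e2, ← e1]
      calc k * A * (W' * K2) = k * (A * W') * K2 := by simp only [mul_assoc]
        _ = k * W' * T * K2 := by rw [hA]; simp only [mul_assoc]
    have ht : 0 ≤ t := (norm_nonneg _).trans hT
    rw [e3]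
    calc ‖K1 * T * K2‖ ≤ ‖K1‖ * ‖T‖ * ‖K2‖ :=
          (norm_mul_le _ _).trans (mul_le_mul_of_nonneg_right (norm_mul_le _ _) (norm_nonneg _))
      _ ≤ b * t * b' := by gcongr
  have hTg : ∀ j : ℕ, ‖Tg ^ j‖ ≤ (2 / m ^ 2) ^ j := fun j => by
    induction j with
    | zero => rw [pow_zero, pow_zero]; exact ContinuousLinearMap.norm_id_le
    | succ j ih =>
      rw [pow_succ, pow_succ]
      exact (norm_mul_le _ _).trans (mul_le_mul ih h3 (norm_nonneg _) (by positivity))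
  refine ⟨main _ _ _ (pow_conj h1 j) (hTg j), main _ (Tp * Tg ^ j) _ ?_ ?_⟩
  · rw [mul_assoc, pow_conj h1 j, ← mul_assoc, h2, mul_assoc]
  · exact (norm_mul_le _ _).trans (mul_le_mul h4 (hTg j) (norm_nonneg _) (by positivity))

end res

end Vale.Agent.P223.H620
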