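import Vale.Agent.P223.H620.En
import Mathlib.Analysis.SpecialFunctions.SmoothTransition

/-! The developing map: stereographic projections are conformal to `ℝ^n`. -/

namespace Vale.Agent.P223.H620

open scoped ContDiff Topology ENNReal
open MeasureTheory Vale.Agent.P223.H Vale.Agent.P223.X

/-- algebra of the stereographic projection -/
theorem ster_alg {n : ℕ} (f φ ψ α β : Fin n → ℝ) (T N αT αN βT βN σ : ℝ) (hσ : σ ^ 2 = 1)
    (hρ : T - σ * N ≠ 0) (h0 : (∑ k, (f k * (T - σ * N)) ^ 2) + N ^ 2 = T ^ 2)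
    (h1 : (∑ k, f k * (T - σ * N) * α k) + N * αN = T * αT)
    (h2 : (∑ k, f k * (T - σ * N) * β k) + N * βN = T * βT)
    (ha : ∀ k, φ k * (T - σ * N) + f k * (αT - σ * αN) = α k)
    (hb : ∀ k, ψ k * (T - σ * N) + f k * (βT - σ * βN) = β k) :
    (∑ k, α k * β k) + αN * βN - αT * βT = (T - σ * N) ^ 2 * ∑ k, φ k * ψ k := by
  set ρ := T - σ * N with hρd
  set Sf := ∑ k, f k ^ 2 with hSf
  set Sa := ∑ k, f k * φ k with hSa
  set Sb := ∑ k, f k * ψ k with hSb
  set Sab := ∑ k, φ k * ψ k with hSab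
  have e0 : ∑ k, (f k * ρ) ^ 2 = ρ ^ 2 * Sf := by
    rw [hSf, Finset.mul_sum]; exact Finset.sum_congr rfl fun k _ => by ring
  have e1 : ∑ k, f k * ρ * α k = ρ ^ 2 * Sa + ρ * (αT - σ * αN) * Sf := by
    rw [hSa, hSf, Finset.mul_sum, Finset.mul_sum, ← Finset.sum_add_distrib]
    exact Finset.sum_congr rfl fun k _ => by rw [← ha k]; ring
  have e2 : ∑ k, f k * ρ * β k = ρ ^ 2 * Sb + ρ * (βT - σ * βN) * Sf := by
    rw [hSb, hSf, Finset.mul_sum, Finset.mul_sum, ← Finset.sum_add_distrib]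
    exact Finset.sum_congr rfl fun k _ => by rw [← hb k]; ring
  have e3 : ∑ k, α k * β k = ρ ^ 2 * Sab + ρ * (βT - σ * βN) * Sa + ρ * (αT - σ * αN) * Sb +
      (αT - σ * αN) * (βT - σ * βN) * Sf := by
    rw [hSab, hSa, hSb, hSf, Finset.mul_sum, Finset.mul_sum, Finset.mul_sum, Finset.mul_sum,
      ← Finset.sum_add_distrib, ← Finset.sum_add_distrib, ← Finset.sum_add_distrib]
    exact Finset.sum_congr rfl fun k _ => by rw [← ha k, ← hb k]; ring
  rw [e0] at h0
  rw [e1] at h1
  rw [e2] at h2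
  rw [e3]
  have hf : ρ * Sf = T + σ * N := by
    apply mul_left_cancel₀ hρ
    have : ρ * (T + σ * N) = T ^ 2 - N ^ 2 := by
      rw [hρd]; linear_combination -(N ^ 2) * hσ
    rw [this]; linarith
  apply mul_left_cancel₀ hρ
  linear_combination (βT - σ * βN) * h1 + (αT - σ * αN) * h2 -
    (αT - σ * αN) * (βT - σ * βN) * hf +
      (-T * βN * αN + N * βT * αN + N * βN * αT - σ * N * βN * αN) * hσ

/-- a positive smooth function which is `1 - x` for `x < 3 / 4` -/
noncomputable def lm (x : ℝ) : ℝ :=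
  (1 - x) * (1 - Real.smoothTransition (8 * (x - 3 / 4))) + Real.smoothTransition (8 * (x - 3 / 4))

theorem lm_smooth : ContDiff ℝ ∞ lm := by
  have h : ContDiff ℝ ∞ fun x : ℝ => Real.smoothTransition (8 * (x - 3 / 4)) :=
    Real.smoothTransition.contDiff.comp (contDiff_const.mul (contDiff_id.sub contDiff_const))
  exact ((contDiff_const.sub contDiff_id).mul (contDiff_const.sub h)).add h

theorem lm_eq {x : ℝ} (hx : x < 3 / 4) : lm x = 1 - x := by
  unfold lm
  rw [Real.smoothTransition.zero_of_nonpos (by linarith)]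
  ring

theorem lm_pos (x : ℝ) : 0 < lm x := by
  unfold lm
  set θ := Real.smoothTransition (8 * (x - 3 / 4)) with hθ
  have h0 : 0 ≤ θ := Real.smoothTransition.nonneg _
  have h1 : θ ≤ 1 := Real.smoothTransition.le_one _
  rcases lt_or_ge x (7 / 8) with h | h
  · nlinarith
  · have : θ = 1 := Real.smoothTransition.one_of_one_le (by linarith)
    rw [this]; norm_num

section
variable {n : ℕ} {M X Γ I : Type} [TopologicalSpace M] [TopologicalSpace X] [Group Γ]
    [MulAction Γ X] {C : Cov n M X Γ I} {G : I → E n → Matrix (Fin n) (Fin n) ℝ}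
    {D : Fin (n + 1) → X → ℝ} {t : X → ℝ}

/-- last coordinate on the sphere -/
noncomputable def sl (D : Fin (n + 1) → X → ℝ) (t : X → ℝ) (x : X) : ℝ := D (Fin.last n) x / t x

/-- conformal factor -/
noncomputable def rr (D : Fin (n + 1) → X → ℝ) (t : X → ℝ) (σ : ℝ) (x : X) : ℝ :=
  t x * lm (σ * sl D t x)

/-- stereographic projection -/
noncomputable def st (D : Fin (n + 1) → X → ℝ) (t : X → ℝ) (σ : ℝ) (k : Fin n) (x : X) : ℝ :=
  D k.castSucc x / rr D t σ x

/-- domain -/
def dU (D : Fin (n + 1) → X → ℝ) (t : X → ℝ) (σ : ℝ) : Set X := {x | σ * sl D t x < 3 / 4}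

variable (h : H66.DevX C G D t)
include h

theorem sl_smooth : C.Ck ∞ (sl D t) := fun γ i =>
  (h.smooth _ γ i).div (h.smooth_t γ i) fun _ => (h.pos _).ne'

theorem rr_smooth (σ : ℝ) : C.Ck ∞ (rr D t σ) := fun γ i =>
  (h.smooth_t γ i).mul (lm_smooth.comp (contDiff_const.mul (sl_smooth h γ i)))

theorem rr_pos (σ : ℝ) (x : X) : 0 < rr D t σ x := mul_pos (h.pos x) (lm_pos _)

theorem st_smooth (σ : ℝ) (k : Fin n) : C.Ck ∞ (st D t σ k) := fun γ i =>
  (h.smooth _ γ i).div (rr_smooth h σ γ i) fun _ => (rr_pos h σ _).ne'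

theorem rr_eq {σ : ℝ} {x : X} (hx : x ∈ dU D t σ) :
    rr D t σ x = t x - σ * D (Fin.last n) x := by
  have h1 : lm (σ * sl D t x) = 1 - σ * sl D t x := lm_eq hx
  have h2 := (h.pos x).ne'
  unfold rr
  rw [h1]
  unfold sl
  field_simp

theorem dU_open (σ : ℝ) : IsOpen (dU D t σ) :=
  isOpen_lt (continuous_const.mul (Ck_cont (sl_smooth h))) continuous_const

theorem null' (x : X) : (∑ k : Fin n, D k.castSucc x ^ 2) + D (Fin.last n) x ^ 2 = t x ^ 2 := by
  rw [← h.null x, Fin.sum_univ_castSucc]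

theorem null_pd (γ : Γ) (i : I) (y : E n) (a : Fin n) :
    (∑ k : Fin n, C.rep (D k.castSucc) γ i y *
      Vale.Agent.P223.H.pd a (C.rep (D k.castSucc) γ i) y) +
      C.rep (D (Fin.last n)) γ i y * Vale.Agent.P223.H.pd a (C.rep (D (Fin.last n)) γ i) y =
      C.rep t γ i y * Vale.Agent.P223.H.pd a (C.rep t γ i) y := by
  have e1 : (fun z => ∑ k, C.rep (D k) γ i z ^ 2) = fun z => C.rep t γ i z ^ 2 := by
    funext z; exact h.null _
  have hd : ∀ k, HasFDerivAt (C.rep (D k) γ i) (fderiv ℝ (C.rep (D k) γ i) y) y := fun k =>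
    ((h.smooth k γ i).differentiable (by simp) y).hasFDerivAt
  have ht : HasFDerivAt (C.rep t γ i) (fderiv ℝ (C.rep t γ i) y) y :=
    ((h.smooth_t γ i).differentiable (by simp) y).hasFDerivAt
  have h1 : HasFDerivAt (fun z => ∑ k, C.rep (D k) γ i z ^ 2)
      (∑ k, (2 * C.rep (D k) γ i y) • fderiv ℝ (C.rep (D k) γ i) y) y := by
    refine HasFDerivAt.fun_sum fun k _ => ?_
    have := (hd k).pow 2
    have e : (2 • C.rep (D k) γ i y ^ (2 - 1)) = 2 * C.rep (D k) γ i y := by simp
    rwa [e] at this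
  have h2 : HasFDerivAt (fun z => C.rep t γ i z ^ 2)
      ((2 * C.rep t γ i y) • fderiv ℝ (C.rep t γ i) y) y := by
    have := ht.pow 2
    have e : (2 • C.rep t γ i y ^ (2 - 1)) = 2 * C.rep t γ i y := by simp
    rwa [e] at this
  rw [e1] at h1
  have h3 := congrArg (fun L : E n →L[ℝ] ℝ => L (Pi.single a 1)) (h1.unique h2)
  simp only [sum_apply, smul_apply, smul_eq_mul] at h3
  rw [Fin.sum_univ_castSucc] at h3
  unfold Vale.Agent.P223.H.pd
  have e4 : ∑ k : Fin n, 2 * C.rep (D k.castSucc) γ i y *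
      (fderiv ℝ (C.rep (D k.castSucc) γ i) y) (Pi.single a 1) =
      2 * ∑ k : Fin n, C.rep (D k.castSucc) γ i y *
      (fderiv ℝ (C.rep (D k.castSucc) γ i) y) (Pi.single a 1) := by
    rw [Finset.mul_sum]; exact Finset.sum_congr rfl fun k _ => by ring
  rw [e4] at h3
  linarith

theorem dev_cfl {σ : ℝ} (hσ : σ ^ 2 = 1) : Cfl C G (dU D t σ) (st D t σ) (rr D t σ) where
  isOpen := dU_open h σ
  smooth := st_smooth h σ
  cont := Ck_cont (rr_smooth h σ)
  pos := rr_pos h σ
  loc γ i y hy a b := by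
    have hev : ∀ᶠ z in 𝓝 y, γ • C.ψ i z ∈ dU D t σ :=
      (Bas3.chart_emb C γ i).continuous.continuousAt.eventually ((dU_open h σ).mem_nhds hy)
    have hr := rr_eq h hy
    have hpos := rr_pos h σ (γ • C.ψ i y)
    rw [hr] at hpos
    have hpd : ∀ (c : Fin n) (k : Fin n), Vale.Agent.P223.H.pd c (C.rep (st D t σ k) γ i) y *
        (C.rep t γ i y - σ * C.rep (D (Fin.last n)) γ i y) + C.rep (st D t σ k) γ i y *
        (Vale.Agent.P223.H.pd c (C.rep t γ i) y -
          σ * Vale.Agent.P223.H.pd c (C.rep (D (Fin.last n)) γ i) y) =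
        Vale.Agent.P223.H.pd c (C.rep (D k.castSucc) γ i) y := by
      intro c k
      have e1 : (fun z => C.rep (st D t σ k) γ i z *
          (C.rep t γ i z - σ * C.rep (D (Fin.last n)) γ i z)) =ᶠ[𝓝 y]
          C.rep (D k.castSucc) γ i := by
        filter_upwards [hev] with z hz
        have h1 := rr_eq h hz
        have h2 := (rr_pos h σ (γ • C.ψ i z)).ne'
        have h3 : C.rep (st D t σ k) γ i z = D k.castSucc (γ • C.ψ i z) /
          rr D t σ (γ • C.ψ i z) := rfl
        have h4 : C.rep t γ i z - σ * C.rep (D (Fin.last n)) γ i z = rr D t σ (γ • C.ψ i z) :=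
          h1.symm
        rw [h3, h4, div_mul_cancel₀ _ h2]
        rfl
      have d1 : DifferentiableAt ℝ (C.rep (st D t σ k) γ i) y :=
        (st_smooth h σ k γ i).differentiable (by simp) y
      have d2 : DifferentiableAt ℝ (C.rep t γ i) y := (h.smooth_t γ i).differentiable (by simp) y
      have d3 : DifferentiableAt ℝ (C.rep (D (Fin.last n)) γ i) y :=
        (h.smooth _ γ i).differentiable (by simp) y
      have e2 : Vale.Agent.P223.H.pd c (fun z => C.rep (st D t σ k) γ i z *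
          (C.rep t γ i z - σ * C.rep (D (Fin.last n)) γ i z)) y =
          Vale.Agent.P223.H.pd c (C.rep (D k.castSucc) γ i) y := by
        unfold Vale.Agent.P223.H.pd
        rw [e1.fderiv_eq]
      have d4 : DifferentiableAt ℝ (fun z => σ * C.rep (D (Fin.last n)) γ i z) y :=
        d3.const_mul σ
      have d5 : DifferentiableAt ℝ
          (fun z => C.rep t γ i z - σ * C.rep (D (Fin.last n)) γ i z) y := d2.sub d4
      rw [← e2, Bridge.pd_mul d1 d5, Bridge.pd_sub d2 d4,
        Bridge.pd_mul (differentiableAt_const σ) d3, Bridge.pd_const]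
      ring
    have hst : ∀ k, C.rep (st D t σ k) γ i y *
        (C.rep t γ i y - σ * C.rep (D (Fin.last n)) γ i y) = C.rep (D k.castSucc) γ i y := by
      intro k
      have h3 : C.rep (st D t σ k) γ i y = D k.castSucc (γ • C.ψ i y) /
        rr D t σ (γ • C.ψ i y) := rfl
      have h4 : C.rep t γ i y - σ * C.rep (D (Fin.last n)) γ i y = rr D t σ (γ • C.ψ i y) :=
        hr.symm
      rw [h3, h4, div_mul_cancel₀ _ (rr_pos h σ _).ne']
      rfl
    have hn := null' h (γ • C.ψ i y)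
    have := ster_alg (fun k => C.rep (st D t σ k) γ i y)
      (fun k => Vale.Agent.P223.H.pd a (C.rep (st D t σ k) γ i) y)
      (fun k => Vale.Agent.P223.H.pd b (C.rep (st D t σ k) γ i) y)
      (fun k => Vale.Agent.P223.H.pd a (C.rep (D k.castSucc) γ i) y)
      (fun k => Vale.Agent.P223.H.pd b (C.rep (D k.castSucc) γ i) y)
      (C.rep t γ i y) (C.rep (D (Fin.last n)) γ i y)
      (Vale.Agent.P223.H.pd a (C.rep t γ i) y)
      (Vale.Agent.P223.H.pd a (C.rep (D (Fin.last n)) γ i) y)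
      (Vale.Agent.P223.H.pd b (C.rep t γ i) y)
      (Vale.Agent.P223.H.pd b (C.rep (D (Fin.last n)) γ i) y) σ hσ hpos.ne'
      (by simp only [hst]; exact hn)
      (by simp only [hst]; exact null_pd h γ i y a)
      (by simp only [hst]; exact null_pd h γ i y b)
      (fun k => hpd a k) (fun k => hpd b k)
    rw [h.iso γ i y a b, Fin.sum_univ_castSucc, hr]
    exact this

end

end Vale.Agent.P223.H620
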