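import Vale.Agent.P223.H66.S2
import Vale.Agent.P223.X.Basic
import Vale.Agent.P223.H566.IntS
import Mathlib.Analysis.Calculus.InverseFunctionTheorem.ContDiff

/-! Conformal local diffeomorphisms to `ℝ^n`: local inverses and fibre sums. -/

namespace Vale.Agent.P223.H620

open scoped ContDiff Topology ENNReal
open MeasureTheory Vale.Agent.P223.H Vale.Agent.P223.X

section
variable {n : ℕ} {M X Γ I : Type} [TopologicalSpace M] [TopologicalSpace X] [Group Γ]
    [MulAction Γ X]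

/-- the map with components `F k` -/
def Fm (F : Fin n → X → ℝ) (x : X) : E n := fun k => F k x

/-- `F` is a conformal map on the open set `U`, `g = r² F^*(flat)`. -/
structure Cfl (C : Cov n M X Γ I) (G : I → E n → Matrix (Fin n) (Fin n) ℝ) (U : Set X)
    (F : Fin n → X → ℝ) (r : X → ℝ) : Prop where
  isOpen : IsOpen U
  smooth : ∀ k, C.Ck ∞ (F k)
  cont : Continuous r
  pos : ∀ x, 0 < r x
  loc : ∀ γ i y, γ • C.ψ i y ∈ U → ∀ a b, G i y a b = r (γ • C.ψ i y) ^ 2 *
    ∑ k, Vale.Agent.P223.H.pd a (C.rep (F k) γ i) y * Vale.Agent.P223.H.pd b (C.rep (F k) γ i) y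

variable {C : Cov n M X Γ I} {G : I → E n → Matrix (Fin n) (Fin n) ℝ} {U : Set X}
  {F : Fin n → X → ℝ} {r : X → ℝ}

/-- the map in a chart -/
def chm (C : Cov n M X Γ I) (F : Fin n → X → ℝ) (γ : Γ) (i : I) (y : E n) : E n :=
  Fm F (γ • C.ψ i y)

theorem Cfl.chm_smooth (h : Cfl C G U F r) (γ : Γ) (i : I) : ContDiff ℝ ∞ (chm C F γ i) :=
  contDiff_pi.2 fun k => h.smooth k γ i

theorem Cfl.mat (h : Cfl C G U F r) {γ : Γ} {i : I} {y : E n} (hy : γ • C.ψ i y ∈ U) :
    G i y = (r (γ • C.ψ i y) ^ 2) • ((jac (chm C F γ i) y).transpose * jac (chm C F γ i) y) := by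
  ext a b
  rw [h.loc γ i y hy a b, Matrix.smul_apply, Matrix.mul_apply, smul_eq_mul]
  rfl

theorem Cfl.det_ne (hG : MetX C G) (h : Cfl C G U F r) {γ : Γ} {i : I} {y : E n}
    (hy : γ • C.ψ i y ∈ U) : (jac (chm C F γ i) y).det ≠ 0 := by
  intro h0
  have h1 := (hG.pos i y).det_pos
  rw [h.mat hy, Matrix.det_smul, Matrix.det_mul, h0, mul_zero, mul_zero] at h1
  exact lt_irrefl _ h1

theorem Cfl.dens_eq (h : Cfl C G U F r) {γ : Γ} {i : I} {y : E n}
    (hy : γ • C.ψ i y ∈ U) : Vale.Agent.P223.H.dens (G i) y =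
      r (γ • C.ψ i y) ^ n * |(fderiv ℝ (chm C F γ i) y).det| := by
  have h1 : (G i y).det = (r (γ • C.ψ i y) ^ n * (jac (chm C F γ i) y).det) ^ 2 := by
    rw [h.mat hy, Matrix.det_smul, Matrix.det_mul, Matrix.det_transpose, Fintype.card_fin]
    ring
  unfold Vale.Agent.P223.H.dens
  rw [h1, Real.sqrt_sq_eq_abs, abs_mul, abs_of_pos (pow_pos (h.pos _) n),
    ← Bas2.det_jac (h.chm_smooth γ i).contDiffAt]

/-- local inverses -/
theorem Cfl.local_inv (hG : MetX C G) (h : Cfl C G U F r) {x : X} (hx : x ∈ U) :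
    ∃ (N : Set X) (W : Set (E n)) (g : E n → X), IsOpen N ∧ x ∈ N ∧ N ⊆ U ∧ IsOpen W ∧
      Fm F x ∈ W ∧ (∀ p ∈ W, g p ∈ N ∧ Fm F (g p) = p) ∧ (∀ z ∈ N, Fm F z ∈ W ∧ g (Fm F z) = z) ∧
      ContinuousAt g (Fm F x) ∧
      ∀ u : X → ℝ, C.Ck ∞ u → ContDiffAt ℝ ∞ (fun p => u (g p)) (Fm F x) ∧
        ∑ k, Vale.Agent.P223.H.pd k (fun p => u (g p)) (Fm F x) ^ 2 = r x ^ 2 * gsX C G u x := by
  set γ := C.pg x with hγ
  set i := C.pi x with hi
  set y := C.py x with hy
  have hxy : γ • C.ψ i y = x := H566.pg_spec C x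
  set f := chm C F γ i with hf
  have hfs : ContDiff ℝ ∞ f := h.chm_smooth γ i
  have hyU : γ • C.ψ i y ∈ U := by rw [hxy]; exact hx
  have hdet : (fderiv ℝ f y).det ≠ 0 := by
    rw [← Bas2.det_jac hfs.contDiffAt]
    exact h.det_ne hG hyU
  set f' := (fderiv ℝ f y).toContinuousLinearEquivOfDetNeZero hdet with hf'
  have hd : HasFDerivAt f (f' : E n →L[ℝ] E n) y := by
    have := (hfs.differentiable (by simp) y).hasFDerivAt
    rwa [hf', ContinuousLinearMap.coe_toContinuousLinearEquivOfDetNeZero]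
  set e := hfs.contDiffAt.toOpenPartialHomeomorph f hd (by simp) with he
  have hes : y ∈ e.source :=
    ContDiffAt.mem_toOpenPartialHomeomorph_source hfs.contDiffAt hd (by simp)
  have hef : ∀ z, e z = f z := fun z => rfl
  have hemb := Bas3.chart_emb C γ i
  set S := e.source ∩ (fun z => γ • C.ψ i z) ⁻¹' U with hS
  have hSo : IsOpen S := e.open_source.inter (h.isOpen.preimage hemb.continuous)
  set N := (fun z => γ • C.ψ i z) '' S with hN
  set W := e.target ∩ e.symm ⁻¹' S with hW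
  have hWo : IsOpen W := e.isOpen_inter_preimage_symm hSo
  have hFx : Fm F x = f y := by rw [← hxy]; rfl
  have hFz : ∀ z, Fm F (γ • C.ψ i z) = f z := fun z => rfl
  have hyS : y ∈ S := ⟨hes, hyU⟩
  have hsymm : e.symm (f y) = y := e.left_inv hes
  refine ⟨N, W, fun p => γ • C.ψ i (e.symm p), hemb.isOpenMap _ hSo, ⟨y, hyS, hxy⟩, ?_, hWo,
    ?_, ?_, ?_, ?_, ?_⟩
  · rintro _ ⟨z, hz, rfl⟩
    exact hz.2
  · rw [hFx, hW]
    refine ⟨e.map_source hes, ?_⟩
    change e.symm (f y) ∈ S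
    rw [hsymm]; exact hyS
  · intro p hp
    refine ⟨⟨e.symm p, hp.2, rfl⟩, ?_⟩
    rw [hFz, ← hef]
    exact e.right_inv hp.1
  · rintro _ ⟨z, hz, rfl⟩
    have h1 : e.symm (f z) = z := e.left_inv hz.1
    refine ⟨⟨e.map_source hz.1, ?_⟩, ?_⟩
    · change e.symm (f z) ∈ S
      rw [h1]; exact hz
    · change γ • C.ψ i (e.symm (f z)) = γ • C.ψ i z
      rw [h1]
  · rw [hFx]
    refine ContinuousAt.comp (g := fun z => γ • C.ψ i z) hemb.continuous.continuousAt ?_
    exact e.continuousAt_symm (e.map_source hes)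
  · intro u hu
    have hgs : ContDiffAt ℝ ∞ e.symm (f y) :=
      ContDiffAt.to_localInverse hfs.contDiffAt hd (by simp)
    have hug : ContDiffAt ℝ ∞ (fun p => u (γ • C.ψ i (e.symm p))) (f y) := by
      have h1 : ContDiffAt ℝ ∞ (C.rep u γ i) (e.symm (f y)) := (hu γ i).contDiffAt
      exact h1.comp (f y) hgs
    rw [hFx]
    refine ⟨hug, ?_⟩
    set v : E n → ℝ := fun p => u (γ • C.ψ i (e.symm p)) with hv
    have e1 : C.rep u γ i =ᶠ[𝓝 y] fun z => v (f z) := by
      filter_upwards [e.open_source.mem_nhds hes] with z hz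
      change u (γ • C.ψ i z) = u (γ • C.ψ i (e.symm (f z)))
      rw [show e.symm (f z) = z from e.left_inv hz]
    have e2 : gsX C G u x = gradSq (G i) (fun z => v (f z)) y := by
      change gradSq (G i) (C.rep u γ i) y = _
      exact Bas2.gradSq_congr e1
    have hr := h.pos x
    have e3 : gradSq (G i) (fun z => v (f z)) y =
        gradSq (fun _ => (r x ^ 2) • (1 : Matrix (Fin n) (Fin n) ℝ)) v (f y) := by
      refine Bas2.gradSq_comp hfs.contDiffAt (h.det_ne hG hyU) ?_ (hug.differentiableAt (by simp))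
      rw [h.mat hyU, hxy, Matrix.mul_smul, Matrix.mul_one, Matrix.smul_mul]
    have e4 : gradSq (fun _ => (r x ^ 2) • (1 : Matrix (Fin n) (Fin n) ℝ)) v (f y) =
        (r x ^ 2)⁻¹ * ∑ k, Vale.Agent.P223.H.pd k v (f y) ^ 2 := by
      unfold gradSq gradIp
      have hinv : ((r x ^ 2) • (1 : Matrix (Fin n) (Fin n) ℝ))⁻¹ =
          ((r x ^ 2)⁻¹) • (1 : Matrix (Fin n) (Fin n) ℝ) := by
        refine Matrix.inv_eq_left_inv ?_
        rw [Matrix.smul_mul, Matrix.mul_smul, Matrix.mul_one, smul_smul,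
          inv_mul_cancel₀ (by positivity), one_smul]
      rw [hinv, Finset.mul_sum]
      refine Finset.sum_congr rfl fun k _ => ?_
      rw [Finset.sum_eq_single k]
      · simp only [Matrix.smul_apply, Matrix.one_apply_eq, smul_eq_mul]
        ring
      · intro b _ hb
        simp [Matrix.one_apply_ne hb.symm]
      · intro h; exact absurd (Finset.mem_univ k) h
    rw [e2, e3, e4]
    field_simp

end

end Vale.Agent.P223.H620
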