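import Vale.Agent.P223.H620.Fib

/-! Fibre sums. -/

namespace Vale.Agent.P223.H620

open scoped ContDiff Topology ENNReal
open MeasureTheory Vale.Agent.P223.H Vale.Agent.P223.X

section
variable {n : ℕ} {M X Γ I : Type} [TopologicalSpace M] [TopologicalSpace X] [Group Γ]
    [MulAction Γ X] {C : Cov n M X Γ I} {G : I → E n → Matrix (Fin n) (Fin n) ℝ} {U : Set X}
    {F : Fin n → X → ℝ} {r : X → ℝ}

/-- the fibre in `K` -/
def fib (F : Fin n → X → ℝ) (K : Set X) (p : E n) : Set X := {x | x ∈ K ∧ Fm F x = p}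

theorem Cfl.continuous (h : Cfl C G U F r) : Continuous (Fm F) :=
  continuous_pi fun k => Ck_continuous C fun γ i => (h.smooth k γ i).of_le (by simp)

theorem Cfl.fib_finite (hG : MetX C G) (h : Cfl C G U F r) {K : Set X} (hK : IsCompact K)
    (hKU : K ⊆ U) (p : E n) : (fib F K p).Finite := by
  have hc : IsCompact (fib F K p) := by
    have : fib F K p = K ∩ (Fm F) ⁻¹' {p} := rfl
    rw [this]
    exact hK.inter_right (isClosed_singleton.preimage h.continuous)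
  have h1 : ∀ x ∈ fib F K p, ∃ N : Set X, IsOpen N ∧ x ∈ N ∧ ∀ z ∈ N, z ∈ fib F K p → z = x := by
    intro x hx
    obtain ⟨N, W, g, hN, hxN, -, -, -, -, h5, -⟩ := h.local_inv hG (hKU hx.1)
    refine ⟨N, hN, hxN, fun z hz hzp => ?_⟩
    rw [← (h5 z hz).2, ← (h5 x hxN).2, hzp.2, hx.2]
  choose! N hN hxN hNz using h1
  obtain ⟨t, ht, hcov⟩ := hc.elim_finite_subcover_image (b := fib F K p) (c := N) hN
    fun x hx => Set.mem_biUnion hx (hxN x hx)
  obtain ⟨ht2, hcov⟩ := hcov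
  refine ht2.subset fun z hz => ?_
  obtain ⟨x, hx, hzx⟩ := Set.mem_iUnion₂.1 (hcov hz)
  rw [hNz x (ht hx) z hzx hz]
  exact hx

/-- sum over the fibre -/
noncomputable def fsum {R : Type} [AddCommMonoid R] {K : Set X}
    (hf : ∀ p, (fib F K p).Finite) (u : X → R) (p : E n) : R := ∑ x ∈ (hf p).toFinset, u x

/-- the fibre sum near a point -/
theorem Cfl.fsum_local [T2Space X] (hG : MetX C G) (h : Cfl C G U F r) {K : Set X}
    (hK : IsCompact K) (hKU : K ⊆ U) (hf : ∀ p, (fib F K p).Finite) (p₀ : E n) :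
    ∃ g : X → E n → X, (∀ x ∈ (hf p₀).toFinset, g x p₀ = x ∧
      ∀ u : X → ℝ, C.Ck ∞ u → ContDiffAt ℝ ∞ (fun p => u (g x p)) p₀ ∧
        ∑ k, Vale.Agent.P223.H.pd k (fun p => u (g x p)) p₀ ^ 2 = r x ^ 2 * gsX C G u x) ∧
      ∀ᶠ p in 𝓝 p₀, ∀ u : X → ℝ, (∀ x, x ∉ K → u x = 0) →
        fsum hf u p = ∑ x ∈ (hf p₀).toFinset, u (g x p) := by
  classical
  set T := (hf p₀).toFinset with hT
  have hTm : ∀ x, x ∈ T ↔ x ∈ fib F K p₀ := fun x => (hf p₀).mem_toFinset
  have h1 := fun x : X => fun hx : x ∈ U => h.local_inv hG hx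
  choose! N W g hN hxN hNU hW hFW hgW hgN hgc hgs using h1
  obtain ⟨V, hV1, hV2⟩ := (hf p₀).t2_separation
  refine ⟨g, fun x hx => ?_, ?_⟩
  · have hx' := (hTm x).1 hx
    have hxU := hKU hx'.1
    have e : Fm F x = p₀ := hx'.2
    refine ⟨?_, fun u hu => ?_⟩
    · rw [← e]; exact (hgN x hxU x (hxN x hxU)).2
    · rw [← e]; exact hgs x hxU u hu
  · -- the neighbourhood
    set A : Set X := K \ ⋃ x ∈ T, (N x ∩ V x) with hA
    have hAc : IsCompact A := hK.diff (isOpen_biUnion fun x hx =>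
      (hN x (hKU ((hTm x).1 hx).1)).inter (hV1 x).2)
    have hFA : IsClosed (Fm F '' A) := (hAc.image h.continuous).isClosed
    have hp₀A : p₀ ∉ Fm F '' A := by
      rintro ⟨x, hxA, hx⟩
      have hxf : x ∈ fib F K p₀ := ⟨hxA.1, hx⟩
      exact hxA.2 (Set.mem_iUnion₂.2 ⟨x, (hTm x).2 hxf, hxN x (hKU hxf.1), (hV1 x).1⟩)
    have ev1 : ∀ᶠ p in 𝓝 p₀, p ∉ Fm F '' A := hFA.isOpen_compl.mem_nhds hp₀A
    have ev2 : ∀ᶠ p in 𝓝 p₀, ∀ x ∈ T, p ∈ W x ∧ g x p ∈ V x := by
      rw [Filter.eventually_all_finset]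
      intro x hx
      have hx' := (hTm x).1 hx
      have hxU := hKU hx'.1
      have e : Fm F x = p₀ := hx'.2
      have a1 : ∀ᶠ p in 𝓝 p₀, p ∈ W x := by
        rw [← e]; exact (hW x hxU).mem_nhds (hFW x hxU)
      have a2 : ∀ᶠ p in 𝓝 p₀, g x p ∈ V x := by
        have hc := hgc x hxU
        rw [e] at hc
        refine hc.eventually_mem ((hV1 x).2.mem_nhds ?_)
        rw [← e, (hgN x hxU x (hxN x hxU)).2]
        exact (hV1 x).1
      exact a1.and a2
    filter_upwards [ev1, ev2] with p hp1 hp2 u hu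
    unfold fsum
    have hinj : Set.InjOn (fun x => g x p) T := by
      intro x hx x' hx' hxx
      by_contra hne
      have := hV2 ((hTm x).1 hx) ((hTm x').1 hx') hne
      have hd : Disjoint (V x) (V x') := this
      refine Set.disjoint_left.1 hd (hp2 x hx).2 ?_
      have h3 : g x p = g x' p := hxx
      rw [h3]
      exact (hp2 x' hx').2
    rw [← Finset.sum_image (f := u) (g := fun x => g x p) hinj]
    refine Finset.sum_subset ?_ ?_
    · intro z hz
      rw [(hf p).mem_toFinset] at hz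
      have hzA : z ∉ A := fun hzA => hp1 ⟨z, hzA, hz.2⟩
      have : z ∈ ⋃ x ∈ T, (N x ∩ V x) := by
        by_contra hn
        exact hzA ⟨hz.1, hn⟩
      obtain ⟨x, hx, hzN⟩ := Set.mem_iUnion₂.1 this
      have hxU := hKU ((hTm x).1 hx).1
      have h2 := (hgN x hxU z hzN.1).2
      rw [hz.2] at h2
      exact Finset.mem_image.2 ⟨x, hx, h2⟩
    · intro z hz hzn
      obtain ⟨x, hx, rfl⟩ := Finset.mem_image.1 hz
      refine hu _ fun hzK => hzn ?_
      rw [(hf p).mem_toFinset]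
      exact ⟨hzK, (hgW x (hKU ((hTm x).1 hx).1) p (hp2 x hx).1).2⟩

/-- the fibre sum of `u²` is smooth, with a bound for the gradient -/
theorem Cfl.fsum_sq [T2Space X] (hG : MetX C G) (h : Cfl C G U F r) {K : Set X}
    (hK : IsCompact K) (hKU : K ⊆ U) (hf : ∀ p, (fib F K p).Finite) {u : X → ℝ}
    (hu : C.Ck ∞ u) (hu0 : ∀ x, x ∉ K → u x = 0) :
    ContDiff ℝ ∞ (fsum hf fun x => u x ^ 2) ∧ HasCompactSupport (fsum hf fun x => u x ^ 2) ∧
    (∀ p, 0 ≤ fsum hf (fun x => u x ^ 2) p) ∧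
    ∀ p, ∑ k, Vale.Agent.P223.H.pd k (fsum hf fun x => u x ^ 2) p ^ 2 ≤
      4 * fsum hf (fun x => u x ^ 2) p * fsum hf (fun x => r x ^ 2 * gsX C G u x) p := by
  have hu0' : ∀ x, x ∉ K → u x ^ 2 = 0 := fun x hx => by rw [hu0 x hx]; norm_num
  refine ⟨contDiff_iff_contDiffAt.2 fun p₀ => ?_, ?_, fun p => Finset.sum_nonneg fun x _ =>
    sq_nonneg _, fun p₀ => ?_⟩
  · obtain ⟨g, hg1, hg2⟩ := h.fsum_local hG hK hKU hf p₀
    have e : fsum hf (fun x => u x ^ 2) =ᶠ[𝓝 p₀]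
        fun p => ∑ x ∈ (hf p₀).toFinset, u (g x p) ^ 2 := by
      filter_upwards [hg2] with p hp
      exact hp _ hu0'
    refine ContDiffAt.congr_of_eventuallyEq ?_ e
    exact ContDiffAt.sum fun x hx => (((hg1 x hx).2 u hu).1).pow 2
  · refine HasCompactSupport.intro (hK.image h.continuous) fun p hp => ?_
    unfold fsum
    have : (hf p).toFinset = ∅ := by
      rw [Set.Finite.toFinset_eq_empty]
      ext x
      simp only [Set.mem_empty_iff_false, iff_false]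
      rintro ⟨hx, hxp⟩
      exact hp ⟨x, hx, hxp⟩
    rw [this, Finset.sum_empty]
  · obtain ⟨g, hg1, hg2⟩ := h.fsum_local hG hK hKU hf p₀
    set T := (hf p₀).toFinset with hT
    have e : fsum hf (fun x => u x ^ 2) =ᶠ[𝓝 p₀] fun p => ∑ x ∈ T, u (g x p) ^ 2 := by
      filter_upwards [hg2] with p hp
      exact hp _ hu0'
    have hd : ∀ x ∈ T, DifferentiableAt ℝ (fun p => u (g x p)) p₀ := fun x hx =>
      ((hg1 x hx).2 u hu).1.differentiableAt (by simp)
    have e2 : ∀ k, Vale.Agent.P223.H.pd k (fsum hf fun x => u x ^ 2) p₀ =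
        ∑ x ∈ T, 2 * u x * Vale.Agent.P223.H.pd k (fun p => u (g x p)) p₀ := by
      intro k
      have e3 : Vale.Agent.P223.H.pd k (fsum hf fun x => u x ^ 2) p₀ =
          Vale.Agent.P223.H.pd k (fun p => ∑ x ∈ T, u (g x p) ^ 2) p₀ := by
        unfold Vale.Agent.P223.H.pd
        rw [e.fderiv_eq]
      have hds : HasFDerivAt (fun p => ∑ x ∈ T, u (g x p) ^ 2)
          (∑ x ∈ T, (2 * u (g x p₀)) • fderiv ℝ (fun p => u (g x p)) p₀) p₀ := by
        refine HasFDerivAt.fun_sum fun x hx => ?_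
        have h9 := (hasDerivAt_pow 2 (u (g x p₀))).comp_hasFDerivAt p₀ (hd x hx).hasFDerivAt
        have h10 : ((2 : ℕ) : ℝ) * u (g x p₀) ^ (2 - 1) = 2 * u (g x p₀) := by norm_num
        rw [h10] at h9
        exact h9
      rw [e3]
      unfold Vale.Agent.P223.H.pd
      rw [hds.fderiv, sum_apply]
      refine Finset.sum_congr rfl fun x hx => ?_
      rw [smul_apply, smul_eq_mul, (hg1 x hx).1]
    have e4 : fsum hf (fun x => r x ^ 2 * gsX C G u x) p₀ =
        ∑ x ∈ T, ∑ k, Vale.Agent.P223.H.pd k (fun p => u (g x p)) p₀ ^ 2 :=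
      Finset.sum_congr rfl fun x hx => (((hg1 x hx).2 u hu).2).symm
    have e5 : fsum hf (fun x => u x ^ 2) p₀ = ∑ x ∈ T, u x ^ 2 := rfl
    rw [e4, e5, Finset.sum_comm, Finset.mul_sum]
    refine Finset.sum_le_sum fun k _ => ?_
    rw [e2]
    calc (∑ x ∈ T, 2 * u x * Vale.Agent.P223.H.pd k (fun p => u (g x p)) p₀) ^ 2
        ≤ (∑ x ∈ T, (2 * u x) ^ 2) *
          ∑ x ∈ T, Vale.Agent.P223.H.pd k (fun p => u (g x p)) p₀ ^ 2 :=
          Finset.sum_mul_sq_le_sq_mul_sq T _ _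
      _ = 4 * (∑ x ∈ T, u x ^ 2) *
          ∑ x ∈ T, Vale.Agent.P223.H.pd k (fun p => u (g x p)) p₀ ^ 2 := by
          congr 1
          rw [Finset.mul_sum]
          exact Finset.sum_congr rfl fun x _ => by ring

end

end Vale.Agent.P223.H620
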