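import Vale.Agent.P223.H620.ImC2
import Vale.Agent.P223.H391.Wb

/-! From immersions of an open set to maps which are smooth everywhere. -/

namespace Vale.Agent.P223.H620.Im

open scoped ContDiff Topology Matrix ENNReal
open MeasureTheory Set Filter Vale.Agent.P223.H Vale.Agent.P223.X Vale.Agent.P223.H566

section
variable {n : ℕ} {X : Type} [TopologicalSpace X] {c : X → J.Ch n X} {g : X → J.Mtx n}
  {S K : Set X}

theorem exists_bumpS [T2Space X] (hc : J.Atl c) (hS : IsOpen S) {p : X} (hp : p ∈ S) :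
    ∃ b : X → ℝ, J.Sm c b ∧ HasCompactSupport b ∧ tsupport b ⊆ S ∧ ∃ O, IsOpen O ∧ p ∈ O ∧
      ∀ q ∈ O, b q = 1 := by
  classical
  have hSo : IsOpen ((c p).target ∩ (c p).symm ⁻¹' S) :=
    (c p).symm.isOpen_inter_preimage hS
  obtain ⟨ε, hε, hball⟩ := Metric.nhds_basis_closedBall.mem_iff.1
    (hSo.mem_nhds ⟨JB.mem_tgt hc p, by rw [mem_preimage, (c p).left_inv (hc p).1]; exact hp⟩)
  let f : ContDiffBump (c p p) := ⟨ε / 4, ε / 2, by positivity, by linarith⟩
  set K : Set X := (c p).symm '' Metric.closedBall (c p p) (ε / 2) with hK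
  have hsub' : Metric.closedBall (c p p) (ε / 2) ⊆ (c p).target ∩ (c p).symm ⁻¹' S :=
    (Metric.closedBall_subset_closedBall (by linarith)).trans hball
  have hsub : Metric.closedBall (c p p) (ε / 2) ⊆ (c p).target := fun x hx => (hsub' hx).1
  have hKc : IsCompact K :=
    (isCompact_closedBall _ _).image_of_continuousOn ((c p).continuousOn_symm.mono hsub)
  have hKs : K ⊆ (c p).source := by
    rintro _ ⟨x, hx, rfl⟩
    exact (c p).map_target (hsub hx)
  have hKS : K ⊆ S := by
    rintro _ ⟨x, hx, rfl⟩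
    exact (hsub' hx).2
  set b : X → ℝ := fun q => if q ∈ (c p).source then f (c p q) else 0 with hb
  have hb0 : ∀ q, q ∉ K → b q = 0 := by
    intro q hq
    simp only [hb]
    split_ifs with h
    · refine f.zero_of_le_dist ?_
      by_contra hcon
      push Not at hcon
      refine hq ⟨c p q, ?_, (c p).left_inv h⟩
      exact Metric.mem_closedBall.2 hcon.le
    · rfl
  have hts : tsupport b ⊆ K := closure_minimal (fun q hq => by
    by_contra h
    exact hq (hb0 q h)) hKc.isClosed
  refine ⟨b, fun a x hx => ?_, hKc.of_isClosed_subset (isClosed_tsupport _) hts, hts.trans hKS,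
    (c p).source ∩ (c p) ⁻¹' Metric.ball (c p p) (ε / 4),
    (c p).isOpen_inter_preimage Metric.isOpen_ball, ⟨(hc p).1, Metric.mem_ball_self (by positivity)⟩,
    fun q hq => ?_⟩
  · refine ContDiffAt.contDiffWithinAt ?_
    by_cases h : (c a).symm x ∈ (c p).source
    · have hx' : x ∈ RicU.cd c a p := ⟨hx, h⟩
      have h1 : ContDiffAt ℝ ∞ (fun y => f (J.cm (c a) (c p) y)) x :=
        f.contDiff.contDiffAt.comp x (RicU.smooth_cm hc hx')
      refine h1.congr_of_eventuallyEq ?_
      filter_upwards [(RicU.isOpen_cd a p).mem_nhds hx'] with y hy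
      simp only [hb]
      rw [if_pos (show (c a).symm y ∈ (c p).source from hy.2)]
      rfl
    · have h2 : (c a).symm x ∉ K := fun h' => h (hKs h')
      have ho : IsOpen ((c a).target ∩ (c a).symm ⁻¹' Kᶜ) :=
        (c a).symm.isOpen_inter_preimage hKc.isClosed.isOpen_compl
      refine (contDiffAt_const (c := (0 : ℝ))).congr_of_eventuallyEq ?_
      filter_upwards [ho.mem_nhds ⟨hx, h2⟩] with y hy
      exact hb0 _ hy.2
  · simp only [hb]
    rw [if_pos hq.1]
    exact f.one_of_mem_closedBall (Metric.ball_subset_closedBall hq.2)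

/-- a cut-off function of a compact subset of an open set -/
theorem exists_cut [T2Space X] (hc : J.Atl c) (hS : IsOpen S) (hK : IsCompact K) (hKS : K ⊆ S) :
    ∃ χ : X → ℝ, J.Sm c χ ∧ tsupport χ ⊆ S ∧ ∃ O, IsOpen O ∧ K ⊆ O ∧ ∀ q ∈ O, χ q = 1 := by
  classical
  choose! b hb hbc hbs O hO hpO hb1 using fun p (hp : p ∈ S) => exists_bumpS hc hS hp
  obtain ⟨I, hI, hcov⟩ := hK.elim_nhds_subcover O fun p hp => (hO p (hKS hp)).mem_nhds
    (hpO p (hKS hp))
  set s : X → ℝ := fun q => ∑ i ∈ I, b i q * b i q with hs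
  have hs0 : ∀ q, 0 ≤ s q := fun q => Finset.sum_nonneg fun i _ => mul_self_nonneg _
  have hsm : J.Sm c s := sm_sum fun i hi => sm_mul (hb i (hKS (hI i hi))) (hb i (hKS (hI i hi)))
  refine ⟨fun q => Real.smoothTransition (s q), sm_comp hsm Real.smoothTransition.contDiff, ?_,
    ⋃ i ∈ I, O i, isOpen_biUnion fun i hi => hO i (hKS (hI i hi)), hcov, fun q hq => ?_⟩
  · have h1 : IsClosed (⋃ i ∈ I, tsupport (b i)) :=
      Set.Finite.isClosed_biUnion I.finite_toSet fun i _ => isClosed_tsupport _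
    have h2 : tsupport (fun q => Real.smoothTransition (s q)) ⊆ ⋃ i ∈ I, tsupport (b i) := by
      refine closure_minimal (fun q hq => ?_) h1
      by_contra h
      refine hq ?_
      have h3 : s q = 0 := Finset.sum_eq_zero fun i hi => by
        rw [image_eq_zero_of_notMem_tsupport fun h' => h (mem_biUnion hi h'), zero_mul]
      exact Real.smoothTransition.zero_of_nonpos h3.le
    exact h2.trans (iUnion₂_subset fun i hi => hbs i (hKS (hI i hi)))
  · obtain ⟨i, hi, hqi⟩ := mem_iUnion₂.1 hq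
    refine Real.smoothTransition.one_of_one_le ?_
    have h1 : b i q * b i q ≤ s q := Finset.single_le_sum
      (f := fun i => b i q * b i q) (fun i _ => mul_self_nonneg _) hi
    rwa [hb1 i (hKS (hI i hi)) q hqi, mul_one] at h1

/-- the product with a cut-off function -/
theorem sm_cut (hS : IsOpen S) {χ F : X → ℝ} (hχ : J.Sm c χ) (hχS : tsupport χ ⊆ S)
    (hF : J.SmOn c F S) : J.Sm c fun q => χ q * F q := by
  intro a x hx
  refine ContDiffAt.contDiffWithinAt ?_
  by_cases h : (c a).symm x ∈ S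
  · have ho : IsOpen ((c a).target ∩ (c a).symm ⁻¹' S) := (c a).symm.isOpen_inter_preimage hS
    exact ((hχ a).contDiffAt ((c a).open_target.mem_nhds hx)).mul
      ((hF a).contDiffAt (ho.mem_nhds ⟨hx, h⟩))
  · have h2 : (c a).symm x ∉ tsupport χ := fun h' => h (hχS h')
    have ho : IsOpen ((c a).target ∩ (c a).symm ⁻¹' (tsupport χ)ᶜ) :=
      (c a).symm.isOpen_inter_preimage (isClosed_tsupport χ).isOpen_compl
    refine (contDiffAt_const (c := (0 : ℝ))).congr_of_eventuallyEq ?_
    filter_upwards [ho.mem_nhds ⟨hx, h2⟩] with y hy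
    rw [image_eq_zero_of_notMem_tsupport hy.2, zero_mul]

/-- from immersions of an open set to maps which are smooth everywhere -/
theorem cg_of [T2Space X] (hc : J.Atl c) {b : X → ℝ} (hS : IsOpen S) (hK : IsCompact K)
    (hKS : K ⊆ S) (h : J.CImmOn c g b S) : CG c g b K := by
  obtain ⟨N, F, f, hF, hf, hq⟩ := h
  obtain ⟨χ, hχ, hχS, O, hO, hKO, hχ1⟩ := exists_cut hc hS hK hKS
  refine ⟨N, fun k q => χ q * F k q, fun q => χ q * f q, fun k => sm_cut hS hχ hχS (hF k),
    sm_cut hS hχ hχS hf, fun q hqK => ?_⟩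
  obtain ⟨h1, h2⟩ := hq q (hKS hqK)
  set U : Set (E n) := (c q).target ∩ (c q).symm ⁻¹' O with hU
  have hUo : IsOpen U := (c q).symm.isOpen_inter_preimage hO
  have hqU : c q q ∈ U := ⟨JB.mem_tgt hc q, by
    rw [mem_preimage, (c q).left_inv (hc q).1]; exact hKO hqK⟩
  have eF : ∀ k, ∀ y ∈ U, χ ((c q).symm y) * F k ((c q).symm y) = F k ((c q).symm y) :=
    fun k y hy => by rw [hχ1 _ hy.2, one_mul]
  have ef : ∀ y ∈ U, χ ((c q).symm y) * f ((c q).symm y) = f ((c q).symm y) :=
    fun y hy => by rw [hχ1 _ hy.2, one_mul]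
  have eG : ∀ y ∈ U, J.conf c (fun q => χ q * f q) g q y = J.conf c f g q y := fun y hy => by
    unfold J.conf
    simp only [ef y hy]
  have hfq : χ q * f q = f q := by rw [hχ1 q (hKO hqK), one_mul]
  have epd : ∀ k i, J.pd i (fun x => χ ((c q).symm x) * F k ((c q).symm x)) (c q q) =
      J.pd i (fun x => F k ((c q).symm x)) (c q q) := fun k i =>
    pd_congr_on hUo (eF k) hqU i
  refine ⟨fun i j => ?_, ?_⟩
  · rw [eG _ hqU, ← h1 i j]
    simp only [epd]
  · have e1 : J.hsq c (J.conf c (fun q => χ q * f q) g) (fun k q => χ q * F k q) q =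
        J.hsq c (J.conf c f g) F q := by
      unfold J.hsq
      refine Finset.sum_congr rfl fun k _ => ?_
      have e2 : J.lapl (J.conf c (fun q => χ q * f q) g q)
          (fun x => χ ((c q).symm x) * F k ((c q).symm x)) (c q q) =
          J.lapl (J.conf c f g q) (fun x => F k ((c q).symm x)) (c q q) :=
        lap_congr_on hUo eG (eF k) hqU
      rw [e2]
    have e3 : J.scal (J.conf c (fun q => χ q * f q) g q) (c q q) =
        J.scal (J.conf c f g q) (c q q) := scal_congr_on hUo eG hqU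
    rw [e1, e3]
    simp only [hfq]
    exact h2

open Vale.Agent.P223.H566.NV in
/-- the ball is open -/
theorem isOpen_Bal (hc : J.Atl c) (hg : J.Met c g) (x : X) (R : ℝ) : IsOpen (J.Bal c g x R) := by
  have h : J.Bal c g x R = bal c g x R := by
    ext z
    constructor
    · rintro ⟨s, hs, h⟩
      have h0 : J.Lip1 c g fun _ => 0 := by
        refine ⟨fun a => contDiffOn_const, fun q => ?_⟩
        unfold J.gsq
        have : ∀ i, J.pd i (fun _ : J.E n => (0 : ℝ)) (c q q) = 0 := fun i => Bridge.pd_const 0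
        simp [this]
      have hs0 : 0 ≤ s := (abs_nonneg _).trans (h _ h0)
      have h1 : dst c g x z ≤ ENNReal.ofReal s :=
        iSup₂_le fun w hw => ENNReal.ofReal_le_ofReal (h w hw)
      exact lt_of_le_of_lt h1 ((ENNReal.ofReal_lt_ofReal_iff (hs0.trans_lt hs)).2 hs)
    · intro h
      have h1 : dst c g x z < ENNReal.ofReal R := h
      have hR : 0 < R := ENNReal.ofReal_pos.1 (pos_of_gt h1)
      refine ⟨(dst c g x z).toReal, ?_, fun w hw => ?_⟩
      · rwa [ENNReal.lt_ofReal_iff_toReal_lt (ne_top_of_lt h1)] at h1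
      · have h2 := Iso.lip_le hw x z
        exact (ENNReal.ofReal_le_iff_le_toReal (ne_top_of_lt h1)).1 h2
  rw [h]
  exact H391.W.isOpen_bal hc hg x R

end

end Vale.Agent.P223.H620.Im
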