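import Vale.Agent.P223.H620.ImG3
import Vale.Agent.P223.H.ConfScal
import Vale.Agent.P223.X.ConfU

/-! The scalar curvature of a conformal metric, near a point. -/

namespace Vale.Agent.P223.H620.Im

open scoped ContDiff Topology Matrix ENNReal
open MeasureTheory Set Filter Vale.Agent.P223.H Vale.Agent.P223.X Vale.Agent.P223.H566

section loc
variable {n : ℕ} {G G' : E n → Matrix (Fin n) (Fin n) ℝ} {f f' : E n → ℝ} {U : Set (E n)}
  {x : E n}

theorem pd_congr_on (hU : IsOpen U) (e : ∀ y ∈ U, f y = f' y) (hx : x ∈ U) (i : Fin n) :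
    H.pd i f x = H.pd i f' x := by
  have h : f =ᶠ[𝓝 x] f' := Filter.mem_of_superset (hU.mem_nhds hx) e
  unfold H.pd
  rw [h.fderiv_eq]

theorem chr_congr_on (hU : IsOpen U) (e : ∀ y ∈ U, G y = G' y) (hx : x ∈ U) (k i j : Fin n) :
    H.chr G x k i j = H.chr G' x k i j := by
  unfold H.chr
  have h1 : ∀ i a b, H.pd i (fun y => G y a b) x = H.pd i (fun y => G' y a b) x :=
    fun i a b => pd_congr_on hU (fun y hy => by rw [e y hy]) hx i
  simp only [h1, e x hx]

theorem ric_congr_on (hU : IsOpen U) (e : ∀ y ∈ U, G y = G' y) (hx : x ∈ U) (i j : Fin n) :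
    H.ric G x i j = H.ric G' x i j := by
  unfold H.ric
  have h1 : ∀ i c a b, H.pd i (fun y => H.chr G y c a b) x =
      H.pd i (fun y => H.chr G' y c a b) x := fun i c a b =>
    pd_congr_on hU (fun y hy => chr_congr_on hU e hy c a b) hx i
  simp only [h1, chr_congr_on hU e hx]

theorem scal_congr_on (hU : IsOpen U) (e : ∀ y ∈ U, G y = G' y) (hx : x ∈ U) :
    H.scal G x = H.scal G' x := by
  unfold H.scal
  simp only [ric_congr_on hU e hx, e x hx]

theorem lap_congr_on (hU : IsOpen U) (e : ∀ y ∈ U, G y = G' y) (e' : ∀ y ∈ U, f y = f' y)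
    (hx : x ∈ U) : lap G f x = lap G' f' x := by
  unfold lap
  have h1 : ∀ i, H.pd i f x = H.pd i f' x := fun i => pd_congr_on hU e' hx i
  have h2 : ∀ i j, H.pd i (fun y => H.pd j f y) x = H.pd i (fun y => H.pd j f' y) x :=
    fun i j => pd_congr_on hU (fun y hy => pd_congr_on hU e' hy j) hx i
  simp only [h1, h2, chr_congr_on hU e hx, e x hx]

theorem gradSq_congr_on (hU : IsOpen U) (e : ∀ y ∈ U, G y = G' y) (e' : ∀ y ∈ U, f y = f' y)
    (hx : x ∈ U) : gradSq G f x = gradSq G' f' x := by
  unfold gradSq gradIp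
  have h1 : ∀ i, H.pd i f x = H.pd i f' x := fun i => pd_congr_on hU e' hx i
  simp only [h1, e x hx]

/-- extension of a function -/
theorem ext_smooth' (hU : IsOpen U) (b : ContDiffBump x) (hb : Metric.closedBall x b.rOut ⊆ U)
    (hf : ContDiffOn ℝ ∞ f U) (r : ℝ) : ContDiff ℝ ∞ fun y => b y * f y + (1 - b y) * r := by
  refine contDiff_iff_contDiffAt.2 fun y => ?_
  have hbs : ContDiff ℝ ∞ b := b.contDiff
  by_cases hy : y ∈ U
  · exact (hbs.contDiffAt.mul (hf.contDiffAt (hU.mem_nhds hy))).add
      ((contDiffAt_const.sub hbs.contDiffAt).mul contDiffAt_const)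
  · have h1 : (fun y => b y * f y + (1 - b y) * r) =ᶠ[𝓝 y] fun _ => r := by
      have h2 : (Metric.closedBall x b.rOut)ᶜ ∈ 𝓝 y :=
        Metric.isClosed_closedBall.isOpen_compl.mem_nhds fun h => hy (hb h)
      filter_upwards [h2] with z hz
      have h3 : b z = 0 := b.zero_of_le_dist (by
        rw [mem_compl_iff, Metric.mem_closedBall, not_le] at hz
        exact hz.le)
      rw [h3]
      ring
    exact contDiffAt_const.congr_of_eventuallyEq h1

/-- the scalar curvature of a conformal metric -/
theorem scal_conf_at {X₀ : Set (E n)} (hX : IsOpen X₀) (hG : IsMetricOn X₀ G)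
    (hf : ContDiffOn ℝ ∞ f X₀) (hx : x ∈ X₀) :
    Real.exp (2 * f x) * H.scal (confm f G) x =
      H.scal G x - 2 * ((n : ℝ) - 1) * lap G f x -
        ((n : ℝ) - 1) * ((n : ℝ) - 2) * gradSq G f x := by
  obtain ⟨ε, hε, hball⟩ := Metric.nhds_basis_closedBall.mem_iff.1 (hX.mem_nhds hx)
  let b : ContDiffBump x := ⟨ε / 2, ε, by positivity, by linarith⟩
  have hb : Metric.closedBall x b.rOut ⊆ X₀ := hball
  set G' : E n → Matrix (Fin n) (Fin n) ℝ := fun y => b y • G y + (1 - b y) • 1 with hG'
  set f' : E n → ℝ := fun y => b y * f y + (1 - b y) * 0 with hf'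
  have hs : ∀ i j, ContDiff ℝ ∞ fun y => G' y i j := by
    intro i j
    have h1 := ext_smooth' hX b hb (hG.smooth i j) ((1 : Matrix (Fin n) (Fin n) ℝ) i j)
    exact h1
  have hfs : ContDiff ℝ ∞ f' := ext_smooth' hX b hb hf 0
  have hp : ∀ y, (G' y).PosDef := by
    intro y
    have h0 : 0 ≤ b y := b.nonneg
    have h1 : b y ≤ 1 := b.le_one
    rcases h0.eq_or_lt with h2 | h2
    · rw [hG']
      simp only [← h2, zero_smul, zero_add, sub_zero, one_smul]
      exact Matrix.PosDef.one
    · have hy : y ∈ X₀ := hb (by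
        by_contra h
        rw [Metric.mem_closedBall, not_le] at h
        exact h2.ne' (b.zero_of_le_dist h.le))
      exact ((hG.posDef y hy).smul h2).add_posSemidef
        (Matrix.PosDef.one.posSemidef.smul (sub_nonneg.2 h1))
  set U : Set (E n) := Metric.ball x (ε / 2) with hU
  have hUo : IsOpen U := Metric.isOpen_ball
  have hxU : x ∈ U := Metric.mem_ball_self (by positivity)
  have h1 : ∀ y ∈ U, b y = 1 := fun y hy => b.one_of_mem_closedBall (by
    exact Metric.ball_subset_closedBall hy)
  have eG : ∀ y ∈ U, G' y = G y := fun y hy => by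
    rw [hG']
    simp only [h1 y hy, one_smul, sub_self, zero_smul, add_zero]
  have ef : ∀ y ∈ U, f' y = f y := fun y hy => by
    rw [hf']
    simp only [h1 y hy, one_mul, sub_self, zero_mul, add_zero]
  have ec : ∀ y ∈ U, confm f' G' y = confm f G y := fun y hy => by
    unfold confm
    rw [eG y hy, ef y hy]
  have h := ConfScal.main n G' hs hp f' hfs x
  rwa [scal_congr_on hUo ec hxU, scal_congr_on hUo eG hxU, lap_congr_on hUo eG ef hxU,
    gradSq_congr_on hUo eG ef hxU, ef x hxU] at h

end loc

section man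
variable {n : ℕ} {X : Type} [TopologicalSpace X] {c : X → J.Ch n X} {g : X → J.Mtx n}
  {f : X → ℝ}

/-- the scalar curvature of a conformal metric -/
theorem scal_conf (hc : J.Atl c) (hg : J.Met c g) (hf : J.Sm c f) (q : X) :
    Real.exp (2 * f q) * J.scal (J.conf c f g q) (c q q) =
      J.scal (g q) (c q q) - 2 * ((n : ℝ) - 1) * lpl c g f q -
        ((n : ℝ) - 1) * ((n : ℝ) - 2) * gip c g f f q := by
  have h := scal_conf_at (c q).open_target (RicU.met_on hg q) (hf q) (JB.mem_tgt hc q)
  simp only [(c q).left_inv (hc q).1] at h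
  exact h

theorem inv_smul' {A : Matrix (Fin n) (Fin n) ℝ} (hA : A.PosDef) (t : ℝ) :
    (Real.exp t • A)⁻¹ = Real.exp (-t) • A⁻¹ := by
  refine Matrix.inv_eq_right_inv ?_
  rw [smul_mul_smul_comm, ← Real.exp_add, add_neg_cancel, Real.exp_zero, one_smul,
    Matrix.mul_nonsing_inv _ hA.det_pos.ne'.isUnit]

/-- the pairing for the conformal metric -/
theorem gip_conf (hc : J.Atl c) (hg : J.Met c g) (u v : X → ℝ) (q : X) :
    gip c (J.conf c f g) u v q = Real.exp (-(2 * f q)) * gip c g u v q := by
  unfold gip J.conf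
  rw [(c q).left_inv (hc q).1, inv_smul' (JB.posDef hc hg q)]
  simp only [Matrix.smul_apply, smul_eq_mul, Finset.mul_sum]
  exact Finset.sum_congr rfl fun i _ => Finset.sum_congr rfl fun j _ => by ring

theorem meas_chart [MeasurableSpace X] [BorelSpace X] {a : X} {B : Set (E n)}
    (hB : B ⊆ (c a).target) (hm : MeasurableSet B) : MeasurableSet ((c a).symm '' B) := by
  have h1 : (c a).symm '' B = (c a).source ∩ (c a) ⁻¹' B := by
    ext p
    constructor
    · rintro ⟨y, hy, rfl⟩
      exact ⟨(c a).map_target (hB hy), by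
        rw [mem_preimage, (c a).right_inv (hB hy)]; exact hy⟩
    · rintro ⟨h1, h2⟩
      exact ⟨c a p, h2, (c a).left_inv h1⟩
  rw [h1]
  have h2 : Measurable ((c a).source.domRestrict (c a)) :=
    ((c a).continuousOn.domRestrict).measurable
  have h3 := (c a).open_source.measurableSet.subtype_image (h2 hm)
  have h4 : Subtype.val '' ((c a).source.domRestrict (c a) ⁻¹' B) =
      (c a).source ∩ (c a) ⁻¹' B := by
    ext x
    constructor
    · rintro ⟨⟨y, hy⟩, h, rfl⟩; exact ⟨hy, h⟩
    · rintro ⟨h, h'⟩; exact ⟨⟨x, h⟩, h', rfl⟩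
  rwa [h4] at h3

/-- the volume of the conformal metric -/
theorem vol_conf [MeasurableSpace X] [BorelSpace X] {μ : Measure X} (hc : J.Atl c)
    (hg : J.Met c g) (hμ : J.Vol c g μ) (hf : J.Sm c f) :
    J.Vol c (J.conf c f g) (μ.withDensity fun q => ENNReal.ofReal (Real.exp (n * f q))) := by
  intro a B hB hm
  have hS := meas_chart (c := c) hB hm
  have ht := (c a).open_target.measurableSet
  have hss : (c a).symm '' B ⊆ (c a).source := by
    rintro _ ⟨y, hy, rfl⟩
    exact (c a).map_target (hB hy)
  have hfc := JB.sm_cont hc hf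
  have hfm : Measurable fun q => ENNReal.ofReal (Real.exp (n * f q)) :=
    ((continuous_const.mul hfc).rexp).measurable.ennreal_ofReal
  have hm1 : AEMeasurable (c a).symm ((volume.restrict (c a).target).withDensity
      fun x => ENNReal.ofReal √(g a x).det) :=
    ((c a).continuousOn_symm.aemeasurable ht).mono_ac (withDensity_absolutelyContinuous _ _)
  have hm2 : AEMeasurable (fun x => ENNReal.ofReal √(g a x).det)
      (volume.restrict (c a).target) :=
    ((cont_dens hg a).aemeasurable ht).ennreal_ofReal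
  rw [withDensity_apply _ hS, ← Measure.restrict_restrict_of_subset hss, restrict_chart hμ a,
    ← lintegral_indicator hS, lintegral_map' (hfm.indicator hS).aemeasurable hm1,
    lintegral_withDensity_eq_lintegral_mul₀ hm2 (by
      exact (hfm.indicator hS).comp_aemeasurable ((c a).continuousOn_symm.aemeasurable ht))]
  have key : ∀ x ∈ (c a).target, ((fun x => ENNReal.ofReal √(g a x).det) * fun x =>
      ((c a).symm '' B).indicator (fun q => ENNReal.ofReal (Real.exp (n * f q)))
        ((c a).symm x)) x =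
      B.indicator (fun x => ENNReal.ofReal √(J.conf c f g a x).det) x := by
    intro x hx
    simp only [Pi.mul_apply]
    by_cases hxB : x ∈ B
    · rw [indicator_of_mem (show (c a).symm x ∈ (c a).symm '' B from ⟨x, hxB, rfl⟩),
        indicator_of_mem hxB, ← ENNReal.ofReal_mul (Real.sqrt_nonneg _)]
      congr 1
      unfold J.conf
      rw [Matrix.det_smul, Fintype.card_fin, Real.sqrt_mul (by positivity), mul_comm]
      congr 1
      rw [← Real.exp_nat_mul]
      have e : (n : ℝ) * (2 * f ((c a).symm x)) = n * f ((c a).symm x) + n * f ((c a).symm x) := by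
        ring
      rw [e, Real.exp_add, Real.sqrt_mul_self (Real.exp_pos _).le]
    · have h1 : (c a).symm x ∉ (c a).symm '' B := by
        rintro ⟨y, hy, hxy⟩
        exact hxB (by rwa [← (c a).symm.injOn (hB hy) hx hxy])
      rw [indicator_of_notMem h1, indicator_of_notMem hxB, mul_zero]
  rw [setLIntegral_congr_fun ht key, lintegral_indicator hm, Measure.restrict_restrict hm,
    inter_eq_left.2 hB]

end man

end Vale.Agent.P223.H620.Im
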