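import Vale.Agent.P223.H620.ImM1
import Mathlib.Analysis.SpecialFunctions.SmoothTransition
import Mathlib.Analysis.Calculus.ParametricIntegral
import Mathlib.Analysis.Calculus.Deriv.Slope
import Mathlib.Analysis.Calculus.Deriv.MeanValue

/-! Isometric immersions into `ℝ^N`: the monotonicity formula. -/

namespace Vale.Agent.P223.H620.Im

open scoped ContDiff Topology Matrix ENNReal
open MeasureTheory Set Filter Vale.Agent.P223.H Vale.Agent.P223.X Vale.Agent.P223.H566

/-- a cut-off function -/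
noncomputable def ze (s : ℝ) : ℝ := Real.smoothTransition (4 / 3 * (1 - s))

theorem ze_contDiff : ContDiff ℝ ∞ ze :=
  Real.smoothTransition.contDiff.comp (contDiff_const.mul (contDiff_const.sub contDiff_id))

theorem ze_nonneg (s : ℝ) : 0 ≤ ze s := Real.smoothTransition.nonneg _

theorem ze_le_one (s : ℝ) : ze s ≤ 1 := Real.smoothTransition.le_one _

theorem ze_one {s : ℝ} (h : s ≤ 1 / 4) : ze s = 1 :=
  Real.smoothTransition.one_of_one_le (by linarith)

theorem ze_zero {s : ℝ} (h : 1 ≤ s) : ze s = 0 :=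
  Real.smoothTransition.zero_of_nonpos (by linarith)

theorem ze_anti : Antitone ze := fun a b h => Real.smoothTransition.monotone (by linarith)

theorem ze_hasDeriv (s : ℝ) : HasDerivAt ze (deriv ze s) s :=
  (ze_contDiff.differentiable (by simp) s).hasDerivAt

theorem dze_nonpos (s : ℝ) : deriv ze s ≤ 0 := ze_anti.deriv_nonpos

theorem dze_cont : Continuous (deriv ze) := ze_contDiff.continuous_deriv (by simp)

theorem dze_zero {s : ℝ} (h : 1 ≤ s) : deriv ze s = 0 := by
  have h1 : ∀ t, 1 < t → deriv ze t = 0 := by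
    intro t ht
    have : ze =ᶠ[𝓝 t] fun _ => 0 := by
      filter_upwards [Ioi_mem_nhds ht] with z hz
      exact ze_zero (le_of_lt hz)
    rw [this.deriv_eq]; simp
  rcases h.eq_or_lt with h | h
  · have h2 : Tendsto (deriv ze) (𝓝[>] 1) (𝓝 (deriv ze 1)) :=
      dze_cont.continuousAt.continuousWithinAt
    have h3 : Tendsto (deriv ze) (𝓝[>] 1) (𝓝 0) := by
      refine tendsto_const_nhds.congr' ?_
      filter_upwards [self_mem_nhdsWithin] with t ht
      exact (h1 t ht).symm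
    rw [← h]
    exact tendsto_nhds_unique h2 h3
  · exact h1 s h

theorem dze_bound : ∃ B : ℝ, 0 < B ∧ ∀ s, 0 ≤ s → |deriv ze s| * s ≤ B := by
  obtain ⟨B, hB⟩ := isCompact_Icc.exists_bound_of_continuousOn (s := Icc (0 : ℝ) 1)
    (f := deriv ze) dze_cont.continuousOn
  refine ⟨max B 1, lt_max_of_lt_right one_pos, fun s hs => ?_⟩
  rcases le_or_gt s 1 with h | h
  · calc |deriv ze s| * s ≤ B * 1 :=
        mul_le_mul (hB s ⟨hs, h⟩) h hs ((abs_nonneg _).trans (hB s ⟨hs, h⟩))
      _ ≤ max B 1 := by rw [mul_one]; exact le_max_left _ _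
  · rw [dze_zero h.le]
    simp

section
variable {n N : ℕ} {X : Type} [TopologicalSpace X] {c : X → J.Ch n X} {g : X → J.Mtx n}
  {F : Fin N → X → ℝ} {h : X → ℝ}

/-- the density of the right hand side -/
noncomputable def wt (c : X → J.Ch n X) (g : X → J.Mtx n) (F : Fin N → X → ℝ) (h : X → ℝ)
    (q : X) : ℝ := NV.grd c g h q + h q * √(J.hsq c g F q)

theorem cont_wt (hc : J.Atl c) (hg : J.Met c g) (hF : ∀ k, J.Sm c (F k)) (hh : J.Sm c h) :
    Continuous (wt c g F h) :=
  (JB.cont_grd hc hg hh).add ((JB.sm_cont hc hh).mul (cont_hsq hc hg hF).sqrt)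

theorem wt_nonneg (h0 : ∀ q, 0 ≤ h q) (q : X) : 0 ≤ wt c g F h q :=
  add_nonneg (Real.sqrt_nonneg _) (mul_nonneg (h0 q) (Real.sqrt_nonneg _))

theorem grd_zero (hc : J.Atl c) {q : X} (hq : q ∉ tsupport h) : NV.grd c g h q = 0 := by
  unfold NV.grd
  rw [← gip_self, gip_zero hc hq, Real.sqrt_zero]

theorem wt_zero (hc : J.Atl c) {q : X} (hq : q ∉ tsupport h) : wt c g F h q = 0 := by
  unfold wt
  rw [grd_zero hc hq, image_eq_zero_of_notMem_tsupport hq]
  ring

variable [MeasurableSpace X] [BorelSpace X] {μ : Measure X}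

/-- continuous functions which vanish outside the support are integrable -/
theorem int_of (hc : J.Atl c) (hg : J.Met c g) (hμ : J.Vol c g μ) (hhc : HasCompactSupport h)
    {f : X → ℝ} (hf : Continuous f) (h0 : ∀ q, q ∉ tsupport h → f q = 0) : Integrable f μ := by
  have := JB.locFin hc hg hμ
  exact hf.integrable_of_hasCompactSupport
    (HasCompactSupport.intro' (K := tsupport h) hhc (isClosed_tsupport h) h0)

/-- the differential inequality -/
theorem mono_ineq [T2Space X] (hc : J.Atl c) (hg : J.Met c g) (hμ : J.Vol c g μ)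
    (hF : ∀ k, J.Sm c (F k)) (p : Fin N → ℝ) (hh : J.Sm c h) (hhc : HasCompactSupport h)
    (h0 : ∀ q, 0 ≤ h q) (hi : ∀ q ∈ tsupport h, J.IsoAt c g F q) {ρ : ℝ} (hρ : 0 < ρ) :
    n * ∫ q, h q * ze (Rf F p q / ρ ^ 2) ∂μ ≤
      (∫ q, h q * (-deriv ze (Rf F p q / ρ ^ 2) * (2 * Rf F p q / ρ ^ 2)) ∂μ) +
        ρ * ∫ q, ze (Rf F p q / ρ ^ 2) * wt c g F h q ∂μ := by
  have hρ2 : 0 < ρ ^ 2 := by positivity
  have hRs := sm_Rf (c := c) hF p
  have hRc := JB.sm_cont hc hRs
  have hhc' := JB.sm_cont hc hh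
  set ψ : ℝ → ℝ := fun s => ze (s / ρ ^ 2) with hψ
  have hψs : ContDiff ℝ ∞ ψ := ze_contDiff.comp (contDiff_id.div_const _)
  have hψd : ∀ s, HasDerivAt ψ (deriv ze (s / ρ ^ 2) / ρ ^ 2) s := by
    intro s
    have h1 : HasDerivAt (fun s : ℝ => s / ρ ^ 2) (1 / ρ ^ 2) s := (hasDerivAt_id s).div_const _
    have h2 := (ze_hasDeriv (s / ρ ^ 2)).comp s h1
    refine h2.congr_deriv ?_
    ring
  set a : X → ℝ := fun q => h q * ψ (Rf F p q) with ha
  have has : J.Sm c a := sm_mul hh (sm_comp hRs hψs)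
  have hac : HasCompactSupport a := hhc.mul_right
  have hat : tsupport a ⊆ tsupport h := tsupport_mul_subset_left
  have hfv := first_var hc hg hμ hF p has hac fun q hq => hi q (hat hq)
  have hgip : ∀ q, gip c g a (Rf F p) q = ψ (Rf F p q) * gip c g h (Rf F p) q +
      h q * (deriv ze (Rf F p q / ρ ^ 2) / ρ ^ 2 * gip c g (Rf F p) (Rf F p) q) := by
    intro q
    rw [ha, gip_mul_left hc hh (sm_comp hRs hψs), gip_comp_left hc hRs _ (hψd _)]
  have ca : Continuous a := JB.sm_cont hc has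
  have i1 : Integrable (fun q => (n : ℝ) * a q) μ :=
    int_of hc hg hμ hhc (continuous_const.mul ca) fun q hq => by
      simp [ha, image_eq_zero_of_notMem_tsupport hq]
  have i2 : Integrable (fun q => 1 / 2 * gip c g a (Rf F p) q) μ :=
    int_of hc hg hμ hhc (continuous_const.mul (cont_gip hc hg has hRs)) fun q hq => by
      rw [gip_zero hc fun h' => hq (hat h')]; ring
  have i3 : Integrable (fun q => a q * hp c g F p q) μ :=
    int_of hc hg hμ hhc (ca.mul (cont_hp hc hg hF p)) fun q hq => by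
      simp [ha, image_eq_zero_of_notMem_tsupport hq]
  have i12 : Integrable (fun q => (n : ℝ) * a q + 1 / 2 * gip c g a (Rf F p) q) μ := i1.add i2
  have i2n : Integrable (fun q => -(1 / 2 * gip c g a (Rf F p) q)) μ := i2.neg
  have e1 : n * ∫ q, h q * ze (Rf F p q / ρ ^ 2) ∂μ =
      ∫ q, (-(1 / 2 * gip c g a (Rf F p) q) - a q * hp c g F p q) ∂μ := by
    have h1 : ∫ q, (n * a q + 1 / 2 * gip c g a (Rf F p) q + a q * hp c g F p q) ∂μ =
        (∫ q, n * a q ∂μ) + (∫ q, 1 / 2 * gip c g a (Rf F p) q ∂μ) +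
          ∫ q, a q * hp c g F p q ∂μ := by
      rw [integral_add i12 i3, integral_add i1 i2]
    rw [hfv] at h1
    rw [integral_sub i2n i3, integral_neg, ← integral_const_mul]
    have h2 : (∫ q, (n : ℝ) * (h q * ze (Rf F p q / ρ ^ 2)) ∂μ) = ∫ q, n * a q ∂μ := rfl
    rw [h2]
    linarith
  have cd : Continuous fun q => deriv ze (Rf F p q / ρ ^ 2) := dze_cont.comp (hRc.div_const _)
  have cz : Continuous fun q => ze (Rf F p q / ρ ^ 2) :=
    ze_contDiff.continuous.comp (hRc.div_const _)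
  have j1 : Integrable (fun q => h q * (-deriv ze (Rf F p q / ρ ^ 2) *
      (2 * Rf F p q / ρ ^ 2))) μ :=
    int_of hc hg hμ hhc (hhc'.mul (cd.neg.mul ((continuous_const.mul hRc).div_const _)))
      fun q hq => by rw [image_eq_zero_of_notMem_tsupport hq]; ring
  have j2 : Integrable (fun q => ρ * (ze (Rf F p q / ρ ^ 2) * wt c g F h q)) μ :=
    int_of hc hg hμ hhc (continuous_const.mul (cz.mul (cont_wt hc hg hF hh))) fun q hq => by
      rw [wt_zero hc hq]; ring
  rw [e1, ← integral_const_mul, ← integral_add j1 j2]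
  refine integral_mono (i2n.sub i3) (j1.add j2) fun q => ?_
  change -(1 / 2 * gip c g a (Rf F p) q) - a q * hp c g F p q ≤
    h q * (-deriv ze (Rf F p q / ρ ^ 2) * (2 * Rf F p q / ρ ^ 2)) +
      ρ * (ze (Rf F p q / ρ ^ 2) * wt c g F h q)
  have hR0 := Rf_nonneg F p q
  have hz0 := ze_nonneg (Rf F p q / ρ ^ 2)
  by_cases hq : q ∈ tsupport h
  · have hψR : ψ (Rf F p q) * √(Rf F p q) ≤ ψ (Rf F p q) * ρ := by
      rcases le_or_gt (Rf F p q) (ρ ^ 2) with h1 | h1
      · refine mul_le_mul_of_nonneg_left ?_ hz0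
        calc √(Rf F p q) ≤ √(ρ ^ 2) := Real.sqrt_le_sqrt h1
          _ = ρ := Real.sqrt_sq hρ.le
      · have : ψ (Rf F p q) = 0 := ze_zero (by
          rw [le_div_iff₀ hρ2]; linarith)
        rw [this]; simp
    have b1 : -gip c g h (Rf F p) q ≤ NV.grd c g h q * (2 * √(Rf F p q)) := by
      have h1 := (abs_le.1 (abs_gip hc hg h (Rf F p) q)).1
      have h2 := mul_le_mul_of_nonneg_left (grd_Rf hc hg hF p (hi q hq))
        (JB.grd_nonneg (c := c) (g := g) (u := h) q)
      linarith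
    have b2 := gip_self_Rf hc hg hF p (hi q hq)
    have b3 : -hp c g F p q ≤ √(Rf F p q) * √(J.hsq c g F q) := by
      have := (abs_le.1 (abs_hp (c := c) (g := g) F p q)).1
      linarith
    have hd0 : 0 ≤ -deriv ze (Rf F p q / ρ ^ 2) / ρ ^ 2 :=
      div_nonneg (by linarith [dze_nonpos (Rf F p q / ρ ^ 2)]) hρ2.le
    have t1 : 1 / 2 * (ψ (Rf F p q) * -gip c g h (Rf F p) q) ≤
        ρ * (ψ (Rf F p q) * NV.grd c g h q) := by
      calc 1 / 2 * (ψ (Rf F p q) * -gip c g h (Rf F p) q)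
          ≤ 1 / 2 * (ψ (Rf F p q) * (NV.grd c g h q * (2 * √(Rf F p q)))) := by gcongr
        _ = (ψ (Rf F p q) * √(Rf F p q)) * NV.grd c g h q := by ring
        _ ≤ (ψ (Rf F p q) * ρ) * NV.grd c g h q :=
            mul_le_mul_of_nonneg_right hψR (JB.grd_nonneg q)
        _ = _ := by ring
    have t2 : 1 / 2 * (h q * (-deriv ze (Rf F p q / ρ ^ 2) / ρ ^ 2 *
        gip c g (Rf F p) (Rf F p) q)) ≤
        h q * (-deriv ze (Rf F p q / ρ ^ 2) * (2 * Rf F p q / ρ ^ 2)) := by
      calc 1 / 2 * (h q * (-deriv ze (Rf F p q / ρ ^ 2) / ρ ^ 2 * gip c g (Rf F p) (Rf F p) q))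
          ≤ 1 / 2 * (h q * (-deriv ze (Rf F p q / ρ ^ 2) / ρ ^ 2 * (4 * Rf F p q))) := by
            have := h0 q
            gcongr
        _ = _ := by ring
    have t3 : a q * -hp c g F p q ≤ ρ * (ψ (Rf F p q) * (h q * √(J.hsq c g F q))) := by
      calc a q * -hp c g F p q = h q * (ψ (Rf F p q) * -hp c g F p q) := by
            simp only [ha]; ring
        _ ≤ h q * (ψ (Rf F p q) * (√(Rf F p q) * √(J.hsq c g F q))) := by
            have := h0 q
            gcongr
        _ = h q * ((ψ (Rf F p q) * √(Rf F p q)) * √(J.hsq c g F q)) := by ring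
        _ ≤ h q * ((ψ (Rf F p q) * ρ) * √(J.hsq c g F q)) :=
            mul_le_mul_of_nonneg_left (mul_le_mul_of_nonneg_right hψR (Real.sqrt_nonneg _)) (h0 q)
        _ = _ := by ring
    rw [hgip]
    have e2 : ze (Rf F p q / ρ ^ 2) * wt c g F h q =
        ψ (Rf F p q) * NV.grd c g h q + ψ (Rf F p q) * (h q * √(J.hsq c g F q)) := by
      unfold wt; simp only [hψ]; ring
    rw [e2]
    have e3 : -(1 / 2 * (ψ (Rf F p q) * gip c g h (Rf F p) q +
        h q * (deriv ze (Rf F p q / ρ ^ 2) / ρ ^ 2 * gip c g (Rf F p) (Rf F p) q))) -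
        a q * hp c g F p q = 1 / 2 * (ψ (Rf F p q) * -gip c g h (Rf F p) q) +
        1 / 2 * (h q * (-deriv ze (Rf F p q / ρ ^ 2) / ρ ^ 2 * gip c g (Rf F p) (Rf F p) q)) +
        a q * -hp c g F p q := by ring
    rw [e3]
    linarith
  · have h1 : h q = 0 := image_eq_zero_of_notMem_tsupport hq
    have h2 : a q = 0 := by simp [ha, h1]
    rw [gip_zero hc fun h' => hq (hat h'), h2, h1, wt_zero hc hq]
    simp

end

end Vale.Agent.P223.H620.Im
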