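import Vale.Agent.P223.H620.ImC1
import Vale.Agent.P223.H620.ImM2

/-! The conformal form of the inequality of Michael and Simon. -/

namespace Vale.Agent.P223.H620.Im

open scoped ContDiff Topology Matrix ENNReal
open MeasureTheory Set Filter Vale.Agent.P223.H Vale.Agent.P223.X Vale.Agent.P223.H566

section
variable {n : ℕ} {X : Type} [TopologicalSpace X] {c : X → J.Ch n X} {g : X → J.Mtx n}
  {f u v : X → ℝ}

theorem cont_scal (hc : J.Atl c) (hg : J.Met c g) : Continuous fun q => J.scal (g q) (c q q) :=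
  cont_of_chart hc (h := fun a x => J.scal (g a) x)
    (fun a q ha => RicU.scal_chart hc hg q a q (hc q).1 ha)
    fun a _ hx => ((RicU.met_on hg a).sm_scal (c a).open_target hx).continuousAt

theorem gip_nonneg (hc : J.Atl c) (hg : J.Met c g) (u : X → ℝ) (q : X) :
    0 ≤ gip c g u u q := by
  have h := (abs_nonneg _).trans (abs_gip hc hg u u q)
  have h1 : NV.grd c g u q = √(gip c g u u q) := rfl
  rw [h1] at h
  by_contra hneg
  push Not at hneg
  have h2 := abs_gip hc hg u u q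
  rw [h1, Real.sqrt_eq_zero_of_nonpos hneg.le, mul_zero] at h2
  have h3 := abs_nonpos_iff.1 h2
  linarith

theorem gip_mul_right (hc : J.Atl c) (hg : J.Met c g) (hu : J.Sm c u) (hv : J.Sm c v)
    (w : X → ℝ) (q : X) :
    gip c g w (fun q => u q * v q) q = v q * gip c g w u q + u q * gip c g w v q := by
  rw [gip_comm hc hg, gip_mul_left hc hu hv, gip_comm hc hg u w, gip_comm hc hg v w]

/-- the energy density of `exp(s f) u` -/
theorem gip_exp (hc : J.Atl c) (hg : J.Met c g) (hf : J.Sm c f) (hu : J.Sm c u) (s : ℝ) (q : X) :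
    gip c g (fun q => Real.exp (s * f q) * u q) (fun q => Real.exp (s * f q) * u q) q =
      Real.exp (s * f q) ^ 2 * (gip c g u u q + 2 * s * (u q * gip c g u f q) +
        s ^ 2 * (u q ^ 2 * gip c g f f q)) := by
  have he : J.Sm c fun q => Real.exp (s * f q) :=
    sm_comp hf (ψ := fun t => Real.exp (s * t)) ((contDiff_const.mul contDiff_id).exp)
  have hd : ∀ w : X → ℝ, gip c g (fun q => Real.exp (s * f q)) w q =
      s * Real.exp (s * f q) * gip c g f w q := by
    intro w
    have h1 : HasDerivAt (fun t : ℝ => Real.exp (s * t)) (s * Real.exp (s * f q)) (f q) := by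
      have h2 : HasDerivAt (fun t : ℝ => s * t) s (f q) := by
        simpa using (hasDerivAt_id (f q)).const_mul s
      have h3 := h2.exp
      rwa [mul_comm] at h3
    exact gip_comp_left hc hf (ψ := fun t => Real.exp (s * t)) w h1
  rw [gip_mul_left hc he hu, gip_mul_right hc hg he hu, gip_mul_right hc hg he hu, hd, hd,
    gip_comm hc hg u (fun q => Real.exp (s * f q)), hd, gip_comm hc hg f u,
    gip_comm hc hg f (fun q => Real.exp (s * f q)), hd]
  ring

end

/-- the algebra -/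
theorem pt_alg {n A B D L Sc b h u : ℝ} (hn3 : 3 ≤ n) (hb : 0 ≤ b)
    (h5 : (n - 1) / n * h ≤ b + (Sc - 2 * (n - 1) * L - (n - 1) * (n - 2) * D))
    (hP0 : 0 ≤ A + 2 * (-(n - 2) / 2) * (u * B) + (-(n - 2) / 2) ^ 2 * (u ^ 2 * D)) :
    A + 2 * (-(n - 2) / 2) * (u * B) + (-(n - 2) / 2) ^ 2 * (u ^ 2 * D) + h * u ^ 2 ≤
      4 * n / (n - 2) * (A + (max 0 Sc + b) * u ^ 2) - 4 * n / (n - 2) * ((n - 2) / 2) *
        (u * B + u * B + u * u * L) := by
  have hn2 : 0 < n - 2 := by linarith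
  have hn1 : 0 < n - 1 := by linarith
  have hn0 : 0 < n := by linarith
  set T : ℝ := 4 * n / (n - 2) with hT
  have hT1 : 1 ≤ T := by rw [hT, le_div_iff₀ hn2]; linarith
  set P := A + 2 * (-(n - 2) / 2) * (u * B) + (-(n - 2) / 2) ^ 2 * (u ^ 2 * D) with hP
  have h5' : h ≤ n / (n - 1) * (b + (Sc - 2 * (n - 1) * L - (n - 1) * (n - 2) * D)) := by
    calc h = n / (n - 1) * ((n - 1) / n * h) := by field_simp
      _ ≤ _ := by gcongr
  have h6 : h * u ^ 2 ≤ n / (n - 1) * (b + (Sc - 2 * (n - 1) * L -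
      (n - 1) * (n - 2) * D)) * u ^ 2 := by gcongr
  have h7 : P ≤ T * P := le_mul_of_one_le_left hP0 hT1
  have hS0 : 0 ≤ max 0 Sc := le_max_left _ _
  have hS1 : Sc ≤ max 0 Sc := le_max_right _ _
  have h8 : n / (n - 1) * (b + Sc) * u ^ 2 ≤ T * (max 0 Sc + b) * u ^ 2 := by
    have h9 : n / (n - 1) ≤ T := by
      rw [hT, div_le_div_iff₀ hn1 hn2]
      nlinarith
    have h11 : n / (n - 1) * (b + Sc) ≤ n / (n - 1) * (max 0 Sc + b) :=
      mul_le_mul_of_nonneg_left (by linarith) (by positivity)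
    have h12 : n / (n - 1) * (max 0 Sc + b) ≤ T * (max 0 Sc + b) :=
      mul_le_mul_of_nonneg_right h9 (by positivity)
    exact mul_le_mul_of_nonneg_right (h11.trans h12) (sq_nonneg _)
  have e8 : n / (n - 1) * (b + (Sc - 2 * (n - 1) * L - (n - 1) * (n - 2) * D)) * u ^ 2 =
      n / (n - 1) * (b + Sc) * u ^ 2 - 2 * n * L * u ^ 2 - n * (n - 2) * D * u ^ 2 := by
    field_simp
    ring
  have e9 : T * P = T * A - 4 * n * (u * B) + n * (n - 2) * (u ^ 2 * D) := by
    rw [hP, hT]
    field_simp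
    ring
  have e10 : T * (A + (max 0 Sc + b) * u ^ 2) - T * ((n - 2) / 2) *
      (u * B + u * B + u * u * L) = T * A + T * (max 0 Sc + b) * u ^ 2 -
      4 * n * (u * B) - 2 * n * L * u ^ 2 := by
    rw [hT]
    field_simp
    ring
  rw [e10]
  rw [e8] at h6
  rw [e9] at h7
  linarith

/-- the pointwise bound -/
theorem pt_bound {n N : ℕ} (hn : 3 ≤ n) {X : Type} [TopologicalSpace X] {c : X → J.Ch n X}
    {g : X → J.Mtx n} {F : Fin N → X → ℝ} {f u b : X → ℝ} (hc : J.Atl c) (hg : J.Met c g)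
    (hf : J.Sm c f) (hu : J.Sm c u) (q : X) (hb : 0 ≤ b q)
    (hq : q ∈ tsupport u → Real.exp (2 * f q) * (((n : ℝ) - 1) / n *
      J.hsq c (J.conf c f g) F q - J.scal (J.conf c f g q) (c q q)) ≤ b q) :
    Real.exp (n * f q) * (gip c (J.conf c f g)
      (fun q => Real.exp (-((n : ℝ) - 2) / 2 * f q) * u q)
      (fun q => Real.exp (-((n : ℝ) - 2) / 2 * f q) * u q) q +
        J.hsq c (J.conf c f g) F q * (Real.exp (-((n : ℝ) - 2) / 2 * f q) * u q) ^ 2) ≤
      4 * n / (n - 2) * (gip c g u u q + (max 0 (J.scal (g q) (c q q)) + b q) * u q ^ 2) -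
        4 * n / (n - 2) * (((n : ℝ) - 2) / 2) * (gip c g (fun q => u q * u q) f q +
          (u q * u q) * lpl c g f q) := by
  have hn3 : (3 : ℝ) ≤ n := by exact_mod_cast hn
  by_cases hqu : q ∈ tsupport u
  · have h2 := hq hqu
    have h3 := scal_conf hc hg hf q
    rw [mul_sub, h3] at h2
    rw [gip_conf hc hg, gip_mul_left hc hu hu, gip_exp hc hg hf hu]
    have hv0 := gip_nonneg hc hg (fun q => Real.exp (-((n : ℝ) - 2) / 2 * f q) * u q) q
    rw [gip_exp hc hg hf hu] at hv0
    have hP0 := nonneg_of_mul_nonneg_right hv0 (by positivity)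
    set H := J.hsq c (J.conf c f g) F q with hHd
    have e1 : ∀ P : ℝ, Real.exp (n * f q) * (Real.exp (-(2 * f q)) *
        (Real.exp (-((n : ℝ) - 2) / 2 * f q) ^ 2 * P) +
        H * (Real.exp (-((n : ℝ) - 2) / 2 * f q) * u q) ^ 2) =
        P + Real.exp (2 * f q) * H * u q ^ 2 := by
      intro P
      have e3 : Real.exp (n * f q) * Real.exp (-((n : ℝ) - 2) / 2 * f q) ^ 2 =
          Real.exp (2 * f q) := by
        rw [← Real.exp_nat_mul, ← Real.exp_add]
        congr 1
        push_cast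
        ring
      have e4 : Real.exp (2 * f q) * Real.exp (-(2 * f q)) = 1 := by
        rw [← Real.exp_add, add_neg_cancel, Real.exp_zero]
      calc Real.exp (n * f q) * (Real.exp (-(2 * f q)) *
            (Real.exp (-((n : ℝ) - 2) / 2 * f q) ^ 2 * P) +
            H * (Real.exp (-((n : ℝ) - 2) / 2 * f q) * u q) ^ 2)
          = (Real.exp (n * f q) * Real.exp (-((n : ℝ) - 2) / 2 * f q) ^ 2) *
            Real.exp (-(2 * f q)) * P + (Real.exp (n * f q) *
            Real.exp (-((n : ℝ) - 2) / 2 * f q) ^ 2) * H * u q ^ 2 := by ring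
        _ = _ := by rw [e3, e4, one_mul]
    rw [e1]
    refine pt_alg hn3 hb ?_ hP0
    have e7 : Real.exp (2 * f q) * (((n : ℝ) - 1) / n * H) =
        ((n : ℝ) - 1) / n * (Real.exp (2 * f q) * H) := by ring
    rw [e7] at h2
    linarith
  · have hu0 : u q = 0 := image_eq_zero_of_notMem_tsupport hqu
    have h3 : gip c g (fun q => u q * u q) f q = 0 :=
      gip_zero hc (fun h => hqu (tsupport_mul_subset_left h)) f
    have h4 : gip c g u u q = 0 := gip_zero hc hqu u
    have h5 : gip c (J.conf c f g) (fun q => Real.exp (-((n : ℝ) - 2) / 2 * f q) * u q)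
        (fun q => Real.exp (-((n : ℝ) - 2) / 2 * f q) * u q) q = 0 :=
      gip_zero hc (fun h => hqu (tsupport_mul_subset_right h)) _
    rw [h3, h4, h5, hu0]
    simp

theorem int_W {n : ℕ} {X : Type} [TopologicalSpace X] [MeasurableSpace X] [BorelSpace X]
    {μ : Measure X} {c : X → J.Ch n X} {g : X → J.Mtx n} {u b : X → ℝ} (hc : J.Atl c)
    (hg : J.Met c g) (hμ : J.Vol c g μ) (hb : Continuous b) (hu : J.Sm c u)
    (huc : HasCompactSupport u) :
    Integrable (fun q => gip c g u u q + (max 0 (J.scal (g q) (c q q)) + b q) * u q ^ 2) μ := by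
  refine int_of hc hg hμ huc ?_ fun q hqu => ?_
  · exact (cont_gip hc hg hu hu).add (((continuous_const.max (cont_scal hc hg)).add hb).mul
      ((JB.sm_cont hc hu).pow 2))
  · have h3 : gip c g u u q = 0 := gip_zero hc hqu u
    have h4 : u q = 0 := image_eq_zero_of_notMem_tsupport hqu
    rw [h3, h4]
    ring

theorem int_conf {n : ℕ} {X : Type} [TopologicalSpace X] [MeasurableSpace X] [BorelSpace X]
    {μ : Measure X} {c : X → J.Ch n X} {f : X → ℝ} (hc : J.Atl c) (hf : J.Sm c f) (H : X → ℝ) :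
    ∫ q, H q ∂(μ.withDensity fun q => ENNReal.ofReal (Real.exp (n * f q))) =
      ∫ q, Real.exp (n * f q) * H q ∂μ := by
  have hfm : Measurable fun q => ENNReal.ofReal (Real.exp (n * f q)) :=
    ((continuous_const.mul (JB.sm_cont hc hf)).rexp).measurable.ennreal_ofReal
  rw [integral_withDensity_eq_integral_toReal_smul hfm
    (ae_of_all _ fun q => ENNReal.ofReal_lt_top)]
  refine integral_congr_ae (ae_of_all _ fun q => ?_)
  simp only [smul_eq_mul]
  rw [ENNReal.toReal_ofReal (Real.exp_pos _).le]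

/-- the conformal form -/
theorem specCS_of (hGr : SpecGreenJ) (hMS : SpecMS) : SpecCS := by
  intro n hn
  have hn3 : (3 : ℝ) ≤ n := by exact_mod_cast hn
  obtain ⟨y, hy, hY⟩ := hMS n hn
  have hn2 : (0 : ℝ) < n - 2 := by linarith
  have hT0 : (0 : ℝ) < 4 * n / (n - 2) := by positivity
  refine ⟨min 1 (y / (4 * n / (n - 2))), lt_min one_pos (by positivity), min_le_left _ _, ?_⟩
  intro X _ _ _ _ μ c g b u S hc hg hμ hb hb0 hI hu huc huS
  obtain ⟨N, F, f, hF, hf, hq⟩ := hI
  have hg' : J.Met c (J.conf c f g) := ConfU.met_conf hg hf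
  have hvs : J.Sm c fun q => Real.exp (-((n : ℝ) - 2) / 2 * f q) * u q := sm_mul
    (sm_comp hf (ψ := fun t => Real.exp (-((n : ℝ) - 2) / 2 * t))
      ((contDiff_const.mul contDiff_id).exp)) hu
  have hvc : HasCompactSupport fun q => Real.exp (-((n : ℝ) - 2) / 2 * f q) * u q :=
    huc.mul_left
  have hvt : tsupport (fun q => Real.exp (-((n : ℝ) - 2) / 2 * f q) * u q) ⊆ tsupport u :=
    tsupport_mul_subset_right
  have h1 := hY N X _ c (J.conf c f g) F _ hc hg' (vol_conf hc hg hμ hf) hF hvs hvc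
    fun q hqv => (hq q (huS (hvt hqv))).1
  rw [int_conf hc hf, int_conf hc hf] at h1
  -- the left side
  have e1 : ∀ q, Real.exp (n * f q) * |Real.exp (-((n : ℝ) - 2) / 2 * f q) * u q| ^
      (2 * (n : ℝ) / (n - 2)) = |u q| ^ (2 * (n : ℝ) / (n - 2)) := by
    intro q
    rw [abs_mul, abs_of_pos (Real.exp_pos _), Real.mul_rpow (Real.exp_pos _).le (abs_nonneg _),
      ← Real.exp_mul, ← mul_assoc, ← Real.exp_add]
    have e : (n : ℝ) * f q + -((n : ℝ) - 2) / 2 * f q * (2 * (n : ℝ) / (n - 2)) = 0 := by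
      field_simp
      ring
    rw [e, Real.exp_zero, one_mul]
  simp only [e1] at h1
  -- the right side
  have hu2 : J.Sm c fun q => u q * u q := sm_mul hu hu
  have hu2c : HasCompactSupport fun q => u q * u q := huc.mul_left
  obtain ⟨-, -, hG0⟩ := hGr n X μ c g (fun q => u q * u q) f hc hg hμ hu2 hu2c hf
  have hGi : Integrable (fun q => gip c g (fun q => u q * u q) f q +
    (u q * u q) * lpl c g f q) μ := int_green hc hg hμ hu2 hu2c hf
  have hWi := int_W hc hg hμ hb hu huc
  have h3 := hWi.const_mul (4 * n / (n - 2))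
  have h4 := hGi.const_mul (4 * n / (n - 2) * (((n : ℝ) - 2) / 2))
  have h5 := integral_sub h3 h4
  rw [integral_const_mul, integral_const_mul, hG0, mul_zero, sub_zero] at h5
  have h2 := integral_mono_of_nonneg (μ := μ) (ae_of_all _ fun q => mul_nonneg
    (Real.exp_pos (n * f q)).le (add_nonneg (gip_nonneg hc hg'
      (fun q => Real.exp (-((n : ℝ) - 2) / 2 * f q) * u q) q)
      (mul_nonneg (hsq_nonneg (c := c) (g := J.conf c f g) (F := F) q)
        (sq_nonneg (Real.exp (-((n : ℝ) - 2) / 2 * f q) * u q))))) (h3.sub h4)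
    (ae_of_all _ fun q => pt_bound (F := F) hn hc hg hf hu q (hb0 q)
      fun h => (hq q (huS h)).2)
  have h6 := h1.trans (h2.trans (le_of_eq h5))
  have hI0 : 0 ≤ (∫ q, |u q| ^ (2 * (n : ℝ) / (n - 2)) ∂μ) ^ (((n : ℝ) - 2) / n) :=
    Real.rpow_nonneg (integral_nonneg fun q => by positivity) _
  calc min 1 (y / (4 * n / (n - 2))) *
        (∫ q, |u q| ^ (2 * (n : ℝ) / (n - 2)) ∂μ) ^ (((n : ℝ) - 2) / n)
      ≤ y / (4 * n / (n - 2)) *
        (∫ q, |u q| ^ (2 * (n : ℝ) / (n - 2)) ∂μ) ^ (((n : ℝ) - 2) / n) := by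
        gcongr
        exact min_le_right _ _
    _ ≤ ∫ q, (gip c g u u q + (max 0 (J.scal (g q) (c q q)) + b q) * u q ^ 2) ∂μ := by
        rw [div_mul_eq_mul_div, div_le_iff₀ hT0, mul_comm (∫ q, _ ∂μ)]
        exact h6

end Vale.Agent.P223.H620.Im
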