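import Vale.Agent.P223.H620.ImJ
import Vale.Agent.P223.H441.WCov
import Vale.Agent.P223.H566.JB

/-! Green's formula on a manifold, local part. -/

namespace Vale.Agent.P223.H620.Im

open scoped ContDiff Topology Matrix
open MeasureTheory Set Vale.Agent.P223.H Vale.Agent.P223.X

section loc
variable {n : ℕ} {G G' : E n → Matrix (Fin n) (Fin n) ℝ} {φ : E n → E n} {U X₀ U' : Set (E n)}
  {x : E n}

theorem hess_comp2 (hG : IsMetricOn X₀ G) (hG' : IsMetricOn U' G') (hU' : IsOpen U')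
    (hc : Chg U X₀ U' φ G G') (hx : x ∈ U) {f : E n → ℝ} (hf : ContDiffOn ℝ ∞ f U') :
    Bridge.hess G (fun y => f (φ y)) x =
      (jac φ x)ᵀ * Bridge.hess G' f (φ x) * jac φ x := by
  have hfd : ∀ z ∈ U', DifferentiableAt ℝ f z := fun z hz =>
    (hf.contDiffAt (hU'.mem_nhds hz)).differentiableAt (by simp)
  have hpd : ∀ e, ∀ z ∈ U', DifferentiableAt ℝ (fun y => H.pd e f y) z := fun e z hz => by
    have h1 : ContDiffAt ℝ ∞ (fun y => fderiv ℝ f y) z :=
      (hf.contDiffAt (hU'.mem_nhds hz)).fderiv_right (m := ∞) (by simp)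
    exact (h1.clm_apply contDiffAt_const).differentiableAt (by simp)
  have hφ := hc.smooth x hx
  have hxU := hc.maps x hx
  have hjd : ∀ e j, DifferentiableAt ℝ (fun y => jac φ y e j) x := fun e j =>
    (sm_jac hφ e j).diff
  have hcd : ∀ e, DifferentiableAt ℝ (fun y => H.pd e f (φ y)) x := fun e =>
    (hpd e _ hxU).comp x (hφ.differentiableAt (by simp))
  ext i j
  have r1 : ((jac φ x)ᵀ * Bridge.hess G' f (φ x) * jac φ x) i j =
      ∑ m, ∑ l, jac φ x l i * Bridge.hess G' f (φ x) l m * jac φ x m j := by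
    simp only [Matrix.mul_apply, Matrix.transpose_apply, Finset.sum_mul]
  rw [r1]
  unfold Bridge.hess
  have e1 : (fun y => H.pd j (fun z => f (φ z)) y) =ᶠ[𝓝 x]
      fun y => ∑ e, H.pd e f (φ y) * jac φ y e j := by
    filter_upwards [hc.isOpen.mem_nhds hx] with y hy
    exact P223.pd_comp (hc.smooth y hy) (hfd _ (hc.maps y hy)) j
  have e2 : H.pd i (fun y => H.pd j (fun z => f (φ z)) y) x =
      ∑ e, ((∑ l, H.pd l (fun z => H.pd e f z) (φ x) * jac φ x l i) * jac φ x e j +
        H.pd e f (φ x) * hes φ x e i j) := by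
    have e1' : H.pd i (fun y => H.pd j (fun z => f (φ z)) y) x =
        H.pd i (fun y => ∑ e, H.pd e f (φ y) * jac φ y e j) x := by
      have := e1.fderiv_eq (𝕜 := ℝ)
      unfold H.pd at this ⊢
      rw [this]
    rw [e1', Bridge.pd_sum fun e _ => (hcd e).fun_mul (hjd e j)]
    refine Finset.sum_congr rfl fun e _ => ?_
    rw [Bridge.pd_mul (hcd e) (hjd e j)]
    congr 1
    congr 1
    exact P223.pd_comp (h := fun z => H.pd e f z) hφ (hpd e _ hxU) i
  have e3 : ∑ k, H.chr G x k i j * H.pd k (fun z => f (φ z)) x =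
      ∑ e, H.pd e f (φ x) * ((∑ l, ∑ m, jac φ x l i * jac φ x m j * H.chr G' (φ x) e l m) +
        hes φ x e i j) := by
    have ct := fun e => christoffel_trans hG (hc.sub hx) hG' hU' hxU hφ
      (hc.ev hx) e i j
    calc _ = ∑ k, ∑ e, H.chr G x k i j * (H.pd e f (φ x) * jac φ x e k) := by
          refine Finset.sum_congr rfl fun k _ => ?_
          rw [← Finset.mul_sum]
          congr 1
          exact P223.pd_comp hφ (hfd _ hxU) k
      _ = ∑ e, H.pd e f (φ x) * ∑ k, jac φ x e k * H.chr G x k i j := by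
          rw [Finset.sum_comm]
          refine Finset.sum_congr rfl fun e _ => ?_
          rw [Finset.mul_sum]
          refine Finset.sum_congr rfl fun k _ => by ring
      _ = _ := by
          refine Finset.sum_congr rfl fun e _ => ?_
          rw [show (∑ k, jac φ x e k * H.chr G x k i j) = _ from ct e]; rfl
  rw [e2, e3]
  simp only [Finset.sum_add_distrib, mul_add]
  rw [add_sub_add_right_eq_sub]
  have r2 : ∑ e, H.pd e f (φ x) * ∑ l, ∑ m, jac φ x l i * jac φ x m j * H.chr G' (φ x) e l m =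
      ∑ m, ∑ l, jac φ x l i * (∑ k, H.chr G' (φ x) k l m * H.pd k f (φ x)) * jac φ x m j := by
    calc _ = ∑ e, ∑ m, ∑ l, H.pd e f (φ x) *
            (jac φ x l i * jac φ x m j * H.chr G' (φ x) e l m) := by
          refine Finset.sum_congr rfl fun e _ => ?_
          rw [Finset.sum_comm, Finset.mul_sum]
          refine Finset.sum_congr rfl fun m _ => ?_
          rw [Finset.mul_sum]
      _ = ∑ m, ∑ e, ∑ l, H.pd e f (φ x) *
            (jac φ x l i * jac φ x m j * H.chr G' (φ x) e l m) := Finset.sum_comm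
      _ = _ := by
          refine Finset.sum_congr rfl fun m _ => ?_
          rw [Finset.sum_comm]
          refine Finset.sum_congr rfl fun l _ => ?_
          rw [Finset.mul_sum, Finset.sum_mul]
          refine Finset.sum_congr rfl fun e _ => by ring
  rw [r2, ← Finset.sum_sub_distrib]
  refine Finset.sum_congr rfl fun m _ => ?_
  rw [Finset.sum_mul, ← Finset.sum_sub_distrib]
  refine Finset.sum_congr rfl fun l _ => by ring

theorem lap_comp2 (hG : IsMetricOn X₀ G) (hG' : IsMetricOn U' G') (hU' : IsOpen U')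
    (hc : Chg U X₀ U' φ G G') (hx : x ∈ U) (hA : (jac φ x).det ≠ 0)
    {f : E n → ℝ} (hf : ContDiffOn ℝ ∞ f U') : lap G (fun y => f (φ y)) x = lap G' f (φ x) := by
  have e : ∀ (G : E n → Matrix (Fin n) (Fin n) ℝ) (f : E n → ℝ) (x : E n),
      lap G f x = ((G x)⁻¹ * (Bridge.hess G f x)ᵀ).trace := by
    intro G f x
    simp only [lap, Matrix.trace, Matrix.diag_apply, Matrix.mul_apply, Matrix.transpose_apply]
    rfl
  rw [e, e, hess_comp2 hG hG' hU' hc hx hf,
    ← Vale.Agent.P223.X.Bas2.Ginv_trans hA (hc.compat x hx)]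
  simp only [Matrix.transpose_mul, Matrix.transpose_transpose]
  have : (G x)⁻¹ * ((jac φ x)ᵀ * ((Bridge.hess G' f (φ x))ᵀ * jac φ x)) =
      ((G x)⁻¹ * (jac φ x)ᵀ * (Bridge.hess G' f (φ x))ᵀ) * jac φ x := by
    simp only [Matrix.mul_assoc]
  rw [this, Matrix.trace_mul_comm]
  simp only [Matrix.mul_assoc]

theorem gradIp_comp2 (hφ : ContDiffAt ℝ ∞ φ x) (hA : (jac φ x).det ≠ 0)
    (hc : G x = (jac φ x)ᵀ * G' (φ x) * jac φ x) {f k : E n → ℝ}
    (hf : DifferentiableAt ℝ f (φ x)) (hk : DifferentiableAt ℝ k (φ x)) :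
    gradIp G (fun y => f (φ y)) (fun y => k (φ y)) x = gradIp G' f k (φ x) := by
  have e : ∀ {f : E n → ℝ}, DifferentiableAt ℝ f (φ x) →
      (fun i => H.pd i (fun y => f (φ y)) x) = (jac φ x)ᵀ *ᵥ fun i => H.pd i f (φ x) := by
    intro f hf
    ext j
    rw [Bridge.pd_eq, P223.pd_comp hφ hf]
    simp only [Matrix.mulVec, dotProduct, Matrix.transpose_apply]
    exact Finset.sum_congr rfl fun i _ => mul_comm _ _
  rw [Common.gradIp_eq, Common.gradIp_eq, e hf, e hk, ← Bas2.Ginv_trans hA hc,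
    Matrix.mulVec_mulVec, ← Matrix.mulVec_mulVec, ← Matrix.mulVec_mulVec, ← Matrix.mulVec_mulVec,
    Matrix.mulVec_transpose, ← Matrix.dotProduct_mulVec]

/-- The Laplacian is the divergence of the gradient. -/
theorem dens_lap (hM : IsMetricOn X₀ G) (hX : IsOpen X₀) (hx : x ∈ X₀)
    {f : E n → ℝ} (hf : ContDiffAt ℝ ∞ f x) :
    H.dens G x * lap G f x =
      ∑ i, H.pd i (fun y => H.dens G y * ∑ j, (G y)⁻¹ i j * H.pd j f y) x := by
  have hdpos : 0 < H.dens G x := hM.dens_pos hx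
  have hpdf : ∀ j, DifferentiableAt ℝ (fun y => H.pd j f y) x := fun j => by
    have h1 : ContDiffAt ℝ ∞ (fun y => fderiv ℝ f y) x := hf.fderiv_right (m := ∞) (by simp)
    exact (h1.clm_apply contDiffAt_const).differentiableAt (by simp)
  have hinv : ∀ i j, DifferentiableAt ℝ (fun y => (G y)⁻¹ i j) x := fun i j =>
    (hM.sm_inv hX hx i j).diff
  have hdens : DifferentiableAt ℝ (H.dens G) x := (hM.sm_dens hX hx).diff
  have hprod : ∀ i j, DifferentiableAt ℝ (fun y => (G y)⁻¹ i j * H.pd j f y) x := fun i j =>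
    (hinv i j).fun_mul (hpdf j)
  have hgi : ∀ i, DifferentiableAt ℝ (fun y => ∑ j, (G y)⁻¹ i j * H.pd j f y) x := fun i =>
    DifferentiableAt.fun_sum fun j _ => hprod i j
  have e1 : ∀ i, H.pd i (fun y => H.dens G y * ∑ j, (G y)⁻¹ i j * H.pd j f y) x =
      H.dens G x * ((∑ a, H.chr G x a a i) * ∑ j, (G x)⁻¹ i j * H.pd j f x +
        ∑ j, (H.pd i (fun y => (G y)⁻¹ i j) x * H.pd j f x +
          (G x)⁻¹ i j * H.pd i (fun y => H.pd j f y) x)) := by
    intro i
    have hd : H.pd i (H.dens G) x = H.dens G x * ∑ a, H.chr G x a a i :=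
      hM.pd_dens hX hx i
    have h3 : H.pd i (fun y => H.dens G y * ∑ j, (G y)⁻¹ i j * H.pd j f y) x =
        H.pd i (H.dens G) x * (∑ j, (G x)⁻¹ i j * H.pd j f x) +
        H.dens G x * H.pd i (fun y => ∑ j, (G y)⁻¹ i j * H.pd j f y) x :=
      Bridge.pd_mul hdens (hgi i)
    rw [h3, hd, Bridge.pd_sum fun j _ => hprod i j]
    have h4 : ∀ j, H.pd i (fun y => (G y)⁻¹ i j * H.pd j f y) x =
        H.pd i (fun y => (G y)⁻¹ i j) x * H.pd j f x + (G x)⁻¹ i j * H.pd i (fun y => H.pd j f y) x :=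
      fun j => Bridge.pd_mul (hinv i j) (hpdf j)
    simp only [h4]
    ring
  have e2 : ∀ i j, H.pd i (fun y => (G y)⁻¹ i j) x =
      - ∑ d, (H.chr G x i i d * (G x)⁻¹ d j + H.chr G x j i d * (G x)⁻¹ i d) := fun i j =>
    hM.pd_inv hX hx i i j
  simp only [e1]
  rw [← Finset.mul_sum]
  congr 1
  simp only [e2, Finset.sum_add_distrib]
  unfold lap
  have t1 : ∑ i, (∑ a, H.chr G x a a i) * ∑ j, (G x)⁻¹ i j * H.pd j f x =
      ∑ i, ∑ j, ∑ d, H.chr G x i i d * (G x)⁻¹ d j * H.pd j f x := by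
    simp only [Finset.sum_mul_sum]
    rw [Finset.sum_comm]
    refine Finset.sum_congr rfl fun a _ => ?_
    rw [Finset.sum_comm]
    refine Finset.sum_congr rfl fun j _ => Finset.sum_congr rfl fun d _ => by ring
  have t2 : ∑ i, ∑ j, -(∑ d, H.chr G x i i d * (G x)⁻¹ d j + ∑ d, H.chr G x j i d * (G x)⁻¹ i d) *
      H.pd j f x = - (∑ i, ∑ j, ∑ d, H.chr G x i i d * (G x)⁻¹ d j * H.pd j f x) -
      ∑ i, ∑ j, (G x)⁻¹ i j * ∑ k, H.chr G x k i j * H.pd k f x := by
    have t3 : ∀ i, ∑ j, ∑ d, H.chr G x j i d * (G x)⁻¹ i d * H.pd j f x =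
        ∑ j, (G x)⁻¹ i j * ∑ k, H.chr G x k i j * H.pd k f x := by
      intro i
      rw [Finset.sum_comm]
      refine Finset.sum_congr rfl fun d _ => ?_
      rw [Finset.mul_sum]
      exact Finset.sum_congr rfl fun j _ => by ring
    simp only [← t3]
    rw [← Finset.sum_neg_distrib, ← Finset.sum_sub_distrib]
    refine Finset.sum_congr rfl fun i _ => ?_
    rw [← Finset.sum_neg_distrib, ← Finset.sum_sub_distrib]
    refine Finset.sum_congr rfl fun j _ => ?_
    rw [neg_mul, add_mul, Finset.sum_mul, Finset.sum_mul]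
    ring
  rw [t1, t2]
  simp only [mul_sub, Finset.sum_sub_distrib]
  ring

end loc

end Vale.Agent.P223.H620.Im
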