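import Vale.Agent.P223.H620.ImG

/-! Green's formula on a manifold. -/

namespace Vale.Agent.P223.H620.Im

open scoped ContDiff Topology Matrix ENNReal
open MeasureTheory Set Filter Vale.Agent.P223.H Vale.Agent.P223.X Vale.Agent.P223.H566

section chart
variable {n : ℕ} {X : Type} [TopologicalSpace X] {c : X → J.Ch n X} {g : X → J.Mtx n}
  {u v w : X → ℝ}

theorem mem_cd' (hc : J.Atl c) {a q : X} (ha : q ∈ (c a).source) :
    c q q ∈ RicU.cd c q a := ⟨(c q).map_source (hc q).1, by
  simp only [Set.mem_preimage]; rwa [(c q).left_inv (hc q).1]⟩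

theorem cm_apply (hc : J.Atl c) (a q : X) : J.cm (c q) (c a) (c q q) = c a q := by
  unfold J.cm; rw [(c q).left_inv (hc q).1]

theorem det_cm (hc : J.Atl c) {a q : X} (ha : q ∈ (c a).source) :
    (jac (J.cm (c q) (c a)) (c q q)).det ≠ 0 := by
  have h1 := ((hc q).2 a q (hc q).1 ha).2
  have h2 : jac (J.cm (c q) (c a)) (c q q) =
      LinearMap.toMatrix' (fderiv ℝ (J.cm (c q) (c a)) (c q q) : (E n) →ₗ[ℝ] (E n)) := by
    ext i j
    rw [RicU.jac_apply (((hc q).2 a q (hc q).1 ha).1.differentiableAt (by simp)),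
      LinearMap.toMatrix'_apply]
    congr 1
  rw [h2, LinearMap.det_toMatrix']
  exact h1.ne'

theorem ev_cm (hc : J.Atl c) {a q : X} (ha : q ∈ (c a).source) (u : X → ℝ) :
    (fun x => u ((c q).symm x)) =ᶠ[𝓝 (c q q)]
      fun x => (fun z => u ((c a).symm z)) (J.cm (c q) (c a) x) := by
  filter_upwards [(RicU.isOpen_cd q a).mem_nhds (mem_cd' hc ha)] with x hx
  unfold J.cm
  rw [(c a).left_inv hx.2]

theorem sm_diff' (hu : J.Sm c u) {a q : X} (ha : q ∈ (c a).source) :
    DifferentiableAt ℝ (fun x => u ((c a).symm x)) (c a q) :=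
  (JB.sm_at hu a ((c a).map_source ha)).differentiableAt (by simp)

theorem lpl_chart (hc : J.Atl c) (hg : J.Met c g) (hw : J.Sm c w) {a q : X}
    (ha : q ∈ (c a).source) :
    lpl c g w q = lap (g a) (fun x => w ((c a).symm x)) (c a q) := by
  have h1 := RicU.chg hc hg q a
  have h4 := lap_comp2 (RicU.met_on hg q) (RicU.met_on hg a) (c a).open_target h1 (mem_cd' hc ha)
    (det_cm hc ha) (f := fun z => w ((c a).symm z)) (hw a)
  rw [cm_apply hc] at h4
  exact (Bas2.lap_congr (ev_cm hc ha w)).trans h4

theorem gradIp_congr {G : E n → Matrix (Fin n) (Fin n) ℝ} {f f' k k' : E n → ℝ} {x : E n}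
    (h : f =ᶠ[𝓝 x] f') (h' : k =ᶠ[𝓝 x] k') : gradIp G f k x = gradIp G f' k' x := by
  unfold gradIp H.pd
  rw [h.fderiv_eq, h'.fderiv_eq]

theorem gip_chart (hc : J.Atl c) (hg : J.Met c g) (hu : J.Sm c u) (hv : J.Sm c v) {a q : X}
    (ha : q ∈ (c a).source) :
    gip c g u v q = gradIp (g a) (fun x => u ((c a).symm x)) (fun x => v ((c a).symm x))
      (c a q) := by
  have h1 := RicU.chg hc hg q a
  have h2 := mem_cd' hc ha
  have h4 := gradIp_comp2 (h1.smooth _ h2) (det_cm hc ha) (h1.compat _ h2)
    (f := fun z => u ((c a).symm z)) (k := fun z => v ((c a).symm z))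
    (by rw [cm_apply hc]; exact sm_diff' hu ha) (by rw [cm_apply hc]; exact sm_diff' hv ha)
  rw [cm_apply hc] at h4
  exact (gradIp_congr (ev_cm hc ha u) (ev_cm hc ha v)).trans h4

theorem sm_pd (hu : J.Sm c u) (a : X) {x : E n} (hx : x ∈ (c a).target) (i : Fin n) :
    ContDiffAt ℝ ∞ (fun y => H.pd i (fun x => u ((c a).symm x)) y) x :=
  ((JB.sm_at hu a hx).fderiv_right (m := ∞) (by simp)).clm_apply contDiffAt_const

theorem sm_gradIp (hg : J.Met c g) (hu : J.Sm c u) (hv : J.Sm c v) (a : X) {x : E n}
    (hx : x ∈ (c a).target) :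
    ContDiffAt ℝ ∞ (fun y => gradIp (g a) (fun x => u ((c a).symm x))
      (fun x => v ((c a).symm x)) y) x := by
  unfold gradIp
  exact ContDiffAt.sum fun i _ => ContDiffAt.sum fun j _ =>
    (((RicU.met_on hg a).sm_inv (c a).open_target hx i j).mul (sm_pd hu a hx i)).mul
      (sm_pd hv a hx j)

theorem sm_lap (hg : J.Met c g) (hw : J.Sm c w) (a : X) {x : E n} (hx : x ∈ (c a).target) :
    ContDiffAt ℝ ∞ (fun y => lap (g a) (fun x => w ((c a).symm x)) y) x := by
  unfold lap
  refine ContDiffAt.sum fun i _ => ContDiffAt.sum fun j _ =>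
    ((RicU.met_on hg a).sm_inv (c a).open_target hx i j).mul (ContDiffAt.sub ?_ ?_)
  · exact ((sm_pd hw a hx j).fderiv_right (m := ∞) (by simp)).clm_apply contDiffAt_const
  · exact ContDiffAt.sum fun k _ => ((RicU.met_on hg a).sm_christoffel (c a).open_target hx
      k i j).mul (sm_pd hw a hx k)

/-- a function which is continuous in the charts is continuous -/
theorem cont_of_chart (hc : J.Atl c) {f : X → ℝ} {h : X → E n → ℝ}
    (h1 : ∀ a, ∀ q ∈ (c a).source, f q = h a (c a q))
    (h2 : ∀ a, ∀ x ∈ (c a).target, ContinuousAt (h a) x) : Continuous f := by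
  refine continuous_iff_continuousAt.2 fun q => ?_
  have h3 : ContinuousAt (fun p => h q (c q p)) q :=
    ContinuousAt.comp (f := c q) (g := h q) (h2 q _ ((c q).map_source (hc q).1))
      ((c q).continuousAt (hc q).1)
  refine h3.congr ?_
  filter_upwards [(c q).open_source.mem_nhds (hc q).1] with p hp
  exact (h1 q p hp).symm

theorem cont_gip (hc : J.Atl c) (hg : J.Met c g) (hu : J.Sm c u) (hv : J.Sm c v) :
    Continuous (gip c g u v) :=
  cont_of_chart hc (h := fun a x => gradIp (g a) (fun x => u ((c a).symm x))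
    (fun x => v ((c a).symm x)) x) (fun _ _ ha => gip_chart hc hg hu hv ha)
    fun a _ hx => (sm_gradIp hg hu hv a hx).continuousAt

theorem cont_lpl (hc : J.Atl c) (hg : J.Met c g) (hw : J.Sm c w) : Continuous (lpl c g w) :=
  cont_of_chart hc (h := fun a x => lap (g a) (fun x => w ((c a).symm x)) x)
    (fun _ _ ha => lpl_chart hc hg hw ha) fun a _ hx => (sm_lap hg hw a hx).continuousAt

/-- the volume measure over a chart -/
theorem restrict_chart [MeasurableSpace X] [BorelSpace X] {μ : Measure X} (hμ : J.Vol c g μ)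
    (a : X) : μ.restrict (c a).source =
      Measure.map (c a).symm ((volume.restrict (c a).target).withDensity
        fun x => ENNReal.ofReal √(g a x).det) := by
  have ho := (c a).open_source.measurableSet
  have ht := (c a).open_target.measurableSet
  have hm : AEMeasurable (c a).symm ((volume.restrict (c a).target).withDensity
      fun x => ENNReal.ofReal √(g a x).det) :=
    ((c a).continuousOn_symm.aemeasurable ht).mono_ac (withDensity_absolutelyContinuous _ _)
  ext B hB
  rw [Measure.restrict_apply hB, Measure.map_apply_of_aemeasurable hm hB]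
  have hT : MeasurableSet ((c a).target ∩ (c a).symm ⁻¹' B) := by
    have h1 : Measurable ((c a).target.domRestrict (c a).symm) :=
      ((c a).continuousOn_symm.domRestrict).measurable
    have h2 := ht.subtype_image (h1 hB)
    have h3 : Subtype.val '' ((c a).target.domRestrict (c a).symm ⁻¹' B) =
        (c a).target ∩ (c a).symm ⁻¹' B := by
      ext x
      constructor
      · rintro ⟨⟨y, hy⟩, h, rfl⟩; exact ⟨hy, h⟩
      · rintro ⟨h, h'⟩; exact ⟨⟨x, h⟩, h', rfl⟩
    rwa [h3] at h2
  have h4 : B ∩ (c a).source = (c a).symm '' ((c a).target ∩ (c a).symm ⁻¹' B) := by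
    ext p
    constructor
    · rintro ⟨h1, h2⟩
      refine ⟨c a p, ⟨(c a).map_source h2, ?_⟩, (c a).left_inv h2⟩
      simp only [Set.mem_preimage]
      rwa [(c a).left_inv h2]
    · rintro ⟨x, ⟨h1, h2⟩, rfl⟩
      exact ⟨h2, (c a).map_target h1⟩
  rw [h4, hμ a _ inter_subset_left hT, withDensity_apply', Measure.restrict_restrict' ht,
    inter_comm]

theorem cont_dens (hg : J.Met c g) (a : X) : ContinuousOn (H.dens (g a)) (c a).target :=
  fun _ hx => ((RicU.met_on hg a).sm_dens (c a).open_target hx).continuousAt.continuousWithinAt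

/-- integrals over a chart -/
theorem integral_chart [MeasurableSpace X] [BorelSpace X] {μ : Measure X} (hg : J.Met c g)
    (hμ : J.Vol c g μ) (a : X) {F : X → ℝ} (hF : Continuous F)
    (h0 : ∀ q, q ∉ (c a).source → F q = 0) :
    ∫ q, F q ∂μ = ∫ x in (c a).target, H.dens (g a) x * F ((c a).symm x) := by
  have ht := (c a).open_target.measurableSet
  have hm : AEMeasurable (c a).symm ((volume.restrict (c a).target).withDensity
      fun x => ENNReal.ofReal √(g a x).det) :=
    ((c a).continuousOn_symm.aemeasurable ht).mono_ac (withDensity_absolutelyContinuous _ _)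
  rw [← setIntegral_eq_integral_of_forall_compl_eq_zero h0, restrict_chart hμ a,
    integral_map hm hF.aestronglyMeasurable]
  have hm2 : AEMeasurable (fun x => ENNReal.ofReal √(g a x).det)
      (volume.restrict (c a).target) :=
    ((cont_dens hg a).aemeasurable ht).ennreal_ofReal
  rw [integral_withDensity_eq_integral_toReal_smul₀ hm2
    (Filter.Eventually.of_forall fun x => ENNReal.ofReal_lt_top)]
  refine setIntegral_congr_fun ht fun x hx => ?_
  simp only [smul_eq_mul]
  rw [ENNReal.toReal_ofReal (Real.sqrt_nonneg _)]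
  rfl

theorem tsupport_ext {v : X → ℝ} (hvc : HasCompactSupport v) {a : X}
    (hv : tsupport v ⊆ (c a).source) :
    IsCompact (c a '' tsupport v) ∧ tsupport (ext0 (c a) v) ⊆ c a '' tsupport v ∧
      c a '' tsupport v ⊆ (c a).target := by
  have hc : IsCompact (c a '' tsupport v) :=
    (hvc : IsCompact (tsupport v)).image_of_continuousOn ((c a).continuousOn.mono hv)
  refine ⟨hc, ?_, ?_⟩
  · refine closure_minimal ?_ hc.isClosed
    intro x hx
    by_cases hxt : x ∈ (c a).target
    · have h1 : v ((c a).symm x) ≠ 0 := by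
        have : ext0 (c a) v x ≠ 0 := hx
        unfold ext0 at this
        rwa [if_pos hxt] at this
      exact ⟨(c a).symm x, subset_tsupport _ h1, (c a).right_inv hxt⟩
    · exfalso
      have : ext0 (c a) v x ≠ 0 := hx
      unfold ext0 at this
      rw [if_neg hxt] at this
      exact this rfl
  · rintro _ ⟨p, hp, rfl⟩
    exact (c a).map_source (hv hp)

theorem ext_mem {v : X → ℝ} {a : X} {x : E n} (hx : x ∈ (c a).target) :
    ext0 (c a) v x = v ((c a).symm x) := by unfold ext0; rw [if_pos hx]

theorem ext_ev {v : X → ℝ} {a : X} {x : E n} (hx : x ∈ (c a).target) :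
    ext0 (c a) v =ᶠ[𝓝 x] fun x => v ((c a).symm x) := by
  filter_upwards [(c a).open_target.mem_nhds hx] with y hy
  exact ext_mem hy

theorem ext_smooth (hv : J.Sm c v) (hvc : HasCompactSupport v) {a : X}
    (hva : tsupport v ⊆ (c a).source) : ContDiff ℝ ∞ (ext0 (c a) v) := by
  obtain ⟨h1, h2, h3⟩ := tsupport_ext hvc hva
  rw [contDiff_iff_contDiffAt]
  intro x
  by_cases hx : x ∈ (c a).target
  · exact (JB.sm_at hv a hx).congr_of_eventuallyEq (ext_ev hx)
  · have hx' : x ∈ (tsupport (ext0 (c a) v))ᶜ := fun h => hx (h3 (h2 h))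
    refine (contDiffAt_const (c := (0 : ℝ))).congr_of_eventuallyEq ?_
    filter_upwards [(isClosed_tsupport _).isOpen_compl.mem_nhds hx'] with y hy
    exact image_eq_zero_of_notMem_tsupport hy

theorem ext_cs (hvc : HasCompactSupport v) {a : X}
    (hva : tsupport v ⊆ (c a).source) : HasCompactSupport (ext0 (c a) v) := by
  obtain ⟨h1, h2, h3⟩ := tsupport_ext hvc hva
  exact h1.of_isClosed_subset (isClosed_tsupport _) h2

/-- Green's formula for functions with support in a chart -/
theorem green_chart [MeasurableSpace X] [BorelSpace X] {μ : Measure X} (hc : J.Atl c)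
    (hg : J.Met c g) (hμ : J.Vol c g μ) (hv : J.Sm c v) (hvc : HasCompactSupport v)
    (hw : J.Sm c w) {a : X} (hva : tsupport v ⊆ (c a).source) :
    ∫ q, (gip c g v w q + v q * lpl c g w q) ∂μ = 0 := by
  obtain ⟨h1, h2, h3⟩ := tsupport_ext hvc hva
  have hV := ext_smooth hv hvc hva
  have hVc := ext_cs hvc hva
  have hT := (c a).open_target
  have hM := RicU.met_on hg a
  set V : E n → ℝ := ext0 (c a) v with hVd
  set W : E n → ℝ := fun x => w ((c a).symm x) with hWd
  set Z : Fin n → E n → ℝ := fun i x => H.dens (g a) x * ∑ j, (g a x)⁻¹ i j * H.pd j W x with hZ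
  have hZs : ∀ i, ∀ x ∈ (c a).target, P223.Sm (Z i) x := fun i x hx =>
    (hM.sm_dens hT hx).mul (ContDiffAt.sum fun j _ => (hM.sm_inv hT hx i j).mul (sm_pd hw a hx j))
  have hF : Continuous fun q => gip c g v w q + v q * lpl c g w q :=
    (cont_gip hc hg hv hw).add ((JB.sm_cont hc hv).mul (cont_lpl hc hg hw))
  have hz : ∀ q, q ∉ tsupport v → gip c g v w q + v q * lpl c g w q = 0 := by
    intro q hq
    have e1 : v q = 0 := image_eq_zero_of_notMem_tsupport hq
    have e2 : (fun x => v ((c q).symm x)) =ᶠ[𝓝 (c q q)] fun _ => (0 : ℝ) := by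
      have h5 : ContinuousAt (c q).symm (c q q) :=
        (c q).continuousAt_symm (JB.mem_tgt hc q)
      have h6 : Tendsto (c q).symm (𝓝 (c q q)) (𝓝 q) := by
        have := h5.tendsto
        rwa [(c q).left_inv (hc q).1] at this
      have h7 := h6.eventually (notMem_tsupport_iff_eventuallyEq.1 hq)
      filter_upwards [h7] with x hx
      exact hx
    have e3 : gip c g v w q = 0 := by
      unfold gip J.pd
      rw [e2.fderiv_eq]
      simp
    rw [e1, e3]; ring
  rw [integral_chart hg hμ a hF fun q hq => hz q fun h => hq (hva h)]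
  have hpt : ∀ x ∈ (c a).target, H.dens (g a) x *
      (gip c g v w ((c a).symm x) + v ((c a).symm x) * lpl c g w ((c a).symm x)) =
      (∑ i, H.pd i V x * Z i x) + V x * ∑ i, H.pd i (Z i) x := by
    intro x hx
    have hs := (c a).map_target hx
    have hVx : V x = v ((c a).symm x) := ext_mem hx
    rw [gip_chart hc hg hv hw hs, lpl_chart hc hg hw hs, (c a).right_inv hx, ← dens_lap hM hT hx
      (JB.sm_at hw a hx), hVx]
    have e1 : ∀ i, H.pd i V x = H.pd i (fun x => v ((c a).symm x)) x := fun i => by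
      unfold H.pd; rw [(ext_ev hx).fderiv_eq]
    simp only [e1, hZ]
    unfold gradIp
    rw [mul_add]
    congr 1
    · rw [Finset.mul_sum]
      refine Finset.sum_congr rfl fun i _ => ?_
      rw [Finset.mul_sum, Finset.mul_sum, Finset.mul_sum]
      exact Finset.sum_congr rfl fun j _ => by ring
    · ring
  rw [setIntegral_congr_fun hT.measurableSet hpt]
  have hcV : ∀ i, Continuous fun x => H.pd i V x := fun i =>
    (hV.continuous_fderiv (by simp)).clm_apply continuous_const
  have hcZ : ∀ i, ContinuousOn (Z i) (c a).target := fun i x hx =>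
    (hZs i x hx).continuousAt.continuousWithinAt
  have hi2 : Integrable fun x => V x * ∑ i, H.pd i (Z i) x :=
    cs_integrable hV.continuous hVc hT (h2.trans h3) (continuousOn_finsetSum _ fun i _ x hx =>
      ((hZs i x hx).pd i).continuousAt.continuousWithinAt)
  have hsupp : ∀ i, tsupport (fun x => H.pd i V x) ⊆ tsupport V := fun i => by
    refine closure_minimal ?_ (isClosed_tsupport V)
    intro x hx
    by_contra hcon
    apply hx
    have : V =ᶠ[𝓝 x] fun _ => 0 := notMem_tsupport_iff_eventuallyEq.1 hcon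
    change H.pd i V x = 0
    unfold H.pd
    rw [this.fderiv_eq]
    simp
  have hi1 : Integrable fun x => ∑ i, H.pd i V x * Z i x :=
    integrable_finsetSum _ fun i _ => cs_integrable (hcV i)
      (hVc.of_isClosed_subset (isClosed_tsupport _) (hsupp i)) hT
      (((hsupp i).trans h2).trans h3) (hcZ i)
  have hd := integral_div hT hV hVc (h2.trans h3) hZs
  have hzero : ∀ x, x ∉ (c a).target →
      (∑ i, H.pd i V x * Z i x) + V x * ∑ i, H.pd i (Z i) x = 0 := by
    intro x hx
    have e1 : V x = 0 := image_eq_zero_of_notMem_tsupport fun h => hx (h3 (h2 h))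
    have e2 : ∀ i, H.pd i V x = 0 := fun i =>
      image_eq_zero_of_notMem_tsupport (f := fun x => H.pd i V x)
        fun h => hx (h3 (h2 (hsupp i h)))
    simp [e1, e2]
  rw [setIntegral_eq_integral_of_forall_compl_eq_zero hzero, integral_add hi1 hi2]
  have hd' : ∫ x, V x * ∑ i, H.pd i (Z i) x = - ∫ x, ∑ i, H.pd i V x * Z i x := hd
  rw [hd']
  ring

end chart

end Vale.Agent.P223.H620.Im
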