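import Vale.Agent.P223.H620.ImG2

/-! Green's formula on a manifold. -/

namespace Vale.Agent.P223.H620.Im

open scoped ContDiff Topology Matrix ENNReal
open MeasureTheory Set Filter Vale.Agent.P223.H Vale.Agent.P223.X Vale.Agent.P223.H566

section
variable {n : ℕ} {X : Type} [TopologicalSpace X] {c : X → J.Ch n X} {g : X → J.Mtx n}
  {u v w : X → ℝ}

theorem sm_mul (hu : J.Sm c u) (hv : J.Sm c v) : J.Sm c fun q => u q * v q :=
  fun a => (hu a).mul (hv a)

theorem sm_add (hu : J.Sm c u) (hv : J.Sm c v) : J.Sm c fun q => u q + v q :=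
  fun a => (hu a).add (hv a)

theorem sm_sub (hu : J.Sm c u) (hv : J.Sm c v) : J.Sm c fun q => u q - v q :=
  fun a => (hu a).sub (hv a)

theorem sm_const (r : ℝ) : J.Sm c fun _ => r := fun _ => contDiffOn_const

theorem sm_comp (hu : J.Sm c u) {ψ : ℝ → ℝ} (hψ : ContDiff ℝ ∞ ψ) : J.Sm c fun q => ψ (u q) :=
  fun a => hψ.comp_contDiffOn (hu a)

theorem sm_sum {ι : Type} {s : Finset ι} {f : ι → X → ℝ} (h : ∀ i ∈ s, J.Sm c (f i)) :
    J.Sm c fun q => ∑ i ∈ s, f i q := fun a => ContDiffOn.sum fun i hi => h i hi a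

theorem exists_bump [T2Space X] (hc : J.Atl c) (p : X) : ∃ b : X → ℝ, J.Sm c b ∧
    HasCompactSupport b ∧ tsupport b ⊆ (c p).source ∧ ∃ O, IsOpen O ∧ p ∈ O ∧
      ∀ q ∈ O, b q = 1 := by
  classical
  obtain ⟨ε, hε, hball⟩ := Metric.nhds_basis_closedBall.mem_iff.1
    ((c p).open_target.mem_nhds (JB.mem_tgt hc p))
  let f : ContDiffBump (c p p) := ⟨ε / 4, ε / 2, by positivity, by linarith⟩
  set K : Set X := (c p).symm '' Metric.closedBall (c p p) (ε / 2) with hK
  have hsub : Metric.closedBall (c p p) (ε / 2) ⊆ (c p).target :=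
    (Metric.closedBall_subset_closedBall (by linarith)).trans hball
  have hKc : IsCompact K :=
    (isCompact_closedBall _ _).image_of_continuousOn ((c p).continuousOn_symm.mono hsub)
  have hKs : K ⊆ (c p).source := by
    rintro _ ⟨x, hx, rfl⟩
    exact (c p).map_target (hsub hx)
  set b : X → ℝ := fun q => if q ∈ (c p).source then f (c p q) else 0 with hb
  have hb0 : ∀ q, q ∉ K → b q = 0 := by
    intro q hq
    simp only [hb]
    split_ifs with h
    · refine f.zero_of_le_dist ?_
      by_contra hcon
      push Not at hcon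
      refine hq ⟨c p q, ?_, (c p).left_inv h⟩
      exact Metric.mem_closedBall.2 hcon.le
    · rfl
  have hts : tsupport b ⊆ K := closure_minimal (fun q hq => by
    by_contra h
    exact hq (hb0 q h)) hKc.isClosed
  refine ⟨b, fun a x hx => ?_, hKc.of_isClosed_subset (isClosed_tsupport _) hts, hts.trans hKs,
    (c p).source ∩ (c p) ⁻¹' Metric.ball (c p p) (ε / 4),
    (c p).isOpen_inter_preimage Metric.isOpen_ball, ⟨(hc p).1, Metric.mem_ball_self (by positivity)⟩,
    fun q hq => ?_⟩
  · refine ContDiffAt.contDiffWithinAt ?_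
    by_cases h : (c a).symm x ∈ (c p).source
    · have hx' : x ∈ RicU.cd c a p := ⟨hx, h⟩
      have h1 : ContDiffAt ℝ ∞ (fun y => f (J.cm (c a) (c p) y)) x :=
        f.contDiff.contDiffAt.comp x (RicU.smooth_cm hc hx')
      refine h1.congr_of_eventuallyEq ?_
      filter_upwards [(RicU.isOpen_cd a p).mem_nhds hx'] with y hy
      simp only [hb]
      rw [if_pos (show (c a).symm y ∈ (c p).source from hy.2)]
      rfl
    · have h2 : (c a).symm x ∉ K := fun h' => h (hKs h')
      have ho : IsOpen ((c a).target ∩ (c a).symm ⁻¹' Kᶜ) :=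
        (c a).symm.isOpen_inter_preimage hKc.isClosed.isOpen_compl
      refine (contDiffAt_const (c := (0 : ℝ))).congr_of_eventuallyEq ?_
      filter_upwards [ho.mem_nhds ⟨hx, h2⟩] with y hy
      exact hb0 _ hy.2
  · simp only [hb]
    rw [if_pos hq.1]
    exact f.one_of_mem_closedBall (Metric.ball_subset_closedBall hq.2)

theorem gip_zero (hc : J.Atl c) {q : X} (hq : q ∉ tsupport v) (w : X → ℝ) :
    gip c g v w q = 0 := by
  have e2 : (fun x => v ((c q).symm x)) =ᶠ[𝓝 (c q q)] fun _ => (0 : ℝ) := by
    have h5 : ContinuousAt (c q).symm (c q q) := (c q).continuousAt_symm (JB.mem_tgt hc q)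
    have h6 : Tendsto (c q).symm (𝓝 (c q q)) (𝓝 q) := by
      have := h5.tendsto
      rwa [(c q).left_inv (hc q).1] at this
    have h7 := h6.eventually (notMem_tsupport_iff_eventuallyEq.1 hq)
    filter_upwards [h7] with x hx
    exact hx
  unfold gip J.pd
  rw [e2.fderiv_eq]
  simp

theorem pd_add_sm (hc : J.Atl c) (hu : J.Sm c u) (hv : J.Sm c v) (q : X) (i : Fin n) :
    J.pd i (fun x => u ((c q).symm x) + v ((c q).symm x)) (c q q) =
      J.pd i (fun x => u ((c q).symm x)) (c q q) + J.pd i (fun x => v ((c q).symm x)) (c q q) := by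
  unfold J.pd
  have := fderiv_fun_add (JB.sm_diff hc hu q) (JB.sm_diff hc hv q)
  rw [this]
  rfl

theorem gip_add (hc : J.Atl c) (hu : J.Sm c u) (hv : J.Sm c v) (w : X → ℝ) (q : X) :
    gip c g (fun q => u q + v q) w q = gip c g u w q + gip c g v w q := by
  unfold gip
  simp only [pd_add_sm hc hu hv q]
  rw [← Finset.sum_add_distrib]
  refine Finset.sum_congr rfl fun i _ => ?_
  rw [← Finset.sum_add_distrib]
  exact Finset.sum_congr rfl fun j _ => by ring

variable [MeasurableSpace X] [BorelSpace X] {μ : Measure X}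

theorem int_green (hc : J.Atl c) (hg : J.Met c g) (hμ : J.Vol c g μ) (hv : J.Sm c v)
    (hvc : HasCompactSupport v) (hw : J.Sm c w) :
    Integrable (fun q => gip c g v w q + v q * lpl c g w q) μ := by
  have := JB.locFin hc hg hμ
  refine Continuous.integrable_of_hasCompactSupport ((cont_gip hc hg hv hw).add
    ((JB.sm_cont hc hv).mul (cont_lpl hc hg hw))) ?_
  refine HasCompactSupport.intro' (K := tsupport v) hvc (isClosed_tsupport v) fun q hq => ?_
  rw [gip_zero hc hq, image_eq_zero_of_notMem_tsupport hq]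
  ring

theorem green [T2Space X] (hc : J.Atl c) (hg : J.Met c g) (hμ : J.Vol c g μ) (hv : J.Sm c v)
    (hvc : HasCompactSupport v) (hw : J.Sm c w) :
    ∫ q, (gip c g v w q + v q * lpl c g w q) ∂μ = 0 := by
  classical
  choose b hb hbc hbs O hO hpO hb1 using fun p => exists_bump hc p
  have key : ∀ S : Finset X, ∀ v : X → ℝ, J.Sm c v → HasCompactSupport v →
      tsupport v ⊆ ⋃ p ∈ S, O p → ∫ q, (gip c g v w q + v q * lpl c g w q) ∂μ = 0 := by
    intro S
    induction S using Finset.induction_on with
    | empty =>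
      intro v hv hvc hS
      have h0 : ∀ q, q ∉ tsupport v := fun q hq => by simpa using hS hq
      have : ∀ q, gip c g v w q + v q * lpl c g w q = 0 := fun q => by
        rw [gip_zero hc (h0 q), image_eq_zero_of_notMem_tsupport (h0 q)]
        ring
      simp [this]
    | insert p S hp ih =>
      intro v hv hvc hS
      have s1 : J.Sm c fun q => v q * b p q := sm_mul hv (hb p)
      have s2 : J.Sm c fun q => v q * (1 - b p q) := sm_mul hv (sm_sub (sm_const 1) (hb p))
      have c1 : HasCompactSupport fun q => v q * b p q := hvc.mul_right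
      have c2 : HasCompactSupport fun q => v q * (1 - b p q) := hvc.mul_right
      have h1 := green_chart hc hg hμ s1 c1 hw (a := p)
        ((tsupport_mul_subset_right (f := v) (g := b p)).trans (hbs p))
      have h2 := ih _ s2 c2 (by
        intro q hq
        have h3 : q ∉ O p := by
          intro hqO
          have h4 : (fun q => v q * (1 - b p q)) =ᶠ[𝓝 q] 0 := by
            filter_upwards [(hO p).mem_nhds hqO] with z hz
            simp [hb1 p z hz]
          exact notMem_tsupport_iff_eventuallyEq.2 h4 hq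
        have h5 := hS (tsupport_mul_subset_left (f := v) (g := fun q => 1 - b p q) hq)
        simp only [Finset.mem_insert, iUnion_iUnion_eq_or_left, mem_union] at h5
        exact h5.resolve_left h3)
      have e1 : ∀ q, gip c g v w q + v q * lpl c g w q =
          (gip c g (fun q => v q * b p q) w q + (v q * b p q) * lpl c g w q) +
          (gip c g (fun q => v q * (1 - b p q)) w q + (v q * (1 - b p q)) * lpl c g w q) := by
        intro q
        have e2 : v = fun q => v q * b p q + v q * (1 - b p q) := by funext q; ring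
        have e3 := gip_add (g := g) hc s1 s2 w q
        rw [← e2] at e3
        rw [e3]
        ring
      simp only [e1]
      rw [integral_add (int_green hc hg hμ s1 c1 hw) (int_green hc hg hμ s2 c2 hw), h1, h2,
        add_zero]
  obtain ⟨S, hS⟩ := (hvc : IsCompact (tsupport v)).elim_finite_subcover O hO
    (fun q _ => mem_iUnion.2 ⟨q, hpO q⟩)
  exact key S v hv hvc hS

end

theorem greenJ : SpecGreenJ := fun _ _ _ _ _ _ _ _ _ _ _ hc hg hμ hv hvc hw =>
  ⟨cont_gip hc hg hv hw, cont_lpl hc hg hw, green hc hg hμ hv hvc hw⟩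

end Vale.Agent.P223.H620.Im
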