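import Vale.Agent.P223.H391.WDef
import Vale.Agent.P223.H441.WDef

/-! Definitions for the statement: conformal immersions of the universal covering into `ℝ^N`. -/

namespace Vale.Agent.P223.J

open scoped ContDiff
open MeasureTheory

/-- The differential at `q` of the map `F` from the Riemannian manifold X with metric g to `ℝ^N` is
isometric. -/
def IsoAt {n N : ℕ} {X : Type} [TopologicalSpace X] (c : X → Ch n X) (g : X → Mtx n)
    (F : Fin N → X → ℝ) (q : X) : Prop :=
  ∀ i j, ∑ k, pd i (fun x => F k ((c q).symm x)) (c q q) *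
    pd j (fun x => F k ((c q).symm x)) (c q q) = g q (c q q) i j

/-- The square of the length of the mean curvature vector `ΔF` (the trace of the second fundamental
form) of an isometric immersion `F`. -/
noncomputable def hsq {n N : ℕ} {X : Type} [TopologicalSpace X] (c : X → Ch n X) (g : X → Mtx n)
    (F : Fin N → X → ℝ) (q : X) : ℝ :=
  ∑ k, lapl (g q) (fun x => F k ((c q).symm x)) (c q q) ^ 2

/-- `f` is smooth on the open set `S`. -/
def SmOn {n : ℕ} {X : Type} [TopologicalSpace X] (c : X → Ch n X) (f : X → ℝ) (S : Set X) :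
    Prop :=
  ∀ a, ContDiffOn ℝ ∞ (fun x => f ((c a).symm x)) ((c a).target ∩ (c a).symm ⁻¹' S)

/-- The open subset `S` of X (with the metric `g`) has an immersion `F` in some `ℝ^N` with induced
metric `exp(2f) g` such that `exp(2f) |II₀|² ≤ b`; here `|II₀|² = (n-1)/n |H|² - Scal` (the equation
of Gauss) is the square of the length of the tracefree second fundamental form `II₀` of `F`, `H`
is the trace of the second fundamental form and `Scal` the scalar curvature of `exp(2f) g`. -/
def CImmOn {n : ℕ} {X : Type} [TopologicalSpace X] (c : X → Ch n X) (g : X → Mtx n) (b : X → ℝ)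
    (S : Set X) : Prop :=
  ∃ (N : ℕ) (F : Fin N → X → ℝ) (f : X → ℝ), (∀ k, SmOn c (F k) S) ∧ SmOn c f S ∧
    ∀ q ∈ S, IsoAt c (conf c f g) F q ∧
      Real.exp (2 * f q) * (((n : ℝ) - 1) / n * hsq c (conf c f g) F q -
        scal (conf c f g q) (c q q)) ≤ b q

/-- The open ball with centre `x` and radius `R`. -/
def Bal {n : ℕ} {X : Type} [TopologicalSpace X] (c : X → Ch n X) (g : X → Mtx n) (x : X)
    (R : ℝ) : Set X := {z | ∃ s, s < R ∧ ∀ w, Lip1 c g w → |w x - w z| ≤ s}

/-- The universal covering of M with metric g has an immersion into some `ℝ^N` with induced metric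
`exp(2f) g` and tracefree second fundamental form `II₀`, `exp(2f) |II₀|² ≤ b`. -/
def UCImm {n : ℕ} {M : Type} [TopologicalSpace M] (c : M → Ch n M) (g : M → Mtx n) (b : M → ℝ) :
    Prop :=
  ∀ (X : Type) (_ : TopologicalSpace X) (f : X → M) (c' : X → Ch n X), SimplyConnectedSpace X →
    CovAtl c f c' → CImmOn c' (fun q => g (f q)) (fun q => b (f q)) Set.univ

/-- The same for all balls with centre `x` and radius `r (f x)` of the universal covering. -/
def UCImmAt {n : ℕ} {M : Type} [TopologicalSpace M] (c : M → Ch n M) (g : M → Mtx n) (b : M → ℝ)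
    (r : M → ℝ) : Prop :=
  ∀ (X : Type) (_ : TopologicalSpace X) (f : X → M) (c' : X → Ch n X), SimplyConnectedSpace X →
    CovAtl c f c' → ∀ x, CImmOn c' (fun q => g (f q)) (fun q => b (f q))
      (Bal c' (fun q => g (f q)) x (r (f x)))

end Vale.Agent.P223.J

namespace Vale.Agent.P223.H620.Im

open scoped ContDiff
open MeasureTheory

section
variable {n : ℕ} {X : Type} [TopologicalSpace X] (c : X → J.Ch n X) (g : X → J.Mtx n)

/-- the pairing of the differentials -/
noncomputable def gip (u v : X → ℝ) (q : X) : ℝ :=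
  ∑ i, ∑ j, (g q (c q q))⁻¹ i j * J.pd i (fun x => u ((c q).symm x)) (c q q) *
    J.pd j (fun x => v ((c q).symm x)) (c q q)

/-- the Laplacian -/
noncomputable def lpl (u : X → ℝ) (q : X) : ℝ :=
  J.lapl (g q) (fun x => u ((c q).symm x)) (c q q)

end

/-- Green's formula -/
def SpecGreenJ : Prop := ∀ (n : ℕ) (X : Type) [TopologicalSpace X] [T2Space X]
  [MeasurableSpace X] [BorelSpace X] (μ : Measure X) (c : X → J.Ch n X) (g : X → J.Mtx n)
  (v w : X → ℝ), J.Atl c → J.Met c g → J.Vol c g μ → J.Sm c v → HasCompactSupport v → J.Sm c w →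
  Continuous (gip c g v w) ∧ Continuous (lpl c g w) ∧
    ∫ q, (gip c g v w q + v q * lpl c g w q) ∂μ = 0

/-- the inequality of Michael and Simon in the form of Sobolev -/
def SpecMS : Prop := ∀ n : ℕ, 3 ≤ n → ∃ y : ℝ, 0 < y ∧ ∀ (N : ℕ) (X : Type) [TopologicalSpace X]
  [T2Space X] [MeasurableSpace X] [BorelSpace X] (μ : Measure X) (c : X → J.Ch n X)
  (g : X → J.Mtx n) (F : Fin N → X → ℝ) (u : X → ℝ), J.Atl c → J.Met c g → J.Vol c g μ →
  (∀ k, J.Sm c (F k)) → J.Sm c u → HasCompactSupport u →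
  (∀ q ∈ tsupport u, J.IsoAt c g F q) →
  y * (∫ q, |u q| ^ (2 * (n : ℝ) / (n - 2)) ∂μ) ^ (((n : ℝ) - 2) / n) ≤
    ∫ q, (J.gsq (g q) (fun x => u ((c q).symm x)) (c q q) + J.hsq c g F q * u q ^ 2) ∂μ

/-- the same with maps which are smooth everywhere -/
def CG {n : ℕ} {X : Type} [TopologicalSpace X] (c : X → J.Ch n X) (g : X → J.Mtx n) (b : X → ℝ)
    (S : Set X) : Prop :=
  ∃ (N : ℕ) (F : Fin N → X → ℝ) (f : X → ℝ), (∀ k, J.Sm c (F k)) ∧ J.Sm c f ∧
    ∀ q ∈ S, J.IsoAt c (J.conf c f g) F q ∧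
      Real.exp (2 * f q) * (((n : ℝ) - 1) / n * J.hsq c (J.conf c f g) F q -
        J.scal (J.conf c f g q) (c q q)) ≤ b q

/-- the conformal form: on a set `S` where there is a conformal immersion with tracefree second
fundamental form bounded by `b` -/
def SpecCS : Prop := ∀ n : ℕ, 3 ≤ n → ∃ y : ℝ, 0 < y ∧ y ≤ 1 ∧ ∀ (X : Type) [TopologicalSpace X]
  [T2Space X] [MeasurableSpace X] [BorelSpace X] (μ : Measure X) (c : X → J.Ch n X)
  (g : X → J.Mtx n) (b u : X → ℝ) (S : Set X), J.Atl c → J.Met c g → J.Vol c g μ →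
  Continuous b → (∀ q, 0 ≤ b q) → CG c g b S → J.Sm c u → HasCompactSupport u →
  tsupport u ⊆ S →
  y * (∫ q, |u q| ^ (2 * (n : ℝ) / (n - 2)) ∂μ) ^ (((n : ℝ) - 2) / n) ≤
    ∫ q, (J.gsq (g q) (fun x => u ((c q).symm x)) (c q q) +
      (max 0 (J.scal (g q) (c q q)) + b q) * u q ^ 2) ∂μ

end Vale.Agent.P223.H620.Im
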