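import Vale.Agent.P223.H620.ImG3

/-! Isometric immersions into `ℝ^N`: the first variation. -/

namespace Vale.Agent.P223.H620.Im

open scoped ContDiff Topology Matrix ENNReal
open MeasureTheory Set Filter Vale.Agent.P223.H Vale.Agent.P223.X Vale.Agent.P223.H566

section alg
variable {n N : ℕ} {G : Matrix (Fin n) (Fin n) ℝ} {D : Fin N → Fin n → ℝ}

theorem ginv_symm (hG : G.PosDef) (i j : Fin n) : G⁻¹ i j = G⁻¹ j i := by
  have hs : (G⁻¹)ᵀ = G⁻¹ := by
    have := hG.inv.isHermitian
    simpa [Matrix.IsHermitian, Matrix.conjTranspose_eq_transpose_of_trivial] using this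
  conv_lhs => rw [← hs]
  rfl

theorem g_ginv (hG : G.PosDef) (i j : Fin n) : ∑ k, G i k * G⁻¹ k j = if i = j then 1 else 0 := by
  have h : G * G⁻¹ = 1 := Matrix.mul_nonsing_inv _ hG.det_pos.ne'.isUnit
  have := congrFun (congrFun h i) j
  rwa [Matrix.mul_apply, Matrix.one_apply] at this

theorem iso_trace (hG : G.PosDef) (h : ∀ i j, ∑ k, D k i * D k j = G i j) :
    ∑ k, ∑ i, ∑ j, G⁻¹ i j * D k i * D k j = n := by
  have e1 : ∑ k, ∑ i, ∑ j, G⁻¹ i j * D k i * D k j = ∑ i, ∑ j, G i j * G⁻¹ j i := by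
    rw [Finset.sum_comm]
    refine Finset.sum_congr rfl fun i _ => ?_
    rw [Finset.sum_comm]
    refine Finset.sum_congr rfl fun j _ => ?_
    rw [← h i j, Finset.sum_mul]
    refine Finset.sum_congr rfl fun k _ => ?_
    rw [ginv_symm hG i j]
    ring
  rw [e1]
  simp only [g_ginv hG]
  simp

theorem iso_bessel (hG : G.PosDef) (h : ∀ i j, ∑ k, D k i * D k j = G i j) (a : Fin N → ℝ) :
    ∑ i, ∑ j, G⁻¹ i j * (∑ k, a k * D k i) * (∑ k, a k * D k j) ≤ ∑ k, a k ^ 2 := by
  set v : Fin n → ℝ := fun i => ∑ k, a k * D k i with hv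
  set z : Fin n → ℝ := fun i => ∑ j, G⁻¹ i j * v j with hz
  set b : Fin N → ℝ := fun k => ∑ i, D k i * z i with hb
  have hs : ∑ i, ∑ j, G⁻¹ i j * v i * v j = ∑ i, v i * z i := by
    refine Finset.sum_congr rfl fun i _ => ?_
    simp only [hz]
    rw [Finset.mul_sum]
    exact Finset.sum_congr rfl fun j _ => by ring
  have hGz : ∀ i, ∑ j, G i j * z j = v i := by
    intro i
    simp only [hz, Finset.mul_sum]
    rw [Finset.sum_comm]
    have : ∀ j, ∑ k, G i k * (G⁻¹ k j * v j) = (if i = j then 1 else 0) * v j := by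
      intro j
      rw [← g_ginv hG i j, Finset.sum_mul]
      exact Finset.sum_congr rfl fun k _ => by ring
    simp only [this]
    simp
  have h1 : ∑ k, a k * b k = ∑ i, v i * z i := by
    simp only [hb, hv, Finset.mul_sum, Finset.sum_mul]
    rw [Finset.sum_comm]
    exact Finset.sum_congr rfl fun i _ => Finset.sum_congr rfl fun k _ => by ring
  have h2 : ∑ k, b k ^ 2 = ∑ i, v i * z i := by
    have e1 : ∀ k, b k ^ 2 = ∑ i, ∑ j, (D k i * D k j) * (z i * z j) := by
      intro k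
      rw [sq]
      simp only [hb]
      rw [Finset.sum_mul_sum]
      exact Finset.sum_congr rfl fun i _ => Finset.sum_congr rfl fun j _ => by ring
    simp only [e1]
    rw [Finset.sum_comm]
    refine Finset.sum_congr rfl fun i _ => ?_
    rw [Finset.sum_comm, ← hGz i, Finset.sum_mul]
    refine Finset.sum_congr rfl fun j _ => ?_
    rw [← Finset.sum_mul, h i j]
    ring
  have h3 : 0 ≤ ∑ k, (a k - b k) ^ 2 := Finset.sum_nonneg fun _ _ => sq_nonneg _
  have h4 : ∑ k, (a k - b k) ^ 2 = ∑ k, a k ^ 2 - 2 * ∑ k, a k * b k + ∑ k, b k ^ 2 := by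
    rw [Finset.mul_sum, ← Finset.sum_sub_distrib, ← Finset.sum_add_distrib]
    exact Finset.sum_congr rfl fun k _ => by ring
  rw [hs]
  rw [h4, h1, h2] at h3
  linarith

end alg

section
variable {n N : ℕ} {X : Type} [TopologicalSpace X] {c : X → J.Ch n X} {g : X → J.Mtx n}
  {F : Fin N → X → ℝ} {u v w : X → ℝ}

/-- the square of the distance of `F q` and `p` -/
noncomputable def Rf (F : Fin N → X → ℝ) (p : Fin N → ℝ) (q : X) : ℝ := ∑ k, (F k q - p k) ^ 2

theorem sm_Rf (hF : ∀ k, J.Sm c (F k)) (p : Fin N → ℝ) : J.Sm c (Rf F p) := by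
  have h1 : J.Sm c fun q => ∑ k, (F k q - p k) * (F k q - p k) :=
    sm_sum fun k _ => sm_mul (sm_sub (hF k) (sm_const _)) (sm_sub (hF k) (sm_const _))
  have h2 : Rf F p = fun q => ∑ k, (F k q - p k) * (F k q - p k) := by
    funext q
    exact Finset.sum_congr rfl fun k _ => sq _
  rwa [h2]

omit [TopologicalSpace X] in
theorem Rf_nonneg (F : Fin N → X → ℝ) (p : Fin N → ℝ) (q : X) : 0 ≤ Rf F p q :=
  Finset.sum_nonneg fun _ _ => sq_nonneg _

theorem pd_Rf (hc : J.Atl c) (hF : ∀ k, J.Sm c (F k)) (p : Fin N → ℝ) (q : X) (i : Fin n) :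
    J.pd i (fun x => Rf F p ((c q).symm x)) (c q q) =
      ∑ k, (2 * (F k q - p k)) * J.pd i (fun x => F k ((c q).symm x)) (c q q) := by
  have h1 : ∀ k, DifferentiableAt ℝ (fun x => (F k ((c q).symm x) - p k) ^ 2) (c q q) :=
    fun k => ((JB.sm_diff hc (hF k) q).sub_const _).pow 2
  have h2 := Bridge.pd_sum (s := Finset.univ) (c := i) fun k (_ : k ∈ Finset.univ) => h1 k
  refine Eq.trans h2 (Finset.sum_congr rfl fun k _ => ?_)
  have h3 := Grad.pd_comp_real (φ := fun s => (s - p k) ^ 2) (φ' := 2 * (F k q - p k))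
    (f := fun x => F k ((c q).symm x)) (x := c q q) (by
      simp only [(c q).left_inv (hc q).1]
      simpa using ((hasDerivAt_id (F k q)).sub_const (p k)).fun_pow 2) (JB.sm_diff hc (hF k) q) i
  exact h3

theorem gip_Rf (hc : J.Atl c) (hF : ∀ k, J.Sm c (F k)) (p : Fin N → ℝ) (q : X) :
    gip c g u (Rf F p) q = ∑ k, (2 * (F k q - p k)) * gip c g u (F k) q := by
  unfold gip
  simp only [pd_Rf hc hF p q, Finset.mul_sum]
  symm
  rw [Finset.sum_comm]
  refine Finset.sum_congr rfl fun i _ => ?_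
  rw [Finset.sum_comm]
  exact Finset.sum_congr rfl fun j _ => Finset.sum_congr rfl fun k _ => by ring

theorem gip_self_Rf (hc : J.Atl c) (hg : J.Met c g) (hF : ∀ k, J.Sm c (F k)) (p : Fin N → ℝ)
    {q : X} (hi : J.IsoAt c g F q) : gip c g (Rf F p) (Rf F p) q ≤ 4 * Rf F p q := by
  have h1 := iso_bessel (JB.posDef hc hg q)
    (D := fun k i => J.pd i (fun x => F k ((c q).symm x)) (c q q)) hi
    (fun k => 2 * (F k q - p k))
  have h2 : ∑ k, (2 * (F k q - p k)) ^ 2 = 4 * Rf F p q := by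
    unfold Rf
    rw [Finset.mul_sum]
    exact Finset.sum_congr rfl fun k _ => by ring
  rw [h2] at h1
  unfold gip
  simp only [pd_Rf hc hF p q]
  exact h1

theorem gip_trace (hc : J.Atl c) (hg : J.Met c g) {q : X} (hi : J.IsoAt c g F q) :
    ∑ k, gip c g (F k) (F k) q = n :=
  iso_trace (JB.posDef hc hg q)
    (D := fun k i => J.pd i (fun x => F k ((c q).symm x)) (c q q)) hi

theorem pd_mul_sm (hc : J.Atl c) (hu : J.Sm c u) (hv : J.Sm c v) (q : X) (i : Fin n) :
    J.pd i (fun x => u ((c q).symm x) * v ((c q).symm x)) (c q q) =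
      v q * J.pd i (fun x => u ((c q).symm x)) (c q q) +
        u q * J.pd i (fun x => v ((c q).symm x)) (c q q) := by
  have h := Bridge.pd_mul (c := i) (JB.sm_diff hc hu q) (JB.sm_diff hc hv q)
  simp only [(c q).left_inv (hc q).1] at h
  refine Eq.trans h ?_
  change H.pd i _ _ * _ + _ * H.pd i _ _ = v q * H.pd i _ _ + u q * H.pd i _ _
  ring

theorem gip_mul_left (hc : J.Atl c) (hu : J.Sm c u) (hv : J.Sm c v) (w : X → ℝ) (q : X) :
    gip c g (fun q => u q * v q) w q = v q * gip c g u w q + u q * gip c g v w q := by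
  unfold gip
  simp only [pd_mul_sm hc hu hv q]
  simp only [Finset.mul_sum, ← Finset.sum_add_distrib]
  exact Finset.sum_congr rfl fun i _ => Finset.sum_congr rfl fun j _ => by ring

theorem gip_comp_left (hc : J.Atl c) (hu : J.Sm c u) {ψ : ℝ → ℝ} {ψ' : ℝ} (w : X → ℝ) {q : X}
    (hψ : HasDerivAt ψ ψ' (u q)) :
    gip c g (fun q => ψ (u q)) w q = ψ' * gip c g u w q := by
  have h3 : ∀ i, J.pd i (fun x => ψ (u ((c q).symm x))) (c q q) =
      ψ' * J.pd i (fun x => u ((c q).symm x)) (c q q) := fun i =>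
    Grad.pd_comp_real (φ := ψ) (f := fun x => u ((c q).symm x)) (x := c q q) (by
      simp only [(c q).left_inv (hc q).1]
      exact hψ) (JB.sm_diff hc hu q) i
  unfold gip
  simp only [h3, Finset.mul_sum]
  exact Finset.sum_congr rfl fun i _ => Finset.sum_congr rfl fun j _ => by ring

theorem gip_sub_const (hc : J.Atl c) (hu : J.Sm c u) (r : ℝ) (w : X → ℝ) (q : X) :
    gip c g (fun q => u q - r) w q = gip c g u w q := by
  have := gip_comp_left (g := g) hc hu (ψ := fun s => s - r) (ψ' := 1) w (q := q)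
    ((hasDerivAt_id (u q)).sub_const r)
  rwa [one_mul] at this

theorem gip_comm (hc : J.Atl c) (hg : J.Met c g) (u v : X → ℝ) (q : X) :
    gip c g u v q = gip c g v u q := Grad.gradIp_comm (JB.posDef hc hg q)

theorem abs_gip (hc : J.Atl c) (hg : J.Met c g) (u v : X → ℝ) (q : X) :
    |gip c g u v q| ≤ NV.grd c g u q * NV.grd c g v q :=
  Grad.abs_gradIp_le (JB.posDef hc hg q) _ _

theorem gip_self (u : X → ℝ) (q : X) :
    gip c g u u q = J.gsq (g q) (fun x => u ((c q).symm x)) (c q q) := rfl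

theorem grd_Rf (hc : J.Atl c) (hg : J.Met c g) (hF : ∀ k, J.Sm c (F k)) (p : Fin N → ℝ)
    {q : X} (hi : J.IsoAt c g F q) : NV.grd c g (Rf F p) q ≤ 2 * √(Rf F p q) := by
  unfold NV.grd
  rw [← gip_self]
  refine Real.sqrt_le_iff.2 ⟨by positivity, ?_⟩
  rw [mul_pow, Real.sq_sqrt (Rf_nonneg F p q)]
  have := gip_self_Rf hc hg hF p hi
  linarith

/-- the trace of the second fundamental form paired with `F - p` -/
noncomputable def hp (c : X → J.Ch n X) (g : X → J.Mtx n) (F : Fin N → X → ℝ) (p : Fin N → ℝ)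
    (q : X) : ℝ := ∑ k, (F k q - p k) * lpl c g (F k) q

theorem abs_hp (F : Fin N → X → ℝ) (p : Fin N → ℝ) (q : X) :
    |hp c g F p q| ≤ √(Rf F p q) * √(J.hsq c g F q) := by
  unfold hp Rf J.hsq
  have h := Finset.sum_mul_sq_le_sq_mul_sq Finset.univ (fun k => F k q - p k)
    (fun k => lpl c g (F k) q)
  rw [← Real.sqrt_mul (Finset.sum_nonneg fun _ _ => sq_nonneg _)]
  exact Real.abs_le_sqrt h

theorem cont_hp (hc : J.Atl c) (hg : J.Met c g) (hF : ∀ k, J.Sm c (F k)) (p : Fin N → ℝ) :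
    Continuous (hp c g F p) :=
  continuous_finsetSum _ fun k _ => ((JB.sm_cont hc (hF k)).sub continuous_const).mul
    (cont_lpl hc hg (hF k))

theorem cont_hsq (hc : J.Atl c) (hg : J.Met c g) (hF : ∀ k, J.Sm c (F k)) :
    Continuous (J.hsq c g F) :=
  continuous_finsetSum _ fun k _ => (cont_lpl hc hg (hF k)).pow 2

theorem hsq_nonneg (q : X) : 0 ≤ J.hsq c g F q := Finset.sum_nonneg fun _ _ => sq_nonneg _

variable [MeasurableSpace X] [BorelSpace X] {μ : Measure X}

/-- the first variation -/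
theorem first_var [T2Space X] (hc : J.Atl c) (hg : J.Met c g) (hμ : J.Vol c g μ)
    (hF : ∀ k, J.Sm c (F k)) (p : Fin N → ℝ) {a : X → ℝ} (ha : J.Sm c a)
    (hac : HasCompactSupport a) (hi : ∀ q ∈ tsupport a, J.IsoAt c g F q) :
    ∫ q, (n * a q + 1 / 2 * gip c g a (Rf F p) q + a q * hp c g F p q) ∂μ = 0 := by
  have hs : ∀ k, J.Sm c fun q => a q * (F k q - p k) := fun k =>
    sm_mul ha (sm_sub (hF k) (sm_const _))
  have hcs : ∀ k, HasCompactSupport fun q => a q * (F k q - p k) := fun k => hac.mul_right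
  have h1 : ∀ q, n * a q + 1 / 2 * gip c g a (Rf F p) q + a q * hp c g F p q =
      ∑ k, (gip c g (fun q => a q * (F k q - p k)) (F k) q +
        (a q * (F k q - p k)) * lpl c g (F k) q) := by
    intro q
    have h2 : ∀ k, gip c g (fun q => a q * (F k q - p k)) (F k) q =
        (F k q - p k) * gip c g a (F k) q + a q * gip c g (F k) (F k) q := fun k => by
      rw [gip_mul_left hc ha (sm_sub (hF k) (sm_const _)), gip_sub_const hc (hF k)]
    simp only [h2, Finset.sum_add_distrib]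
    rw [gip_Rf hc hF]
    by_cases hq : q ∈ tsupport a
    · rw [← Finset.mul_sum, gip_trace hc hg (hi q hq)]
      unfold hp
      rw [Finset.mul_sum, Finset.mul_sum]
      have h3 : ∑ k, 1 / 2 * (2 * (F k q - p k) * gip c g a (F k) q) =
          ∑ k, (F k q - p k) * gip c g a (F k) q := Finset.sum_congr rfl fun k _ => by ring
      have h4 : ∑ k, a q * ((F k q - p k) * lpl c g (F k) q) =
          ∑ k, a q * (F k q - p k) * lpl c g (F k) q := Finset.sum_congr rfl fun k _ => by ring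
      rw [h3, h4]
      ring
    · have h5 : a q = 0 := image_eq_zero_of_notMem_tsupport hq
      have h6 : ∀ k, gip c g a (F k) q = 0 := fun k => gip_zero hc hq (F k)
      simp [h5, h6]
  simp only [h1]
  rw [integral_finsetSum _ fun k _ => int_green hc hg hμ (hs k) (hcs k) (hF k)]
  exact Finset.sum_eq_zero fun k _ => green hc hg hμ (hs k) (hcs k) (hF k)

end

end Vale.Agent.P223.H620.Im
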