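import Vale.Agent.P223.H620.ImM2

/-! Isometric immersions into `ℝ^N`: growth. -/

namespace Vale.Agent.P223.H620.Im

open scoped ContDiff Topology Matrix ENNReal
open MeasureTheory Set Filter Vale.Agent.P223.H Vale.Agent.P223.X Vale.Agent.P223.H566

section
variable {n N : ℕ} {X : Type} [TopologicalSpace X] {c : X → J.Ch n X} {g : X → J.Mtx n}
  {F : Fin N → X → ℝ} {h : X → ℝ} {p : Fin N → ℝ}
variable [MeasurableSpace X] [BorelSpace X] {μ : Measure X}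

/-- the mass -/
noncomputable def Ph (μ : Measure X) (F : Fin N → X → ℝ) (p : Fin N → ℝ) (h : X → ℝ) (ρ : ℝ) :
    ℝ := ∫ q, h q * ze (Rf F p q / ρ ^ 2) ∂μ

/-- the right hand side -/
noncomputable def Ps (c : X → J.Ch n X) (g : X → J.Mtx n) (μ : Measure X) (F : Fin N → X → ℝ)
    (p : Fin N → ℝ) (h : X → ℝ) (ρ : ℝ) : ℝ := ∫ q, ze (Rf F p q / ρ ^ 2) * wt c g F h q ∂μ

theorem int_h (hc : J.Atl c) (hg : J.Met c g) (hμ : J.Vol c g μ) (hh : J.Sm c h)
    (hhc : HasCompactSupport h) : Integrable h μ :=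
  int_of hc hg hμ hhc (JB.sm_cont hc hh) fun _ hq => image_eq_zero_of_notMem_tsupport hq

theorem int_hz (hc : J.Atl c) (hg : J.Met c g) (hμ : J.Vol c g μ)
    (hF : ∀ k, J.Sm c (F k)) (hh : J.Sm c h) (hhc : HasCompactSupport h) (ρ : ℝ) :
    Integrable (fun q => h q * ze (Rf F p q / ρ ^ 2)) μ :=
  int_of hc hg hμ hhc ((JB.sm_cont hc hh).mul (ze_contDiff.continuous.comp
    ((JB.sm_cont hc (sm_Rf (c := c) hF p)).div_const _))) fun q hq => by
      rw [image_eq_zero_of_notMem_tsupport hq, zero_mul]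

theorem Ph_le (hc : J.Atl c) (hg : J.Met c g) (hμ : J.Vol c g μ)
    (hF : ∀ k, J.Sm c (F k)) (hh : J.Sm c h) (hhc : HasCompactSupport h) (h0 : ∀ q, 0 ≤ h q)
    (ρ : ℝ) : Ph μ F p h ρ ≤ ∫ q, h q ∂μ :=
  integral_mono (int_hz hc hg hμ hF hh hhc ρ) (int_h hc hg hμ hh hhc) fun q =>
    mul_le_of_le_one_right (h0 q) (ze_le_one _)

theorem Ph_nonneg (h0 : ∀ q, 0 ≤ h q) (ρ : ℝ) : 0 ≤ Ph μ F p h ρ :=
  integral_nonneg fun q => mul_nonneg (h0 q) (ze_nonneg _)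

theorem Ph_deriv (hc : J.Atl c) (hg : J.Met c g) (hμ : J.Vol c g μ)
    (hF : ∀ k, J.Sm c (F k)) (hh : J.Sm c h) (hhc : HasCompactSupport h) (h0 : ∀ q, 0 ≤ h q)
    {ρ : ℝ} (hρ : 0 < ρ) : HasDerivAt (Ph μ F p h)
      (ρ⁻¹ * ∫ q, h q * (-deriv ze (Rf F p q / ρ ^ 2) * (2 * Rf F p q / ρ ^ 2)) ∂μ) ρ := by
  obtain ⟨B, hB0, hB⟩ := dze_bound
  have hRc := JB.sm_cont hc (sm_Rf (c := c) hF p)
  have hhc' := JB.sm_cont hc hh
  have key := hasDerivAt_integral_of_dominated_loc_of_deriv_le (μ := μ) (x₀ := ρ)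
    (s := Metric.ball ρ (ρ / 2))
    (F := fun r q => h q * ze (Rf F p q / r ^ 2))
    (F' := fun r q => h q * (-deriv ze (Rf F p q / r ^ 2) * (2 * Rf F p q / r ^ 2)) / r)
    (bound := fun q => h q * (4 * B / ρ)) (Metric.ball_mem_nhds _ (by positivity))
    (Eventually.of_forall fun r => (hhc'.mul (ze_contDiff.continuous.comp
      (hRc.div_const _))).aestronglyMeasurable)
    (int_hz hc hg hμ hF hh hhc ρ)
    ((hhc'.mul ((dze_cont.comp (hRc.div_const _)).neg.mul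
      ((continuous_const.mul hRc).div_const _))).div_const _).aestronglyMeasurable
    (Eventually.of_forall fun q r hr => by
      have hr1 : ρ / 2 < r := by
        have := Metric.mem_ball.1 hr
        rw [Real.dist_eq] at this
        linarith [(abs_lt.1 this).1]
      have hr0 : 0 < r := by linarith
      have hR0 := Rf_nonneg F p q
      have h1 := hB (Rf F p q / r ^ 2) (by positivity)
      rw [Real.norm_eq_abs, abs_div, abs_mul, abs_mul, abs_neg, abs_of_nonneg (h0 q),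
        abs_of_nonneg (show 0 ≤ 2 * Rf F p q / r ^ 2 by positivity), abs_of_pos hr0]
      calc h q * (|deriv ze (Rf F p q / r ^ 2)| * (2 * Rf F p q / r ^ 2)) / r
          = h q * (2 * (|deriv ze (Rf F p q / r ^ 2)| * (Rf F p q / r ^ 2)) / r) := by ring
        _ ≤ h q * (2 * B / (ρ / 2)) := by
            have := h0 q
            gcongr
        _ = h q * (4 * B / ρ) := by ring)
    ((int_h hc hg hμ hh hhc).mul_const _)
    (Eventually.of_forall fun q r hr => by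
      have hr1 : ρ / 2 < r := by
        have := Metric.mem_ball.1 hr
        rw [Real.dist_eq] at this
        linarith [(abs_lt.1 this).1]
      have hr0 : 0 < r := by linarith
      have h1 : HasDerivAt (fun r : ℝ => Rf F p q / r ^ 2) (-(2 * Rf F p q / r ^ 2) / r) r := by
        have h2 : HasDerivAt (fun r : ℝ => r ^ 2) (2 * r) r := by
          simpa using hasDerivAt_pow 2 r
        have h3 := (hasDerivAt_const r (Rf F p q)).div h2 (by positivity)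
        refine h3.congr_deriv ?_
        field_simp
        ring
      have h4 := ((ze_hasDeriv (Rf F p q / r ^ 2)).comp r h1).const_mul (h q)
      refine h4.congr_deriv ?_
      ring)
  refine key.2.congr_deriv ?_
  rw [MeasureTheory.integral_div, div_eq_inv_mul]

/-- growth -/
theorem ode [T2Space X] (hc : J.Atl c) (hg : J.Met c g) (hμ : J.Vol c g μ)
    (hF : ∀ k, J.Sm c (F k)) (hh : J.Sm c h) (hhc : HasCompactSupport h)
    (h0 : ∀ q, 0 ≤ h q) (hi : ∀ q ∈ tsupport h, J.IsoAt c g F q) {a b κ : ℝ} (ha : 0 < a)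
    (hab : a ≤ b) (hκ : ∀ ρ, a ≤ ρ → ρ ≤ b → Ps c g μ F p h ρ ≤ κ * ρ ^ n) :
    Ph μ F p h a / a ^ n ≤ Ph μ F p h b / b ^ n + κ * (b - a) := by
  have hd : ∀ ρ, 0 < ρ → HasDerivAt (fun ρ => Ph μ F p h ρ / ρ ^ n)
      (((ρ⁻¹ * ∫ q, h q * (-deriv ze (Rf F p q / ρ ^ 2) * (2 * Rf F p q / ρ ^ 2)) ∂μ) * ρ ^ n -
        Ph μ F p h ρ * (n * ρ ^ (n - 1))) / (ρ ^ n) ^ 2) ρ := fun ρ hρ =>
    (Ph_deriv hc hg hμ hF hh hhc h0 hρ).div (hasDerivAt_pow n ρ) (by positivity)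
  have h1 := Convex.mul_sub_le_image_sub_of_le_deriv (convex_Icc a b)
    (f := fun ρ => Ph μ F p h ρ / ρ ^ n)
    (fun ρ hρ => (hd ρ (ha.trans_le hρ.1)).continuousAt.continuousWithinAt)
    (fun ρ hρ => (hd ρ (ha.trans_le (interior_subset hρ).1)).differentiableAt.differentiableWithinAt)
    (C := -κ) (fun ρ hρ' => by
      have hρ := interior_subset hρ'
      have hρ0 : 0 < ρ := ha.trans_le hρ.1
      rw [(hd ρ hρ0).deriv]
      have h2 := mono_ineq hc hg hμ hF p hh hhc h0 hi hρ0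
      have h3 := hκ ρ hρ.1 hρ.2
      set I := ∫ q, h q * (-deriv ze (Rf F p q / ρ ^ 2) * (2 * Rf F p q / ρ ^ 2)) ∂μ with hI
      have h4 : n * Ph μ F p h ρ ≤ I + ρ * Ps c g μ F p h ρ := h2
      rw [le_div_iff₀ (by positivity)]
      rcases Nat.eq_zero_or_pos n with hn | hn
      · subst hn
        simp only [pow_zero, mul_one, Nat.cast_zero, zero_mul, mul_zero, sub_zero, one_pow]
        simp only [Nat.cast_zero, zero_mul, pow_zero, mul_one] at h4 h3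
        rw [← div_eq_inv_mul, le_div_iff₀ hρ0]
        nlinarith
      · have e1 : ρ ^ n = ρ ^ (n - 1) * ρ := by
          rw [← pow_succ, Nat.sub_add_cancel hn]
        have e2 : 0 < ρ ^ (n - 1) := by positivity
        have e3 : ρ⁻¹ * I * ρ ^ n = I * ρ ^ (n - 1) := by
          rw [e1]; field_simp
        rw [e3]
        have e4 : κ * (ρ ^ n) ^ 2 = (ρ * (κ * ρ ^ n)) * ρ ^ (n - 1) := by
          rw [e1]; ring
        have h5 : n * Ph μ F p h ρ * ρ ^ (n - 1) ≤ (I + ρ * (κ * ρ ^ n)) * ρ ^ (n - 1) := by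
          refine mul_le_mul_of_nonneg_right (h4.trans ?_) e2.le
          have := mul_le_mul_of_nonneg_left h3 hρ0.le
          linarith
        have e5 : -κ * (ρ ^ n) ^ 2 = -(κ * (ρ ^ n) ^ 2) := by ring
        rw [e5, e4]
        linarith)
    a ⟨le_rfl, hab⟩ b ⟨hab, le_rfl⟩ hab
  linarith

/-- the growth lemma -/
theorem growth [T2Space X] (hc : J.Atl c) (hg : J.Met c g) (hμ : J.Vol c g μ)
    (hF : ∀ k, J.Sm c (F k)) (hh : J.Sm c h) (hhc : HasCompactSupport h)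
    (h0 : ∀ q, 0 ≤ h q) (hi : ∀ q ∈ tsupport h, J.IsoAt c g F q) {ρ₀ : ℝ} (hρ₀ : 0 < ρ₀)
    (H : ∀ ρ, 0 < ρ → ρ ≤ ρ₀ → Ps c g μ F p h ρ ≤
      (2 * 10 ^ n * ρ₀)⁻¹ * Ph μ F p h (10 * ρ)) {σ : ℝ} (hσ : 0 < σ) (hσρ : σ ≤ ρ₀) :
    Ph μ F p h σ / σ ^ n ≤ 2 * (∫ q, h q ∂μ) / ρ₀ ^ n := by
  set m := ∫ q, h q ∂μ with hm
  have hm0 : 0 ≤ m := integral_nonneg h0
  set f : ℝ → ℝ := fun ρ => Ph μ F p h ρ / ρ ^ n with hf
  have hfc : ContinuousOn f (Icc σ ρ₀) := fun ρ hρ =>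
    ((Ph_deriv hc hg hμ hF hh hhc h0 (hσ.trans_le hρ.1)).continuousAt.div
      (continuousAt_pow ρ n) (pow_pos (hσ.trans_le hρ.1) n).ne').continuousWithinAt
  obtain ⟨τ, hτ, hmax⟩ := isCompact_Icc.exists_isMaxOn (nonempty_Icc.2 hσρ) hfc
  set S := f τ with hS
  have hτ0 : 0 < τ := hσ.trans_le hτ.1
  set K := max S (m / ρ₀ ^ n) with hK
  have hK0 : 0 ≤ K := le_max_of_le_right (by positivity)
  have h1 : ∀ ρ, σ ≤ ρ → ρ ≤ ρ₀ → Ph μ F p h (10 * ρ) ≤ K * (10 * ρ) ^ n := by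
    intro ρ h2 h3
    have hρ0 : 0 < ρ := hσ.trans_le h2
    rcases le_total (10 * ρ) ρ₀ with h4 | h4
    · have h5 : f (10 * ρ) ≤ S := hmax ⟨by linarith, h4⟩
      rw [hf] at h5
      simp only at h5
      rw [div_le_iff₀ (by positivity)] at h5
      exact h5.trans (mul_le_mul_of_nonneg_right (le_max_left _ _) (by positivity))
    · calc Ph μ F p h (10 * ρ) ≤ m := Ph_le hc hg hμ hF hh hhc h0 _
        _ = m / ρ₀ ^ n * ρ₀ ^ n := by field_simp
        _ ≤ K * (10 * ρ) ^ n := by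
            gcongr
            exact le_max_right _ _
  have h2 : ∀ ρ, τ ≤ ρ → ρ ≤ ρ₀ → Ps c g μ F p h ρ ≤ K / (2 * ρ₀) * ρ ^ n := by
    intro ρ h3 h4
    have hρ0 : 0 < ρ := hτ0.trans_le h3
    refine (H ρ hρ0 h4).trans ?_
    calc (2 * 10 ^ n * ρ₀)⁻¹ * Ph μ F p h (10 * ρ)
        ≤ (2 * 10 ^ n * ρ₀)⁻¹ * (K * (10 * ρ) ^ n) :=
          mul_le_mul_of_nonneg_left (h1 ρ (hτ.1.trans h3) h4) (by positivity)
      _ = K / (2 * ρ₀) * ρ ^ n := by
          rw [mul_pow]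
          field_simp
  have h3 := ode hc hg hμ hF hh hhc h0 hi hτ0 hτ.2 h2
  have h4 : Ph μ F p h ρ₀ / ρ₀ ^ n ≤ m / ρ₀ ^ n := by
    gcongr
    exact Ph_le hc hg hμ hF hh hhc h0 _
  have h5 : K / (2 * ρ₀) * (ρ₀ - τ) ≤ K / 2 := by
    calc K / (2 * ρ₀) * (ρ₀ - τ) ≤ K / (2 * ρ₀) * ρ₀ := by
          gcongr
          linarith
      _ = K / 2 := by field_simp
  have h6 : S ≤ m / ρ₀ ^ n + K / 2 := by
    have : S = Ph μ F p h τ / τ ^ n := rfl
    rw [this]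
    linarith
  have h7 : f σ ≤ S := hmax ⟨le_rfl, hσρ⟩
  have h8 : 0 ≤ m / ρ₀ ^ n := by positivity
  have h9 : S ≤ 2 * m / ρ₀ ^ n := by
    have e : 2 * m / ρ₀ ^ n = 2 * (m / ρ₀ ^ n) := by ring
    rw [e]
    rcases le_total S (m / ρ₀ ^ n) with h10 | h10
    · linarith
    · rw [hK, max_eq_left h10] at h6
      linarith
  exact h7.trans h9

end

end Vale.Agent.P223.H620.Im
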