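import Vale.Agent.P223.H620.ImM3
import Vale.Agent.P223.H391.Wb

/-! Isometric immersions into `ℝ^N`: the density at a point. -/

namespace Vale.Agent.P223.H620.Im

open scoped ContDiff Topology Matrix ENNReal
open MeasureTheory Set Filter Vale.Agent.P223.H Vale.Agent.P223.X Vale.Agent.P223.H566
open Vale.Agent.P223.H440.NL (qlow bil_nonneg continuous_bil)

section
variable {n N : ℕ} {X : Type} [TopologicalSpace X] {c : X → J.Ch n X} {g : X → J.Mtx n}
  {F : Fin N → X → ℝ}

theorem fd_pd (f : J.E n → ℝ) (x w : J.E n) : fderiv ℝ f x w = ∑ a, J.pd a f x * w a := by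
  conv_lhs => rw [pi_eq_sum_univ' w]
  rw [map_sum]
  refine Finset.sum_congr rfl fun a _ => ?_
  rw [map_smul, smul_eq_mul, mul_comm]
  rfl

/-- near a point -/
theorem Rf_near (hc : J.Atl c) (hg : J.Met c g) (hF : ∀ k, J.Sm c (F k)) (x : X)
    (hi : J.IsoAt c g F x) : ∀ᶠ w in 𝓝 (0 : J.E n), c x x + w ∈ (c x).target ∧
      Rf F (fun k => F k x) ((c x).symm (c x x + w)) ≤ 4 * J.bil (g x (c x x)) w w := by
  obtain ⟨δ, hδ, hq⟩ := qlow (JB.posDef hc hg x)
  have h1 : ∀ᶠ w in 𝓝 (0 : J.E n), c x x + w ∈ (c x).target := by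
    have h2 : ContinuousAt (fun w : J.E n => c x x + w) 0 :=
      (continuous_const.add continuous_id).continuousAt
    refine h2.eventually_mem ?_
    rw [add_zero]
    exact (c x).open_target.mem_nhds (JB.mem_tgt hc x)
  set ε : ℝ := √(δ / (N + 1)) with hε
  have hε0 : 0 < ε := Real.sqrt_pos.2 (by positivity)
  have hε2 : N * ε ^ 2 ≤ δ := by
    rw [hε, Real.sq_sqrt (by positivity), mul_div_assoc']
    rw [div_le_iff₀ (by positivity)]
    nlinarith
  have h3 : ∀ k, ∀ᶠ w in 𝓝 (0 : J.E n), |F k ((c x).symm (c x x + w)) - F k x -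
      ∑ a, J.pd a (fun y => F k ((c x).symm y)) (c x x) * w a| ≤ ε * ‖w‖ := by
    intro k
    have h4 := (JB.sm_diff hc (hF k) x).hasFDerivAt
    rw [hasFDerivAt_iff_isLittleO_nhds_zero] at h4
    filter_upwards [h4.def hε0] with w hw
    rw [fd_pd, (c x).left_inv (hc x).1] at hw
    exact hw
  filter_upwards [h1, eventually_all.2 h3] with w hw hw3
  refine ⟨hw, ?_⟩
  set D : Fin N → Fin n → ℝ := fun k a => J.pd a (fun y => F k ((c x).symm y)) (c x x) with hD
  have h5 : ∑ k, (∑ a, D k a * w a) ^ 2 = J.bil (g x (c x x)) w w := by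
    unfold J.bil
    have h6 : ∀ k, (∑ a, D k a * w a) ^ 2 = ∑ i, ∑ j, D k i * D k j * w i * w j := by
      intro k
      rw [sq, Finset.sum_mul_sum]
      exact Finset.sum_congr rfl fun i _ => Finset.sum_congr rfl fun j _ => by ring
    simp only [h6]
    rw [Finset.sum_comm]
    refine Finset.sum_congr rfl fun i _ => ?_
    rw [Finset.sum_comm]
    refine Finset.sum_congr rfl fun j _ => ?_
    rw [← Finset.sum_mul, ← Finset.sum_mul, ← hi i j]
    simp only [hD]
    ring
  have h6 : ∀ k, (F k ((c x).symm (c x x + w)) - F k x) ^ 2 ≤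
      2 * (∑ a, D k a * w a) ^ 2 + 2 * (ε * ‖w‖) ^ 2 := by
    intro k
    have h7 := sq_le_sq' (abs_le.1 (hw3 k)).1 (abs_le.1 (hw3 k)).2
    have h8 := sq_nonneg (F k ((c x).symm (c x x + w)) - F k x - 2 * ∑ a, D k a * w a)
    simp only [hD] at h8 ⊢
    nlinarith
  calc Rf F (fun k => F k x) ((c x).symm (c x x + w))
      ≤ ∑ k, (2 * (∑ a, D k a * w a) ^ 2 + 2 * (ε * ‖w‖) ^ 2) :=
        Finset.sum_le_sum fun k _ => h6 k
    _ = 2 * J.bil (g x (c x x)) w w + 2 * (N * ε ^ 2 * ‖w‖ ^ 2) := by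
        rw [Finset.sum_add_distrib, ← Finset.mul_sum, h5]
        simp
        ring
    _ ≤ 2 * J.bil (g x (c x x)) w w + 2 * (δ * ‖w‖ ^ 2) := by gcongr
    _ ≤ 4 * J.bil (g x (c x x)) w w := by
        have := hq w
        linarith

end

/-- the density at a point -/
theorem den (n : ℕ) : ∃ c' : ℝ, 0 < c' ∧ ∀ (N : ℕ) (X : Type) [TopologicalSpace X]
    [MeasurableSpace X] [BorelSpace X] (μ : Measure X) (c : X → J.Ch n X)
    (g : X → J.Mtx n) (F : Fin N → X → ℝ) (x : X), J.Atl c → J.Met c g → J.Vol c g μ →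
    (∀ k, J.Sm c (F k)) → J.IsoAt c g F x →
    ∀ Ω : Set X, IsOpen Ω → x ∈ Ω → ∀ η : ℝ, 0 < η → ∃ s, 0 < s ∧ s < η ∧
      ENNReal.ofReal (c' * s ^ n) ≤ μ (Ω ∩ {q | Rf F (fun k => F k x) q < s ^ 2}) := by
  set V := (volume (H765.Den.ub n)).toReal with hV
  have hV0 : 0 < V := ENNReal.toReal_pos H765.Den.ub_pos.ne' H765.Den.ub_ne_top
  refine ⟨V / 2 ^ (n + 1), by positivity, ?_⟩
  intro N X _ _ _ μ c g F x hc hg hμ hF hi Ω hΩ hx η hη
  set A := g x (c x x) with hA
  have hAp : A.PosDef := JB.posDef hc hg x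
  have hAd : 0 < √A.det := Real.sqrt_pos.2 hAp.det_pos
  have hW := Rf_near hc hg hF x hi
  have hadd : ContinuousAt (fun w : J.E n => c x x + w) 0 :=
    (continuous_const.add continuous_id).continuousAt
  have e1 : ∀ᶠ w in 𝓝 (0 : J.E n), (c x).symm (c x x + w) ∈ Ω := by
    have h1 : ContinuousAt (fun w : J.E n => (c x).symm (c x x + w)) 0 := by
      refine ContinuousAt.comp (g := (c x).symm) ?_ hadd
      rw [add_zero]
      exact (c x).continuousAt_symm (JB.mem_tgt hc x)
    refine h1.eventually_mem (hΩ.mem_nhds ?_)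
    rw [add_zero, (c x).left_inv (hc x).1]
    exact hx
  have e2 : ∀ᶠ w in 𝓝 (0 : J.E n), √A.det / 2 < √(g x (c x x + w)).det := by
    have h1 : ContinuousAt (fun y => √(g x y).det) (c x x) := by
      have h4 : ContinuousAt (fun y => g x y) (c x x) :=
        continuousAt_pi.2 fun i => continuousAt_pi.2 fun j =>
          (JB.smooth_chart hg (JB.mem_tgt hc x) i j).continuousAt
      exact Real.continuous_sqrt.continuousAt.comp
        ((Continuous.matrix_det continuous_id).continuousAt.comp h4)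
    have h2 : ContinuousAt (fun w : J.E n => √(g x (c x x + w)).det) 0 := by
      refine ContinuousAt.comp (g := fun y => √(g x y).det) ?_ hadd
      rwa [add_zero]
    refine h2.eventually_const_lt ?_
    simp only [add_zero]
    linarith
  obtain ⟨δ, hδ, hδW⟩ := H765.Den.bA_small hAp (W := {w | (c x x + w ∈ (c x).target ∧
      Rf F (fun k => F k x) ((c x).symm (c x x + w)) ≤ 4 * J.bil (g x (c x x)) w w) ∧
      (c x).symm (c x x + w) ∈ Ω ∧ √A.det / 2 < √(g x (c x x + w)).det})
    (by filter_upwards [hW, e1, e2] with w h1 h2 h3 using ⟨h1, h2, h3⟩)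
  obtain ⟨s, hs0, hs1⟩ : ∃ s, 0 < s ∧ s < min δ η := exists_between (lt_min hδ hη)
  have hsδ : s / 2 ≤ δ := by
    have := hs1.le.trans (min_le_left _ _)
    linarith
  refine ⟨s, hs0, hs1.trans_le (min_le_right _ _), ?_⟩
  have hB := hδW (s / 2) (by positivity) hsδ
  set B := H765.Den.bA A (s / 2) with hBd
  have hbm : MeasurableSet B := by
    refine (isOpen_lt ?_ continuous_const).measurableSet
    exact continuous_bil A
  set B' : Set (J.E n) := (fun y => y - c x x) ⁻¹' B with hB'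
  have hb'm : MeasurableSet B' := (measurable_id.sub_const _) hbm
  have hB'mem : ∀ y ∈ B', y - c x x ∈ B := fun y hy => hy
  have h1 : (c x).symm '' B' ⊆ Ω ∩ {q | Rf F (fun k => F k x) q < s ^ 2} := by
    rintro _ ⟨y, hy, rfl⟩
    have hy' := hB (hB'mem y hy)
    have h2 := hy'.1.2
    have h3 := hy'.2.1
    rw [add_sub_cancel] at h2 h3
    refine ⟨h3, lt_of_le_of_lt h2 ?_⟩
    have h4 : J.bil A (y - c x x) (y - c x x) < (s / 2) ^ 2 := hB'mem y hy
    have h5 : 4 * (s / 2) ^ 2 = s ^ 2 := by ring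
    rw [← h5]
    linarith
  refine le_trans ?_ (measure_mono h1)
  rw [hμ x B' (fun y hy => by
    have := (hB (hB'mem y hy)).1.1
    rwa [add_sub_cancel] at this) hb'm]
  have hvol : volume B' = volume B := by
    rw [hB']
    simp only [sub_eq_add_neg]
    exact measure_preimage_add_right volume (-c x x) B
  calc ENNReal.ofReal (V / 2 ^ (n + 1) * s ^ n)
      = ENNReal.ofReal (1 / 2) * (ENNReal.ofReal ((s / 2) ^ n) * volume (H765.Den.ub n)) := by
        rw [← ENNReal.ofReal_toReal (H765.Den.ub_ne_top (n := n)), ← hV,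
          ← ENNReal.ofReal_mul (by positivity), ← ENNReal.ofReal_mul (by norm_num)]
        congr 1
        rw [div_pow, pow_succ]
        field_simp
    _ = ∫⁻ _ in B', ENNReal.ofReal (√A.det / 2) := by
        rw [setLIntegral_const, hvol, ← H765.Den.vol_bA hAp (by positivity : 0 < s / 2),
          ← mul_assoc, ← ENNReal.ofReal_mul (by norm_num)]
        congr 2
        ring
    _ ≤ ∫⁻ y in B', ENNReal.ofReal √(g x y).det := by
        refine setLIntegral_mono' hb'm fun y hy => ENNReal.ofReal_le_ofReal ?_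
        have := (hB (hB'mem y hy)).2.2
        rw [add_sub_cancel] at this
        exact this.le

end Vale.Agent.P223.H620.Im
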