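import Vale.Agent.P223.H620.ImM4
import Mathlib.MeasureTheory.Covering.Vitali

/-! Isometric immersions into `ℝ^N`: the covering argument. -/

namespace Vale.Agent.P223.H620.Im

open scoped ContDiff Topology Matrix ENNReal
open MeasureTheory Set Filter Vale.Agent.P223.H Vale.Agent.P223.X Vale.Agent.P223.H566

section
variable {n N : ℕ} {X : Type} [TopologicalSpace X] {c : X → J.Ch n X} {g : X → J.Mtx n}
  {F : Fin N → X → ℝ} {h : X → ℝ}
variable [MeasurableSpace X] [BorelSpace X] {μ : Measure X}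

theorem int_wt (hc : J.Atl c) (hg : J.Met c g) (hμ : J.Vol c g μ)
    (hF : ∀ k, J.Sm c (F k)) (hh : J.Sm c h) (hhc : HasCompactSupport h) :
    Integrable (wt c g F h) μ :=
  int_of hc hg hμ hhc (cont_wt hc hg hF hh) fun _ hq => wt_zero hc hq

/-- a good radius -/
theorem lem2 [T2Space X] (hc : J.Atl c) (hg : J.Met c g) (hμ : J.Vol c g μ)
    (hF : ∀ k, J.Sm c (F k)) (hh : J.Sm c h) (hhc : HasCompactSupport h)
    (h0 : ∀ q, 0 ≤ h q) (hi : ∀ q ∈ tsupport h, J.IsoAt c g F q) {q₀ : X} (hq₀ : 1 ≤ h q₀)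
    {c' : ℝ} (hden : ∀ Ω : Set X, IsOpen Ω → q₀ ∈ Ω → ∀ η : ℝ, 0 < η → ∃ s, 0 < s ∧
      s < η ∧ ENNReal.ofReal (c' * s ^ n) ≤ μ (Ω ∩ {q | Rf F (fun k => F k q₀) q < s ^ 2}))
    {ρ₀ : ℝ} (hρ₀ : 0 < ρ₀) (hm : 2 ^ (n + 2) * ∫ q, h q ∂μ < c' * ρ₀ ^ n) :
    ∃ ρ, 0 < ρ ∧ ρ ≤ ρ₀ ∧ ∫ q in {q | Rf F (fun k => F k q₀) q ≤ (5 * ρ) ^ 2}, h q ∂μ ≤
      2 * 10 ^ n * ρ₀ * ∫ q in {q | Rf F (fun k => F k q₀) q ≤ ρ ^ 2}, wt c g F h q ∂μ := by
  by_contra hcon
  push Not at hcon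
  set p : Fin N → ℝ := fun k => F k q₀ with hp
  have hRc : Continuous (Rf F p) := JB.sm_cont hc (sm_Rf (c := c) hF p)
  have hhc' := JB.sm_cont hc hh
  have hmS : ∀ r : ℝ, MeasurableSet {q | Rf F p q ≤ r} := fun r =>
    (isClosed_le hRc continuous_const).measurableSet
  have cz : ∀ ρ : ℝ, Continuous fun q => ze (Rf F p q / ρ ^ 2) := fun ρ =>
    ze_contDiff.continuous.comp (hRc.div_const _)
  have H : ∀ ρ, 0 < ρ → ρ ≤ ρ₀ → Ps c g μ F p h ρ ≤
      (2 * 10 ^ n * ρ₀)⁻¹ * Ph μ F p h (10 * ρ) := by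
    intro ρ hρ hρ'
    have h1 := (hcon ρ hρ hρ').le
    have h2 : Ps c g μ F p h ρ ≤ ∫ q in {q | Rf F p q ≤ ρ ^ 2}, wt c g F h q ∂μ := by
      rw [← integral_indicator (hmS _)]
      refine integral_mono (int_of hc hg hμ hhc ((cz ρ).mul (cont_wt hc hg hF hh))
        fun q hq => by rw [wt_zero hc hq, mul_zero])
        ((int_wt hc hg hμ hF hh hhc).indicator (hmS _)) fun q => ?_
      by_cases hq : Rf F p q ≤ ρ ^ 2
      · rw [indicator_of_mem (show q ∈ {q | Rf F p q ≤ ρ ^ 2} from hq)]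
        exact mul_le_of_le_one_left (wt_nonneg h0 q) (ze_le_one _)
      · rw [indicator_of_notMem (show q ∉ {q | Rf F p q ≤ ρ ^ 2} from hq)]
        push Not at hq
        have : ze (Rf F p q / ρ ^ 2) = 0 := ze_zero (by
          rw [le_div_iff₀ (by positivity)]; linarith)
        simp only [this, zero_mul, le_refl]
    have h3 : ∫ q in {q | Rf F p q ≤ (5 * ρ) ^ 2}, h q ∂μ ≤ Ph μ F p h (10 * ρ) := by
      rw [← integral_indicator (hmS _)]
      refine integral_mono ((int_h hc hg hμ hh hhc).indicator (hmS _))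
        (int_hz hc hg hμ hF hh hhc _) fun q => ?_
      by_cases hq : Rf F p q ≤ (5 * ρ) ^ 2
      · rw [indicator_of_mem (show q ∈ {q | Rf F p q ≤ (5 * ρ) ^ 2} from hq)]
        have : ze (Rf F p q / (10 * ρ) ^ 2) = 1 := ze_one (by
          rw [div_le_iff₀ (by positivity)]
          refine hq.trans (le_of_eq ?_)
          ring)
        simp only [this, mul_one, le_refl]
      · rw [indicator_of_notMem (show q ∉ {q | Rf F p q ≤ (5 * ρ) ^ 2} from hq)]
        exact mul_nonneg (h0 q) (ze_nonneg _)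
    rw [← div_eq_inv_mul, le_div_iff₀ (by positivity)]
    calc Ps c g μ F p h ρ * (2 * 10 ^ n * ρ₀) = 2 * 10 ^ n * ρ₀ * Ps c g μ F p h ρ := by ring
      _ ≤ 2 * 10 ^ n * ρ₀ * ∫ q in {q | Rf F p q ≤ ρ ^ 2}, wt c g F h q ∂μ := by gcongr
      _ ≤ _ := h1.trans h3
  set Ω : Set X := {q | 1 / 2 < h q} with hΩ
  have hΩo : IsOpen Ω := isOpen_lt continuous_const hhc'
  obtain ⟨s, hs0, hs1, hs⟩ := hden Ω hΩo (by
    change 1 / 2 < h q₀
    linarith) (ρ₀ / 2) (by positivity)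
  have h1 := growth hc hg hμ hF hh hhc h0 hi hρ₀ H (σ := 2 * s) (by positivity) (by linarith)
  have h2 : μ (Ω ∩ {q | Rf F p q < s ^ 2}) ≤ ENNReal.ofReal (2 * Ph μ F p h (2 * s)) := by
    have h3 : Integrable (fun q => 2 * (h q * ze (Rf F p q / (2 * s) ^ 2))) μ :=
      (int_hz hc hg hμ hF hh hhc (2 * s)).const_mul 2
    have h4 : 2 * Ph μ F p h (2 * s) = ∫ q, 2 * (h q * ze (Rf F p q / (2 * s) ^ 2)) ∂μ := by
      rw [integral_const_mul]; rfl
    rw [h4, ofReal_integral_eq_lintegral_ofReal h3 (ae_of_all _ fun q =>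
      mul_nonneg zero_le_two (mul_nonneg (h0 q) (ze_nonneg _)))]
    have hms : MeasurableSet (Ω ∩ {q | Rf F p q < s ^ 2}) :=
      hΩo.measurableSet.inter (isOpen_lt hRc continuous_const).measurableSet
    calc μ (Ω ∩ {q | Rf F p q < s ^ 2}) = ∫⁻ _ in Ω ∩ {q | Rf F p q < s ^ 2}, 1 ∂μ := by
          rw [setLIntegral_const, one_mul]
      _ ≤ ∫⁻ q in Ω ∩ {q | Rf F p q < s ^ 2},
          ENNReal.ofReal (2 * (h q * ze (Rf F p q / (2 * s) ^ 2))) ∂μ := by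
          refine setLIntegral_mono' hms fun q hq => ?_
          have h5 : 1 / 2 < h q := hq.1
          have h6 : Rf F p q < s ^ 2 := hq.2
          have : ze (Rf F p q / (2 * s) ^ 2) = 1 := ze_one (by
            rw [div_le_iff₀ (by positivity)]
            refine h6.le.trans (le_of_eq ?_)
            ring)
          rw [this, mul_one, ← ENNReal.ofReal_one]
          exact ENNReal.ofReal_le_ofReal (by linarith)
      _ ≤ _ := setLIntegral_le_lintegral _ _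
  have hPh := Ph_nonneg (μ := μ) (F := F) (p := p) h0 (2 * s)
  have h3 : c' * s ^ n ≤ 2 * Ph μ F p h (2 * s) :=
    (ENNReal.ofReal_le_ofReal_iff (by positivity)).1 (hs.trans h2)
  rw [div_le_div_iff₀ (by positivity) (by positivity)] at h1
  set m := ∫ q, h q ∂μ with hmd
  have h4 : c' * s ^ n * ρ₀ ^ n ≤ 2 * (2 * m * (2 * s) ^ n) := by
    calc c' * s ^ n * ρ₀ ^ n ≤ 2 * Ph μ F p h (2 * s) * ρ₀ ^ n := by gcongr
      _ = 2 * (Ph μ F p h (2 * s) * ρ₀ ^ n) := by ring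
      _ ≤ _ := by linarith
  have h5 : 2 * (2 * m * (2 * s) ^ n) = 2 ^ (n + 2) * m * s ^ n := by
    rw [mul_pow, pow_add]; ring
  rw [h5] at h4
  have h6 : c' * s ^ n * ρ₀ ^ n = c' * ρ₀ ^ n * s ^ n := by ring
  rw [h6] at h4
  have h7 := le_of_mul_le_mul_right h4 (by positivity)
  linarith

/-- the covering argument -/
theorem cover [T2Space X] (hc : J.Atl c) (hg : J.Met c g) (hμ : J.Vol c g μ)
    (hF : ∀ k, J.Sm c (F k)) (hh : J.Sm c h) (hhc : HasCompactSupport h)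
    (h0 : ∀ q, 0 ≤ h q) (hi : ∀ q ∈ tsupport h, J.IsoAt c g F q)
    {c' : ℝ} (hden : ∀ q₀ ∈ tsupport h, ∀ Ω : Set X, IsOpen Ω → q₀ ∈ Ω → ∀ η : ℝ, 0 < η →
      ∃ s, 0 < s ∧ s < η ∧
        ENNReal.ofReal (c' * s ^ n) ≤ μ (Ω ∩ {q | Rf F (fun k => F k q₀) q < s ^ 2}))
    {ρ₀ : ℝ} (hρ₀ : 0 < ρ₀) (hm : 2 ^ (n + 2) * ∫ q, h q ∂μ < c' * ρ₀ ^ n) :
    μ {q | 1 ≤ h q} ≤ ENNReal.ofReal (2 * 10 ^ n * ρ₀) *
      ∫⁻ q, ENNReal.ofReal (wt c g F h q) ∂μ := by
  have hhc' := JB.sm_cont hc hh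
  set T : Set X := {q | 1 ≤ h q} with hT
  have hTm : MeasurableSet T := (isClosed_le continuous_const hhc').measurableSet
  have hTs : ∀ q ∈ T, q ∈ tsupport h := fun q hq => subset_tsupport h (by
    intro h'
    have : 1 ≤ h q := hq
    rw [h'] at this
    linarith)
  have key : ∀ q ∈ T, ∃ ρ, 0 < ρ ∧ ρ ≤ ρ₀ ∧
      ∫ z in {z | Rf F (fun k => F k q) z ≤ (5 * ρ) ^ 2}, h z ∂μ ≤
      2 * 10 ^ n * ρ₀ * ∫ z in {z | Rf F (fun k => F k q) z ≤ ρ ^ 2}, wt c g F h z ∂μ :=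
    fun q hq => lem2 hc hg hμ hF hh hhc h0 hi hq (hden q (hTs q hq)) hρ₀ hm
  choose! ρ hρ0 hρ1 hρ2 using key
  set Φ : X → EuclideanSpace ℝ (Fin N) := fun q => WithLp.toLp 2 (fun k => F k q) with hΦ
  have hball : ∀ (q : X) (r : ℝ), 0 ≤ r →
      Φ ⁻¹' Metric.closedBall (Φ q) r = {z | Rf F (fun k => F k q) z ≤ r ^ 2} := by
    intro q r hr
    ext z
    rw [mem_preimage, Metric.mem_closedBall, EuclideanSpace.dist_eq]
    simp only [mem_ofPred_eq, hΦ, Rf, Real.dist_eq, sq_abs]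
    exact ⟨fun h => by rwa [Real.sqrt_le_left hr] at h, fun h => by rwa [Real.sqrt_le_left hr]⟩
  obtain ⟨U, hUT, hUd, hUc⟩ := Vitali.exists_disjoint_subfamily_covering_enlargement_closedBall
    T Φ ρ ρ₀ hρ1 5 (by norm_num)
  have hUcount : U.Countable := hUd.countable_of_nonempty_interior fun q hq =>
    ⟨Φ q, Metric.ball_subset_interior_closedBall (Metric.mem_ball_self (hρ0 q (hUT hq)))⟩
  set A : X → Set X := fun q => {z | Rf F (fun k => F k q) z ≤ ρ q ^ 2} with hA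
  set A' : X → Set X := fun q => {z | Rf F (fun k => F k q) z ≤ (5 * ρ q) ^ 2} with hA'
  have hRc : ∀ q, Continuous (Rf F (fun k => F k q)) := fun q =>
    JB.sm_cont hc (sm_Rf (c := c) hF _)
  have hAm : ∀ q, MeasurableSet (A q) := fun q =>
    (isClosed_le (hRc q) continuous_const).measurableSet
  have hAm' : ∀ q, MeasurableSet (A' q) := fun q =>
    (isClosed_le (hRc q) continuous_const).measurableSet
  have hcov : T ⊆ ⋃ q ∈ U, A' q := by
    intro z hz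
    obtain ⟨b, hb, hzb⟩ := hUc z hz
    refine mem_biUnion hb ?_
    have h1 : z ∈ Φ ⁻¹' Metric.closedBall (Φ b) (5 * ρ b) :=
      hzb (Metric.mem_closedBall_self (hρ0 z hz).le)
    rwa [hball b _ (by have := hρ0 b (hUT hb); positivity)] at h1
  have hAd : U.PairwiseDisjoint A := by
    intro a ha b hb hab
    have h1 := (hUd ha hb hab).preimage Φ
    change Disjoint (A a) (A b)
    simp only [hA]
    rw [← hball a _ (hρ0 a (hUT ha)).le, ← hball b _ (hρ0 b (hUT hb)).le]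
    exact h1
  set ν₁ := μ.withDensity fun q => ENNReal.ofReal (h q) with hν₁
  set ν₂ := μ.withDensity fun q => ENNReal.ofReal (wt c g F h q) with hν₂
  have hone : ∀ q ∈ U, ν₁ (A' q) ≤ ENNReal.ofReal (2 * 10 ^ n * ρ₀) * ν₂ (A q) := by
    intro q hq
    have h1 := hρ2 q (hUT hq)
    rw [hν₁, hν₂, withDensity_apply _ (hAm' q), withDensity_apply _ (hAm q),
      ← ofReal_integral_eq_lintegral_ofReal (int_h hc hg hμ hh hhc).integrableOn
        (ae_of_all _ h0),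
      ← ofReal_integral_eq_lintegral_ofReal (int_wt hc hg hμ hF hh hhc).integrableOn
        (ae_of_all _ (wt_nonneg h0)), ← ENNReal.ofReal_mul (by positivity)]
    exact ENNReal.ofReal_le_ofReal h1
  have hT1 : μ T ≤ ν₁ T := by
    rw [hν₁, withDensity_apply _ hTm]
    calc μ T = ∫⁻ _ in T, 1 ∂μ := by rw [setLIntegral_const, one_mul]
      _ ≤ _ := setLIntegral_mono' hTm fun q hq => by
          rw [← ENNReal.ofReal_one]
          exact ENNReal.ofReal_le_ofReal hq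
  calc μ T ≤ ν₁ T := hT1
    _ ≤ ν₁ (⋃ q ∈ U, A' q) := measure_mono hcov
    _ ≤ ∑' q : U, ν₁ (A' q) := measure_biUnion_le _ hUcount _
    _ ≤ ∑' q : U, ENNReal.ofReal (2 * 10 ^ n * ρ₀) * ν₂ (A q) :=
        ENNReal.tsum_le_tsum fun q => hone q q.2
    _ = ENNReal.ofReal (2 * 10 ^ n * ρ₀) * ∑' q : U, ν₂ (A q) := ENNReal.tsum_mul_left
    _ = ENNReal.ofReal (2 * 10 ^ n * ρ₀) * ν₂ (⋃ q ∈ U, A q) := by
        rw [measure_biUnion hUcount hAd fun q _ => hAm q]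
    _ ≤ ENNReal.ofReal (2 * 10 ^ n * ρ₀) * ν₂ univ := by
        gcongr
        exact subset_univ _
    _ = _ := by rw [hν₂, withDensity_apply _ MeasurableSet.univ, Measure.restrict_univ]

end

end Vale.Agent.P223.H620.Im
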