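import Vale.Agent.P223.H620.ImM5
import Vale.Agent.P223.H391.Wg

/-! From levels to the inequality of Sobolev. -/

namespace Vale.Agent.P223.H620.Im

open scoped ContDiff ENNReal NNReal Topology
open MeasureTheory Set Filter
open Vale.Agent.P223.H566 Vale.Agent.P223.H566.NV Vale.Agent.P223.H391.W

/-- From the levels to the inequality of Sobolev. -/
theorem levels {n : ℕ} (hn : 3 ≤ n) {X : Type} [TopologicalSpace X] [T2Space X]
    [MeasurableSpace X] [BorelSpace X] {μ : Measure X} {c : X → J.Ch n X} {g : X → J.Mtx n}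
    {u V : X → ℝ} {c₁ : ℝ} (hc₁ : 0 < c₁) (hc : J.Atl c) (hg : J.Met c g) (hμ : J.Vol c g μ)
    (hV : Continuous V) (hV0 : ∀ q, 0 ≤ V q) (hu : J.Sm c u) (huc : HasCompactSupport u)
    (hW : ∀ τ, 0 < τ → μ {q | τ / 2 < |u q|} ≤ ENNReal.ofReal 128 * μ {q | τ < |u q|} →
      ENNReal.ofReal c₁ * μ {q | τ < |u q|} ^ (((n : ℝ) - 2) / n) ≤
        ∫⁻ q, ENNReal.ofReal (En c g u V τ q) ∂μ) :
    c₁ / 1024 * (∫ q, |u q| ^ (2 * (n : ℝ) / (n - 2)) ∂μ) ^ (((n : ℝ) - 2) / n) ≤
      ∫ q, (J.gsq (g q) (fun x => u ((c q).symm x)) (c q q) + V q * u q ^ 2) ∂μ := by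
  have hn3 : (3 : ℝ) ≤ n := by exact_mod_cast hn
  set σ : ℝ := ((n : ℝ) - 2) / n with hσ
  set p : ℝ := 2 * (n : ℝ) / (n - 2) with hp
  have hσ0 : 0 < σ := div_pos (by linarith) (by linarith)
  have hσ1 : σ ≤ 1 := by rw [hσ, div_le_one (by linarith)]; linarith
  have hp0 : 0 < p := div_pos (by linarith) (by linarith)
  have hp1 : 1 ≤ p := by rw [hp, le_div_iff₀ (by linarith)]; linarith
  have hp6 : p ≤ 6 := by rw [hp, div_le_iff₀ (by linarith)]; linarith
  have hpσ : p * σ = 2 := by
    have h1 : (n : ℝ) - 2 ≠ 0 := by linarith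
    have h2 : (n : ℝ) ≠ 0 := by linarith
    rw [hσ, hp]
    field_simp
  have hlf := JB.locFin hc hg hμ
  have ucont := JB.sm_cont hc hu
  have gcont := JB.cont_grd hc hg hu
  -- the levels
  obtain ⟨T₀, hT₀⟩ := (huc : IsCompact (tsupport u)).exists_bound_of_continuousOn
    (f := u) ucont.continuousOn
  set T : ℝ := max T₀ 1 with hT
  have hT0 : 0 < T := lt_max_of_lt_right one_pos
  have huT : ∀ q, |u q| ≤ T := fun q => by
    by_cases hq : q ∈ tsupport u
    · exact (hT₀ q hq).trans (le_max_left _ _)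
    · rw [image_eq_zero_of_notMem_tsupport hq, abs_zero]; exact hT0.le
  set t : ℕ → ℝ := fun j => T / 2 ^ j with ht
  have ht0 : ∀ j, 0 < t j := fun j => by positivity
  have htS : ∀ j, t (j + 1) = t j / 2 := fun j => by simp only [ht]; rw [pow_succ, div_div]
  have hmS : ∀ j, MeasurableSet {q | t j < |u q|} := fun j =>
    measurableSet_lt measurable_const ucont.abs.measurable
  set a : ℕ → ℝ≥0∞ := fun j => μ {q | t j < |u q|} with ha
  set b : ℕ → ℝ≥0∞ := fun j => ENNReal.ofReal (t j ^ p) * a j with hb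
  set E : ℕ → ℝ≥0∞ := fun j => ENNReal.ofReal (t j ^ 2) *
    ∫⁻ q, ENNReal.ofReal (En c g u V (t j) q) ∂μ with hE
  set L : ℝ≥0∞ := ENNReal.ofReal c₁ with hL
  have hL0 : L ≠ 0 := (ENNReal.ofReal_pos.2 (by positivity)).ne'
  have hLt : L ≠ ⊤ := ENNReal.ofReal_ne_top
  -- one level
  have h1 : ∀ j, b j ≤ 2⁻¹ * b (j + 1) + (E j / L) ^ (1 / σ) := by
    intro j
    by_cases hM : μ {q | t j / 2 < |u q|} ≤ ENNReal.ofReal 128 * μ {q | t j < |u q|}
    · refine le_add_left ?_
      have h2 := hW (t j) (ht0 j) hM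
      have h3 : L * b j ^ σ ≤ E j := by
        calc L * b j ^ σ = ENNReal.ofReal (t j ^ 2) * (L * a j ^ σ) := by
              simp only [hb]
              rw [ENNReal.mul_rpow_of_nonneg _ _ hσ0.le, ENNReal.ofReal_rpow_of_pos
                (Real.rpow_pos_of_pos (ht0 j) _), ← Real.rpow_mul (ht0 j).le, hpσ,
                Real.rpow_two]
              ring
          _ ≤ E j := by
              simp only [hE]
              gcongr
      have h4 : b j ^ σ ≤ E j / L := by
        rw [ENNReal.le_div_iff_mul_le (Or.inl hL0) (Or.inl hLt), mul_comm]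
        exact h3
      calc b j = (b j ^ σ) ^ (1 / σ) := by
            rw [← ENNReal.rpow_mul, mul_one_div, div_self hσ0.ne', ENNReal.rpow_one]
        _ ≤ _ := by gcongr
    · refine le_add_right ?_
      push Not at hM
      have h2 : a (j + 1) = μ {q | t j / 2 < |u q|} := by simp only [ha, htS]
      have h3 : ENNReal.ofReal (t j ^ p) ≤ 64 * ENNReal.ofReal (t (j + 1) ^ p) := by
        have h4 : (64 : ℝ≥0∞) = ENNReal.ofReal 64 := by norm_num
        rw [h4, ← ENNReal.ofReal_mul (by norm_num)]
        refine ENNReal.ofReal_le_ofReal ?_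
        have h5 : t j = 2 * t (j + 1) := by rw [htS]; ring
        calc t j ^ p = 2 ^ p * t (j + 1) ^ p := by
              rw [h5, Real.mul_rpow zero_le_two (ht0 _).le]
          _ ≤ 2 ^ (6 : ℝ) * t (j + 1) ^ p := by
              have := Real.rpow_nonneg (ht0 (j + 1)).le p
              gcongr
              norm_num
          _ = 64 * t (j + 1) ^ p := by norm_num
      have h5 : a j ≤ 128⁻¹ * a (j + 1) := by
        rw [h2]
        have h6 : ENNReal.ofReal 128 = 128 := by norm_num
        rw [h6] at hM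
        calc a j = 128⁻¹ * (128 * a j) := by
              rw [← mul_assoc, ENNReal.inv_mul_cancel (by simp) (by simp), one_mul]
          _ ≤ _ := by gcongr
      calc b j = ENNReal.ofReal (t j ^ p) * a j := rfl
        _ ≤ 64 * ENNReal.ofReal (t (j + 1) ^ p) * (128⁻¹ * a (j + 1)) := by gcongr
        _ = (64 * 128⁻¹) * b (j + 1) := by simp only [hb]; ring
        _ = 2⁻¹ * b (j + 1) := by
          congr 1
          rw [show (128 : ℝ≥0∞) = 64 * 2 by norm_num,
            ENNReal.mul_inv (Or.inl (by simp)) (Or.inl (by simp)), ← mul_assoc,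
            ENNReal.mul_inv_cancel (by simp) (by simp), one_mul]
  -- the sum is finite
  have hKfin : μ (tsupport u) ≠ ⊤ := (huc : IsCompact (tsupport u)).measure_lt_top.ne
  have h2 : ∑' j, b j ≠ ⊤ := by
    have h3 : ∀ j, b j ≤ ENNReal.ofReal (T ^ p) * μ (tsupport u) * 2⁻¹ ^ j := by
      intro j
      have h4 : a j ≤ μ (tsupport u) := measure_mono fun q hq => subset_tsupport u (by
        intro h
        have h5 : t j < |u q| := hq
        rw [h, abs_zero] at h5
        linarith [ht0 j])
      have h5 : ENNReal.ofReal (t j ^ p) ≤ ENNReal.ofReal (T ^ p) * 2⁻¹ ^ j := by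
        have h6 : (2⁻¹ : ℝ≥0∞) ^ j = ENNReal.ofReal (1 / 2 ^ j) := by
          rw [one_div, ENNReal.ofReal_inv_of_pos (by positivity), ENNReal.ofReal_pow zero_le_two,
            ENNReal.inv_pow]
          norm_num
        rw [h6, ← ENNReal.ofReal_mul (by positivity)]
        refine ENNReal.ofReal_le_ofReal ?_
        simp only [ht]
        rw [Real.div_rpow hT0.le (by positivity), div_eq_mul_one_div]
        have h7 : (2 : ℝ) ^ j ≤ ((2 : ℝ) ^ j) ^ p := by
          have h8 : (1 : ℝ) ≤ 2 ^ j := one_le_pow₀ one_le_two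
          calc (2 : ℝ) ^ j = ((2 : ℝ) ^ j) ^ (1 : ℝ) := (Real.rpow_one _).symm
            _ ≤ _ := Real.rpow_le_rpow_of_exponent_le h8 hp1
        gcongr
      calc b j = ENNReal.ofReal (t j ^ p) * a j := rfl
        _ ≤ ENNReal.ofReal (T ^ p) * 2⁻¹ ^ j * μ (tsupport u) := by gcongr
        _ = _ := by ring
    refine ne_top_of_le_ne_top ?_ (ENNReal.tsum_le_tsum h3)
    rw [ENNReal.tsum_mul_left, ENNReal.tsum_geometric]
    refine ENNReal.mul_ne_top (ENNReal.mul_ne_top ENNReal.ofReal_ne_top hKfin) ?_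
    rw [ENNReal.one_sub_inv_two, inv_inv]
    simp
  have h3 := sum_lemma hσ0 hσ1 b (fun j => E j / L) h2 h1
  -- the mass
  have h4 : ∫⁻ q, ENNReal.ofReal (|u q| ^ p) ∂μ ≤ 64 * ∑' j, b j := by
    calc ∫⁻ q, ENNReal.ofReal (|u q| ^ p) ∂μ
        ≤ ∫⁻ q, 64 * ∑' j, {q | t j < |u q|}.indicator (fun _ => ENNReal.ofReal (t j ^ p)) q ∂μ := by
          refine lintegral_mono fun q => ?_
          refine (ptA (abs_nonneg _) (huT q) hp0 hp6).trans (le_of_eq ?_)
          congr 1
          refine tsum_congr fun j => ?_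
          by_cases hq : t j < |u q|
          · rw [indicator_of_mem (show q ∈ {q | t j < |u q|} from hq), if_pos hq, mul_one]
          · rw [indicator_of_notMem (show q ∉ {q | t j < |u q|} from hq), if_neg hq, mul_zero]
      _ = 64 * ∑' j, b j := by
          rw [lintegral_const_mul' _ _ (by simp), lintegral_tsum fun j =>
            (measurable_const.indicator (hmS j)).aemeasurable]
          congr 1
          refine tsum_congr fun j => ?_
          rw [lintegral_indicator (hmS j), setLIntegral_const]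
  -- the energy
  set W : X → ℝ := fun q => grd c g u q ^ 2 + V q * u q ^ 2 with hWd
  have hEm : ∀ τ, Measurable fun q => ENNReal.ofReal (En c g u V τ q) := by
    intro τ
    refine ENNReal.measurable_ofReal.comp ?_
    unfold En
    refine Measurable.add ?_ ?_
    · exact ((gcont.measurable.div_const τ).pow_const 2).indicator
        ((measurableSet_lt measurable_const ucont.abs.measurable).inter
          (measurableSet_le ucont.abs.measurable measurable_const))
    · exact hV.measurable.indicator (measurableSet_lt measurable_const ucont.abs.measurable)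
  have h5 : ∑' j, E j ≤ ∫⁻ q, ENNReal.ofReal (8 * W q) ∂μ := by
    have h6 : ∀ j, E j = ∫⁻ q, ENNReal.ofReal (trm T |u q| (grd c g u q ^ 2) (V q)
        0 j) ∂μ := by
      intro j
      have h7 : ∀ q, ENNReal.ofReal (trm T |u q| (grd c g u q ^ 2) (V q) 0 j) =
          ENNReal.ofReal (t j ^ 2) * ENNReal.ofReal (En c g u V (t j) q) := by
        intro q
        have h9 : En c g u V (t j) q = (if t j / 2 < |u q| ∧ |u q| ≤ t j then
            grd c g u q ^ 2 / t j ^ 2 else 0) + (if t j / 2 < |u q| then V q else 0) := by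
          unfold En
          simp only [indicator_apply, mem_ofPred_eq, div_pow]
        have h10 : 0 ≤ En c g u V (t j) q := by
          unfold En
          exact add_nonneg (indicator_nonneg (fun q _ => sq_nonneg _) q)
            (indicator_nonneg (fun q _ => hV0 q) q)
        rw [← ENNReal.ofReal_mul (by positivity), h9]
        unfold trm
        simp only [ite_self, add_zero]
        rfl
      simp only [h7]
      rw [lintegral_const_mul' _ _ ENNReal.ofReal_ne_top]
    have h6' : ∑' j, E j = ∫⁻ q, ∑' j, ENNReal.ofReal (trm T |u q| (grd c g u q ^ 2) (V q)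
        0 j) ∂μ := by
      rw [lintegral_tsum]
      · exact tsum_congr h6
      · intro j
        refine (ENNReal.measurable_ofReal.comp ?_).aemeasurable
        unfold trm
        have m1 : MeasurableSet {q | T / 2 ^ j / 2 < |u q|} :=
          measurableSet_lt measurable_const ucont.abs.measurable
        have m2 : MeasurableSet {q | |u q| ≤ T / 2 ^ j} :=
          measurableSet_le ucont.abs.measurable measurable_const
        exact (((Measurable.ite (m1.inter m2) ((gcont.measurable.pow_const 2).div_const _)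
          measurable_const).add (Measurable.ite m1 hV.measurable measurable_const)).add
            (Measurable.ite (hmS j) measurable_const measurable_const)).const_mul _
    rw [h6']
    refine lintegral_mono fun q => ?_
    refine (ptB (abs_nonneg _) (huT q) hT0 (sq_nonneg _) (hV0 q) le_rfl).trans
      (le_of_eq ?_)
    simp only [hWd, sq_abs, add_zero]
  -- the end
  have hWc : Continuous W := (gcont.pow 2).add (hV.mul (ucont.pow 2))
  have hW0 : ∀ q, 0 ≤ W q := fun q => by
    have := hV0 q
    positivity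
  have hgo : ∀ q, q ∉ tsupport u → grd c g u q = 0 := fun q hq => grd_zero hc hq
  have hWi : Integrable W μ := hWc.integrable_of_hasCompactSupport
    (HasCompactSupport.intro huc.isCompact fun q hq => by
      simp only [hWd, hgo q hq, image_eq_zero_of_notMem_tsupport hq]
      ring)
  have hPi : Integrable (fun q => |u q| ^ p) μ := by
    refine (ucont.abs.rpow_const fun q => Or.inr hp0.le).integrable_of_hasCompactSupport
      (HasCompactSupport.intro huc.isCompact fun q hq => ?_)
    rw [image_eq_zero_of_notMem_tsupport hq, abs_zero, Real.zero_rpow hp0.ne']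
  have h6 : L * (∫⁻ q, ENNReal.ofReal (|u q| ^ p) ∂μ) ^ σ ≤
      1024 * ∫⁻ q, ENNReal.ofReal (W q) ∂μ := by
    calc L * (∫⁻ q, ENNReal.ofReal (|u q| ^ p) ∂μ) ^ σ ≤ L * (64 * ∑' j, b j) ^ σ := by gcongr
      _ = L * (64 ^ σ * (∑' j, b j) ^ σ) := by rw [ENNReal.mul_rpow_of_nonneg _ _ hσ0.le]
      _ ≤ L * (64 ^ (1 : ℝ) * (2 * ∑' j, E j / L)) := by
          gcongr
          norm_num
      _ = L * (64 * (2 * (L⁻¹ * ∑' j, E j))) := by
          rw [ENNReal.rpow_one]
          simp only [ENNReal.div_eq_inv_mul]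
          rw [ENNReal.tsum_mul_left]
      _ = 128 * (L * L⁻¹ * ∑' j, E j) := by ring
      _ = 128 * ∑' j, E j := by rw [ENNReal.mul_inv_cancel hL0 hLt, one_mul]
      _ ≤ 128 * ∫⁻ q, ENNReal.ofReal (8 * W q) ∂μ := by gcongr
      _ = 128 * (8 * ∫⁻ q, ENNReal.ofReal (W q) ∂μ) := by
          congr 1
          rw [← lintegral_const_mul' _ _ (by simp)]
          refine lintegral_congr fun q => ?_
          rw [ENNReal.ofReal_mul (by norm_num)]
          norm_num
      _ = _ := by ring
  have hI0 : 0 ≤ ∫ q, |u q| ^ p ∂μ := integral_nonneg fun q => by positivity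
  rw [← ofReal_integral_eq_lintegral_ofReal hPi (ae_of_all _ fun q => by positivity),
    ← ofReal_integral_eq_lintegral_ofReal hWi (ae_of_all _ hW0),
    ENNReal.ofReal_rpow_of_nonneg hI0 hσ0.le, hL, ← ENNReal.ofReal_mul (by positivity),
    show (1024 : ℝ≥0∞) = ENNReal.ofReal 1024 by norm_num, ← ENNReal.ofReal_mul (by norm_num),
    ENNReal.ofReal_le_ofReal_iff (mul_nonneg (by norm_num) (integral_nonneg hW0))] at h6
  have h7 : ∫ q, (J.gsq (g q) (fun x => u ((c q).symm x)) (c q q) +
      V q * u q ^ 2) ∂μ = ∫ q, W q ∂μ := by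
    refine integral_congr_ae (ae_of_all _ fun q => ?_)
    simp only [hWd, gsq_eq hc hg]
  rw [h7]
  calc c₁ / 1024 * (∫ q, |u q| ^ p ∂μ) ^ σ
      = (c₁ * (∫ q, |u q| ^ p ∂μ) ^ σ) / 1024 := by ring
    _ ≤ _ := by
      rw [div_le_iff₀ (by norm_num)]
      linarith

end Vale.Agent.P223.H620.Im
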