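import Vale.Agent.P223.H620.ImM6

/-! The inequality of Michael and Simon in the form of Sobolev. -/

namespace Vale.Agent.P223.H620.Im

open scoped ContDiff ENNReal NNReal Topology
open MeasureTheory Set Filter
open Vale.Agent.P223.H566 Vale.Agent.P223.H566.NV Vale.Agent.P223.H391.W

/-- the pointwise bound -/
theorem wt_le {n N : ℕ} {X : Type} [TopologicalSpace X] {c : X → J.Ch n X} {g : X → J.Mtx n}
    {F : Fin N → X → ℝ} {u : X → ℝ} (hc : J.Atl c) (hu : J.Sm c u) {B : ℝ}
    (hB : ∀ x, |deriv Real.smoothTransition x| ≤ B) {τ lam : ℝ} (hτ : 0 < τ) (hlam : 0 < lam)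
    (q : X) : wt c g F (fun q => LocV.lev (τ / 2) (τ / 2) (u q)) q ≤
      {q | τ / 2 < |u q|}.indicator (fun _ => lam / 2) q +
        (8 * B ^ 2 + 2) / (2 * lam) * En c g u (J.hsq c g F) τ q := by
  have hB0 : 0 ≤ B := (abs_nonneg _).trans (hB 0)
  have hτ2 : 0 < τ / 2 := by positivity
  have hg0 := JB.grd_nonneg (c := c) (g := g) (u := u) q
  have hH := hsq_nonneg (c := c) (g := g) (F := F) q
  have h4 : HasDerivAt (LocV.lev (τ / 2) (τ / 2)) (deriv (LocV.lev (τ / 2) (τ / 2)) (u q))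
      (u q) := ((LocV.lev_smooth hτ2 hτ2).differentiable (by simp) _).hasDerivAt
  have h5 : grd c g (fun q => LocV.lev (τ / 2) (τ / 2) (u q)) q =
      |deriv (LocV.lev (τ / 2) (τ / 2)) (u q)| * grd c g u q := JB.grd_comp hc hu h4
  obtain ⟨h6, h7⟩ := LocV.lev_deriv hτ2 hτ2 hB (u q)
  have hee : τ / 2 + τ / 2 = τ := by ring
  rw [hee] at h7
  have hl1 := LocV.lev_le (τ / 2) (τ / 2) (u q)
  have hl0 := LocV.lev_nonneg (τ / 2) (τ / 2) (u q)
  unfold wt En
  rw [h5]
  by_cases hq : τ / 2 < |u q|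
  · rw [indicator_of_mem (show q ∈ {q | τ / 2 < |u q|} from hq),
      indicator_of_mem (show q ∈ {q | τ / 2 < |u q|} from hq)]
    set z : ℝ := if |u q| ≤ τ then grd c g u q / τ else 0 with hz
    have hz0 : 0 ≤ z := by
      rw [hz]
      split_ifs
      · positivity
      · exact le_rfl
    have h8 : {q | τ / 2 < |u q| ∧ |u q| ≤ τ}.indicator (fun q => (grd c g u q / τ) ^ 2) q =
        z ^ 2 := by
      by_cases h : |u q| ≤ τ
      · rw [indicator_of_mem (show q ∈ {q | τ / 2 < |u q| ∧ |u q| ≤ τ} from ⟨hq, h⟩), hz,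
          if_pos h]
      · rw [indicator_of_notMem (show q ∉ {q | τ / 2 < |u q| ∧ |u q| ≤ τ} from fun h' => h h'.2),
          hz, if_neg h]
        ring
    have h9 : |deriv (LocV.lev (τ / 2) (τ / 2)) (u q)| * grd c g u q ≤ 2 * B * z := by
      by_cases h : |u q| ≤ τ
      · rw [hz, if_pos h]
        calc |deriv (LocV.lev (τ / 2) (τ / 2)) (u q)| * grd c g u q ≤
            B / (τ / 2) * grd c g u q := by gcongr
          _ = _ := by field_simp
      · rw [h7 fun h' => h h'.2, abs_zero, zero_mul]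
        positivity
    have h10 : LocV.lev (τ / 2) (τ / 2) (u q) * √(J.hsq c g F q) ≤ √(J.hsq c g F q) :=
      mul_le_of_le_one_left (Real.sqrt_nonneg _) hl1
    rw [h8]
    set w := √(J.hsq c g F q) with hw
    have hw2 : w ^ 2 = J.hsq c g F q := Real.sq_sqrt hH
    rw [← hw2]
    have hw0 : 0 ≤ w := Real.sqrt_nonneg _
    have h11 : (2 * B * z + w) ^ 2 ≤ (8 * B ^ 2 + 2) * (z ^ 2 + w ^ 2) := by
      have := sq_nonneg (2 * B * z - w)
      have := mul_nonneg (sq_nonneg B) (sq_nonneg w)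
      nlinarith [sq_nonneg z]
    have h12 : 2 * B * z + w ≤ lam / 2 + (2 * B * z + w) ^ 2 / (2 * lam) := by
      have e : lam / 2 + (2 * B * z + w) ^ 2 / (2 * lam) - (2 * B * z + w) =
          (lam - (2 * B * z + w)) ^ 2 / (2 * lam) := by
        field_simp
        ring
      have : 0 ≤ (lam - (2 * B * z + w)) ^ 2 / (2 * lam) := by positivity
      linarith
    have h13 : (2 * B * z + w) ^ 2 / (2 * lam) ≤
        (8 * B ^ 2 + 2) / (2 * lam) * (z ^ 2 + w ^ 2) := by
      rw [div_mul_eq_mul_div]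
      gcongr
    linarith
  · have h8 : (fun q => LocV.lev (τ / 2) (τ / 2) (u q)) q = 0 :=
      LocV.lev_zero hτ2 (not_lt.1 hq)
    rw [h7 fun h => hq h.1, h8, indicator_of_notMem (show q ∉ {q | τ / 2 < |u q|} from hq),
      indicator_of_notMem (show q ∉ {q | τ / 2 < |u q|} from hq),
      indicator_of_notMem (show q ∉ {q | τ / 2 < |u q| ∧ |u q| ≤ τ} from fun h => hq h.1)]
    simp

/-- one level -/
theorem weakI (n : ℕ) (hn : 3 ≤ n) : ∃ c₁ : ℝ, 0 < c₁ ∧ ∀ (N : ℕ) (X : Type) [TopologicalSpace X]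
    [T2Space X] [MeasurableSpace X] [BorelSpace X] (μ : Measure X) (c : X → J.Ch n X)
    (g : X → J.Mtx n) (F : Fin N → X → ℝ) (u : X → ℝ), J.Atl c → J.Met c g → J.Vol c g μ →
    (∀ k, J.Sm c (F k)) → J.Sm c u → HasCompactSupport u →
    (∀ q ∈ tsupport u, J.IsoAt c g F q) → ∀ τ : ℝ, 0 < τ →
    μ {q | τ / 2 < |u q|} ≤ ENNReal.ofReal 128 * μ {q | τ < |u q|} →
    ENNReal.ofReal c₁ * μ {q | τ < |u q|} ^ (((n : ℝ) - 2) / n) ≤
      ∫⁻ q, ENNReal.ofReal (En c g u (J.hsq c g F) τ q) ∂μ := by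
  obtain ⟨B, hB0, hB⟩ := LocV.exists_bound
  obtain ⟨c', hc', hden⟩ := den n
  set C : ℝ := 8 * B ^ 2 + 2 with hC
  have hC0 : 0 < C := by positivity
  set K : ℝ := 2 ^ (n + 3) * 128 / c' with hK
  have hK0 : 0 < K := by positivity
  set D : ℝ := 512 * 100 ^ n * C with hD
  have hD0 : 0 < D := by positivity
  refine ⟨1 / (D * K ^ (2 / (n : ℝ))), by positivity, ?_⟩
  intro N X _ _ _ _ μ c g F u hc hg hμ hF hu huc hi τ hτ hM
  have hn3 : (3 : ℝ) ≤ n := by exact_mod_cast hn
  have hn0 : (0 : ℝ) < n := by linarith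
  have hσ : 0 < ((n : ℝ) - 2) / n := div_pos (by linarith) (by linarith)
  have hlf := JB.locFin hc hg hμ
  have ucont := JB.sm_cont hc hu
  set a := μ {q | τ < |u q|} with ha
  set E := ∫⁻ q, ENNReal.ofReal (En c g u (J.hsq c g F) τ q) ∂μ with hE
  rcases eq_or_ne a 0 with ha0 | ha0
  · rw [ha0, ENNReal.zero_rpow_of_pos hσ, mul_zero]
    exact zero_le
  rcases eq_or_ne E ⊤ with hEt | hEt
  · rw [hEt]; exact le_top
  have hsub : ∀ t : ℝ, 0 ≤ t → {q | t < |u q|} ⊆ tsupport u := fun t ht q hq =>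
    subset_tsupport u (by
      intro h
      have h5 : t < |u q| := hq
      rw [h, abs_zero] at h5
      linarith)
  have hKfin : μ (tsupport u) ≠ ⊤ := (huc : IsCompact (tsupport u)).measure_lt_top.ne
  have hat : a ≠ ⊤ := ne_top_of_le_ne_top hKfin (measure_mono (hsub τ hτ.le))
  set A := a.toReal with hA
  have hA0 : 0 < A := ENNReal.toReal_pos ha0 hat
  have haA : a = ENNReal.ofReal A := (ENNReal.ofReal_toReal hat).symm
  set R := E.toReal with hR
  have hR0 : 0 ≤ R := ENNReal.toReal_nonneg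
  have hER : E = ENNReal.ofReal R := (ENNReal.ofReal_toReal hEt).symm
  have hτ2 : 0 < τ / 2 := by positivity
  set h : X → ℝ := fun q => LocV.lev (τ / 2) (τ / 2) (u q) with hh
  have hhs : J.Sm c h := LocV.sm_comp (LocV.lev_smooth hτ2 hτ2) hu
  have h0 : ∀ q, 0 ≤ h q := fun q => LocV.lev_nonneg _ _ _
  have hle : ∀ q, h q ≤ 1 := fun q => LocV.lev_le _ _ _
  have hz : ∀ q, ¬ τ / 2 < |u q| → h q = 0 := fun q hq => LocV.lev_zero hτ2 (not_lt.1 hq)
  have hts : tsupport h ⊆ tsupport u := closure_minimal (fun q hq => hsub (τ / 2) hτ2.le (by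
    by_contra h'
    exact hq (hz q h'))) (isClosed_tsupport u)
  have hhc : HasCompactSupport h := (huc : IsCompact (tsupport u)).of_isClosed_subset
    (isClosed_tsupport _) hts
  have hhi : ∀ q ∈ tsupport h, J.IsoAt c g F q := fun q hq => hi q (hts hq)
  have hmS : MeasurableSet {q | τ / 2 < |u q|} :=
    measurableSet_lt measurable_const ucont.abs.measurable
  -- the mass of `h`
  have hm1 : ENNReal.ofReal (∫ q, h q ∂μ) ≤ ENNReal.ofReal (128 * A) := by
    rw [ofReal_integral_eq_lintegral_ofReal (int_h hc hg hμ hhs hhc) (ae_of_all _ h0)]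
    calc ∫⁻ q, ENNReal.ofReal (h q) ∂μ ≤
        ∫⁻ q, {q | τ / 2 < |u q|}.indicator (fun _ => 1) q ∂μ := by
          refine lintegral_mono fun q => ?_
          by_cases hq : τ / 2 < |u q|
          · rw [indicator_of_mem (show q ∈ {q | τ / 2 < |u q|} from hq), ← ENNReal.ofReal_one]
            exact ENNReal.ofReal_le_ofReal (hle q)
          · rw [indicator_of_notMem (show q ∉ {q | τ / 2 < |u q|} from hq), hz q hq,
              ENNReal.ofReal_zero]
      _ = μ {q | τ / 2 < |u q|} := by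
          rw [lintegral_indicator hmS, setLIntegral_const, one_mul]
      _ ≤ ENNReal.ofReal 128 * a := hM
      _ = _ := by rw [haA, ← ENNReal.ofReal_mul (by norm_num)]
  have hm2 : ∫ q, h q ∂μ ≤ 128 * A := (ENNReal.ofReal_le_ofReal_iff (by positivity)).1 hm1
  set ρ₀ : ℝ := (K * A) ^ (1 / (n : ℝ)) with hρ₀
  have hρ₀0 : 0 < ρ₀ := Real.rpow_pos_of_pos (by positivity) _
  have hρn : ρ₀ ^ n = K * A := by
    rw [hρ₀, ← Real.rpow_natCast, ← Real.rpow_mul (by positivity), one_div,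
      inv_mul_cancel₀ hn0.ne', Real.rpow_one]
  have hm : 2 ^ (n + 2) * ∫ q, h q ∂μ < c' * ρ₀ ^ n := by
    rw [hρn, hK]
    have e : c' * (2 ^ (n + 3) * 128 / c' * A) = 2 * (2 ^ (n + 2) * (128 * A)) := by
      field_simp
      ring
    rw [e]
    have h1 : 2 ^ (n + 2) * ∫ q, h q ∂μ ≤ 2 ^ (n + 2) * (128 * A) := by gcongr
    have h2 : 0 < 2 ^ (n + 2) * (128 * A) := by positivity
    linarith
  have hcov := cover hc hg hμ hF hhs hhc h0 hhi (c' := c')
    (fun q₀ hq₀ => hden N X μ c g F q₀ hc hg hμ hF (hhi q₀ hq₀)) hρ₀0 hm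
  have hsub1 : a ≤ μ {q | 1 ≤ h q} := measure_mono fun q hq => by
    have h1 : τ < |u q| := hq
    have h2 : h q = 1 := LocV.lev_one hτ2 (by linarith)
    change 1 ≤ h q
    rw [h2]
  set lam : ℝ := 1 / (256 * 10 ^ n * ρ₀) with hlam
  have hlam0 : 0 < lam := by positivity
  have hEn0 : ∀ q, 0 ≤ En c g u (J.hsq c g F) τ q := fun q => by
    unfold En
    exact add_nonneg (indicator_nonneg (fun q _ => sq_nonneg _) q)
      (indicator_nonneg (fun q _ => hsq_nonneg q) q)
  have hwt : ∫⁻ q, ENNReal.ofReal (wt c g F h q) ∂μ ≤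
      ENNReal.ofReal (lam / 2 * (128 * A) + C / (2 * lam) * R) := by
    calc ∫⁻ q, ENNReal.ofReal (wt c g F h q) ∂μ
        ≤ ∫⁻ q, ({q | τ / 2 < |u q|}.indicator (fun _ => ENNReal.ofReal (lam / 2)) q +
          ENNReal.ofReal (C / (2 * lam)) *
            ENNReal.ofReal (En c g u (J.hsq c g F) τ q)) ∂μ := by
          refine lintegral_mono fun q => ?_
          refine (ENNReal.ofReal_le_ofReal (wt_le hc hu hB hτ hlam0 q)).trans
            (le_of_eq ?_)
          rw [ENNReal.ofReal_add (indicator_nonneg (fun _ _ => by positivity) _)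
            (mul_nonneg (by positivity) (hEn0 q)), ENNReal.ofReal_mul (by positivity)]
          congr 1
          by_cases hq : τ / 2 < |u q|
          · rw [indicator_of_mem (show q ∈ {q | τ / 2 < |u q|} from hq),
              indicator_of_mem (show q ∈ {q | τ / 2 < |u q|} from hq)]
          · rw [indicator_of_notMem (show q ∉ {q | τ / 2 < |u q|} from hq),
              indicator_of_notMem (show q ∉ {q | τ / 2 < |u q|} from hq), ENNReal.ofReal_zero]
      _ = ENNReal.ofReal (lam / 2) * μ {q | τ / 2 < |u q|} + ENNReal.ofReal (C / (2 * lam)) * E := by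
          rw [lintegral_add_left (measurable_const.indicator hmS), lintegral_indicator hmS,
            setLIntegral_const, lintegral_const_mul' _ _ ENNReal.ofReal_ne_top]
      _ ≤ ENNReal.ofReal (lam / 2) * (ENNReal.ofReal 128 * a) +
          ENNReal.ofReal (C / (2 * lam)) * E := by gcongr
      _ = _ := by
          rw [haA, hER, ← ENNReal.ofReal_mul (by norm_num), ← ENNReal.ofReal_mul (by positivity),
            ← ENNReal.ofReal_mul (by positivity), ← ENNReal.ofReal_add (by positivity)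
              (by positivity)]
  have h1 : A ≤ 2 * 10 ^ n * ρ₀ * (lam / 2 * (128 * A) + C / (2 * lam) * R) := by
    have h2 : a ≤ ENNReal.ofReal (2 * 10 ^ n * ρ₀) *
        ENNReal.ofReal (lam / 2 * (128 * A) + C / (2 * lam) * R) := by
      refine (hsub1.trans hcov).trans ?_
      gcongr
    rw [haA, ← ENNReal.ofReal_mul (by positivity)] at h2
    exact (ENNReal.ofReal_le_ofReal_iff (by positivity)).1 h2
  have h2 : A ≤ D * ρ₀ ^ 2 * R := by
    have e : 2 * 10 ^ n * ρ₀ * (lam / 2 * (128 * A) + C / (2 * lam) * R) =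
        A / 2 + D / 2 * ρ₀ ^ 2 * R := by
      rw [hlam, hD]
      have e1 : (100 : ℝ) ^ n = 10 ^ n * 10 ^ n := by rw [← mul_pow]; norm_num
      rw [e1]
      field_simp
      ring
    rw [e] at h1
    linarith
  have h3 : ρ₀ ^ 2 = K ^ (2 / (n : ℝ)) * A ^ (2 / (n : ℝ)) := by
    rw [hρ₀, ← Real.rpow_natCast, ← Real.rpow_mul (by positivity),
      ← Real.mul_rpow hK0.le hA0.le]
    congr 1
    push_cast
    ring
  have h4 : A = A ^ (2 / (n : ℝ)) * A ^ (((n : ℝ) - 2) / n) := by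
    rw [← Real.rpow_add hA0]
    have : 2 / (n : ℝ) + ((n : ℝ) - 2) / n = 1 := by field_simp; ring
    rw [this, Real.rpow_one]
  have h5 : A ^ (((n : ℝ) - 2) / n) ≤ D * K ^ (2 / (n : ℝ)) * R := by
    have h6 : 0 < A ^ (2 / (n : ℝ)) := Real.rpow_pos_of_pos hA0 _
    refine le_of_mul_le_mul_left ?_ h6
    rw [← h4]
    rw [h3] at h2
    linarith
  rw [haA, hER, ENNReal.ofReal_rpow_of_pos hA0, ← ENNReal.ofReal_mul (by positivity)]
  refine ENNReal.ofReal_le_ofReal ?_
  rw [div_mul_eq_mul_div, one_mul, div_le_iff₀ (by positivity)]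
  linarith

/-- the inequality of Michael and Simon in the form of Sobolev -/
theorem specMS : SpecMS := by
  intro n hn
  obtain ⟨c₁, hc₁, h⟩ := weakI n hn
  refine ⟨c₁ / 1024, by positivity, ?_⟩
  intro N X _ _ _ _ μ c g F u hc hg hμ hF hu huc hi
  exact levels hn hc₁ hc hg hμ (cont_hsq hc hg hF) (fun q => hsq_nonneg q) hu huc
    (h N X μ c g F u hc hg hμ hF hu huc hi)

end Vale.Agent.P223.H620.Im
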