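import Vale.Agent.P223.H620.Fib
import Vale.Agent.P223.H.ConfScal
import Vale.Agent.P223.X.Basic2
import Vale.Agent.P223.H.B25c
import Vale.Agent.P223.H.Conf

/-! Scalar curvature of conformally flat metrics: the flat and the round metric. -/

namespace Vale.Agent.P223.H620

open scoped ContDiff Topology ENNReal
open MeasureTheory Vale.Agent.P223.H Vale.Agent.P223.X

section
variable {n : ℕ}

/-- the flat metric -/
def fl (n : ℕ) : E n → Matrix (Fin n) (Fin n) ℝ := fun _ => 1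

theorem fl_smooth (i j : Fin n) : ContDiff ℝ ∞ fun x => fl n x i j := contDiff_const

theorem fl_pos (x : E n) : (fl n x).PosDef := Matrix.PosDef.one

theorem chr_fl (x : E n) (k i j : Fin n) : Vale.Agent.P223.H.chr (fl n) x k i j = 0 := by
  unfold Vale.Agent.P223.H.chr fl
  simp [Vale.Agent.P223.H.pd]

theorem scal_fl (x : E n) : Vale.Agent.P223.H.scal (fl n) x = 0 := by
  unfold Vale.Agent.P223.H.scal Vale.Agent.P223.H.ric
  simp only [chr_fl]
  simp [Vale.Agent.P223.H.pd]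

theorem gradSq_fl (f : E n → ℝ) (x : E n) :
    gradSq (fl n) f x = ∑ k, Vale.Agent.P223.H.pd k f x ^ 2 := by
  unfold gradSq gradIp fl
  rw [inv_one]
  refine Finset.sum_congr rfl fun i _ => ?_
  rw [Finset.sum_eq_single i]
  · rw [Matrix.one_apply_eq]; ring
  · intro j _ hj
    rw [Matrix.one_apply_ne' hj]; ring
  · intro h; exact absurd (Finset.mem_univ i) h

theorem lap_fl (f : E n → ℝ) (x : E n) : lap (fl n) f x =
    ∑ k, Vale.Agent.P223.H.pd k (fun y => Vale.Agent.P223.H.pd k f y) x := by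
  unfold lap
  simp only [chr_fl]
  unfold fl
  rw [inv_one]
  refine Finset.sum_congr rfl fun i _ => ?_
  rw [Finset.sum_eq_single i]
  · rw [Matrix.one_apply_eq]; simp
  · intro j _ hj
    rw [Matrix.one_apply_ne' hj]; ring
  · intro h; exact absurd (Finset.mem_univ i) h

/-- conformal factor of the round metric -/
noncomputable def rd (n : ℕ) (p : E n) : ℝ := Real.log 2 - Real.log (1 + ∑ k, p k ^ 2)

theorem q_pos (p : E n) : 0 < 1 + ∑ k, p k ^ 2 := by positivity

theorem rd_smooth : ContDiff ℝ ∞ (rd n) := by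
  unfold rd
  refine contDiff_const.sub (ContDiff.log ?_ fun p => (q_pos p).ne')
  exact contDiff_const.add (ContDiff.sum fun k _ => (contDiff_apply ℝ ℝ k).pow 2)

theorem exp_rd (p : E n) : Real.exp (rd n p) = 2 / (1 + ∑ k, p k ^ 2) := by
  unfold rd
  rw [Real.exp_sub, Real.exp_log two_pos, Real.exp_log (q_pos p)]

theorem hasFDerivAt_q (p : E n) : HasFDerivAt (fun p : E n => 1 + ∑ k, p k ^ 2)
    (∑ k, (2 * p k) • (ContinuousLinearMap.proj k : E n →L[ℝ] ℝ)) p := by
  refine HasFDerivAt.const_add 1 ?_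
  refine HasFDerivAt.fun_sum fun k _ => ?_
  have h1 : HasFDerivAt (fun p : E n => p k) (ContinuousLinearMap.proj k : E n →L[ℝ] ℝ) p :=
    hasFDerivAt_apply k p
  have h2 := h1.pow 2
  have e : (2 • p k ^ (2 - 1)) = 2 * p k := by simp
  rwa [e] at h2

theorem sum_proj (k : Fin n) (p : E n) :
    (∑ k, (2 * p k) • (ContinuousLinearMap.proj k : E n →L[ℝ] ℝ)) (Pi.single k (1 : ℝ)) =
      2 * p k := by
  rw [sum_apply, Finset.sum_eq_single k]
  · simp
  · intro b _ hb
    simp [hb]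
  · intro h; exact absurd (Finset.mem_univ k) h

theorem pd_rd (k : Fin n) (p : E n) :
    Vale.Agent.P223.H.pd k (rd n) p = -(2 * p k) / (1 + ∑ j, p j ^ 2) := by
  have h1 := (hasFDerivAt_q p).log (q_pos p).ne'
  have h2 : HasFDerivAt (rd n) (0 - (1 + ∑ k, p k ^ 2)⁻¹ •
      ∑ k, (2 * p k) • (ContinuousLinearMap.proj k : E n →L[ℝ] ℝ)) p :=
    (hasFDerivAt_const (Real.log 2) p).sub h1
  unfold Vale.Agent.P223.H.pd
  rw [h2.fderiv, zero_sub, neg_apply, smul_apply, sum_proj, smul_eq_mul]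
  field_simp

theorem pd_pd_rd (k : Fin n) (p : E n) :
    Vale.Agent.P223.H.pd k (fun y => Vale.Agent.P223.H.pd k (rd n) y) p =
      -2 / (1 + ∑ j, p j ^ 2) + 4 * p k ^ 2 / (1 + ∑ j, p j ^ 2) ^ 2 := by
  have e : (fun y => Vale.Agent.P223.H.pd k (rd n) y) =
      fun y : E n => -(2 * y k) * (1 + ∑ j, y j ^ 2)⁻¹ := by
    funext y; rw [pd_rd, div_eq_mul_inv]
  rw [e]
  have h0 := q_pos p
  have h1 : HasFDerivAt (fun y : E n => -(2 * y k))
      (-((2 : ℝ) • (ContinuousLinearMap.proj k : E n →L[ℝ] ℝ))) p :=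
    ((hasFDerivAt_apply k p).const_mul 2).neg
  have h2 : HasFDerivAt (fun y : E n => (1 + ∑ j, y j ^ 2)⁻¹)
      ((-((1 + ∑ j, p j ^ 2) ^ 2)⁻¹) •
        ∑ k, (2 * p k) • (ContinuousLinearMap.proj k : E n →L[ℝ] ℝ)) p :=
    (hasDerivAt_inv h0.ne').comp_hasFDerivAt p (hasFDerivAt_q p)
  have h3 := h1.fun_mul h2
  unfold Vale.Agent.P223.H.pd
  rw [h3.fderiv, add_apply, smul_apply, smul_apply, smul_apply, sum_proj, neg_apply, smul_apply]
  simp only [smul_eq_mul, ContinuousLinearMap.proj_apply, Pi.single_eq_same]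
  field_simp
  ring

/-- the scalar curvature of the round metric -/
theorem scal_rd (p : E n) : Vale.Agent.P223.H.scal (confm (rd n) (fl n)) p = n * (n - 1) := by
  have h := ConfScal.main n (fl n) fl_smooth fl_pos (rd n) rd_smooth p
  rw [scal_fl, lap_fl, gradSq_fl] at h
  simp only [pd_pd_rd] at h
  simp only [pd_rd] at h
  have h0 := q_pos p
  have e1 : Real.exp (2 * rd n p) = 4 / (1 + ∑ k, p k ^ 2) ^ 2 := by
    rw [two_mul, Real.exp_add, exp_rd]; field_simp; norm_num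
  have e2 : ∑ k : Fin n, (-2 / (1 + ∑ j, p j ^ 2) + 4 * p k ^ 2 / (1 + ∑ j, p j ^ 2) ^ 2) =
      n * (-2 / (1 + ∑ j, p j ^ 2)) + 4 * (∑ k, p k ^ 2) / (1 + ∑ j, p j ^ 2) ^ 2 := by
    rw [Finset.sum_add_distrib, Finset.sum_const, Finset.card_univ, Fintype.card_fin,
      nsmul_eq_mul, ← Finset.sum_div, ← Finset.mul_sum]
  have e3 : ∑ k : Fin n, (-(2 * p k) / (1 + ∑ j, p j ^ 2)) ^ 2 =
      4 * (∑ k, p k ^ 2) / (1 + ∑ j, p j ^ 2) ^ 2 := by
    rw [Finset.mul_sum, Finset.sum_div]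
    refine Finset.sum_congr rfl fun k _ => ?_
    rw [div_pow]; ring
  rw [e1, e2, e3] at h
  set q := 1 + ∑ j, p j ^ 2 with hq
  have hq' : ∑ j, p j ^ 2 = q - 1 := by rw [hq]; ring
  rw [hq'] at h
  set s := Vale.Agent.P223.H.scal (confm (rd n) (fl n)) p
  field_simp at h
  linear_combination h / 4

end

section
variable {n : ℕ} {M X Γ I : Type} [TopologicalSpace M] [TopologicalSpace X] [Group Γ]
    [MulAction Γ X] {C : Cov n M X Γ I} {G : I → E n → Matrix (Fin n) (Fin n) ℝ} {U : Set X}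
    {F : Fin n → X → ℝ} {r : X → ℝ}

theorem confm_smooth {G : E n → Matrix (Fin n) (Fin n) ℝ} {f : E n → ℝ}
    (hs : ∀ i j, ContDiff ℝ ∞ (fun x => G x i j)) (hf : ContDiff ℝ ∞ f) (i j : Fin n) :
    ContDiff ℝ ∞ (fun x => confm f G x i j) := by
  have : (fun x => confm f G x i j) = fun x => Real.exp (2 * f x) * G x i j := by
    funext x
    simp [confm, Matrix.smul_apply]
  rw [this]
  exact (contDiff_const.mul hf).exp.mul (hs i j)

theorem confm_on {G : E n → Matrix (Fin n) (Fin n) ℝ} {f : E n → ℝ}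
    (hs : ∀ i j, ContDiff ℝ ∞ (fun x => G x i j)) (hp : ∀ x, (G x).PosDef)
    (hf : ContDiff ℝ ∞ f) : IsMetricOn Set.univ (confm f G) :=
  Bridge.metricOn (confm_smooth hs hf) fun x => Conf.posDef_smul (hp x) (Real.exp_pos _)

/-- transport of the scalar curvature by a conformal local diffeomorphism -/
theorem Cfl.scal_eq (hG : MetX C G) (hc : Cfl C G U F r) {h : X → ℝ} (hh : C.Ck ∞ h)
    {φ : E n → ℝ} (hφ : ContDiff ℝ ∞ φ) (hU : ∀ z ∈ U, r z = Real.exp (h z + φ (Fm F z)))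
    {γ : Γ} {i : I} {y : E n} (hy : γ • C.ψ i y ∈ U) :
    Vale.Agent.P223.H.scal (G i) y = -2 * ((n : ℝ) - 1) * lap (G i) (C.rep h γ i) y +
      ((n : ℝ) - 1) * ((n : ℝ) - 2) * gradSq (G i) (C.rep h γ i) y +
      Real.exp (-(2 * h (γ • C.ψ i y))) *
        Vale.Agent.P223.H.scal (confm φ (fl n)) (Fm F (γ • C.ψ i y)) := by
  set f : E n → ℝ := fun z => (-1) * C.rep h γ i z with hf
  have hhs : ContDiff ℝ ∞ (C.rep h γ i) := hh γ i
  have hfs : ContDiff ℝ ∞ f := contDiff_const.mul hhs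
  set V : Set (E n) := (fun z => γ • C.ψ i z) ⁻¹' U with hV
  have hVo : IsOpen V := hc.isOpen.preimage (Bas3.chart_emb C γ i).continuous
  have hchg : Chg V Set.univ Set.univ (chm C F γ i) (confm f (G i)) (confm φ (fl n)) := by
    refine ⟨hVo, Set.subset_univ _, fun _ _ => Set.mem_univ _, fun z _ =>
      (hc.chm_smooth γ i).contDiffAt, fun z hz => ?_⟩
    have h1 := hc.mat (γ := γ) (i := i) (y := z) hz
    have h2 := hU _ hz
    unfold confm
    rw [h1, smul_smul]
    have e1 : fl n (chm C F γ i z) = 1 := rfl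
    rw [e1, Matrix.mul_smul, Matrix.mul_one, Matrix.smul_mul]
    congr 1
    have e2 : chm C F γ i z = Fm F (γ • C.ψ i z) := rfl
    have e3 : f z = -h (γ • C.ψ i z) := by rw [hf]; simp [Cov.rep]
    rw [h2, e2, e3, ← Real.exp_nat_mul, ← Real.exp_add]
    congr 1
    push_cast
    ring
  have h1 := scal_trans (confm_on (hG.smooth i) (hG.pos i) hfs) isOpen_univ
    (confm_on fl_smooth fl_pos hφ) isOpen_univ hchg (x := y) hy
  have h1' : Vale.Agent.P223.H.scal (confm f (G i)) y =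
      Vale.Agent.P223.H.scal (confm φ (fl n)) (Fm F (γ • C.ψ i y)) := h1
  have h2 := ConfScal.main n (G i) (hG.smooth i) (hG.pos i) f hfs y
  rw [h1'] at h2
  have e1 : lap (G i) f y = -lap (G i) (C.rep h γ i) y := by
    have := B25c.lap_comp (G := G i) (contDiff_infty.1 hhs 2) (φ := fun s => (-1) * s)
      (φ' := fun _ => -1) (φ'' := fun _ => 0)
      (fun s => by simpa using (hasDerivAt_id s).const_mul (-1)) (fun s => hasDerivAt_const s _) y
    rw [hf, this]; ring
  have e2 : gradSq (G i) f y = gradSq (G i) (C.rep h γ i) y := by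
    have := Grad.gradSq_comp_real (G := G i) (f := C.rep h γ i) (x := y) (φ := fun s => (-1) * s)
      (φ' := -1) (by simpa using (hasDerivAt_id (C.rep h γ i y)).const_mul (-1))
      ((contDiff_infty.1 hhs 1).differentiable one_ne_zero y)
    rw [hf, this]; ring
  have e3 : 2 * f y = -(2 * h (γ • C.ψ i y)) := by
    have : f y = -h (γ • C.ψ i y) := by rw [hf]; simp [Cov.rep]
    rw [this]; ring
  rw [e1, e2, e3] at h2
  linarith

/-- flat transport -/
theorem Cfl.scal_flat (hG : MetX C G) (hc : Cfl C G U F r)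
    (hr : C.Ck ∞ fun x => Real.log (r x)) {x : X} (hx : x ∈ U) :
    H66.scX C G x = -2 * ((n : ℝ) - 1) * lapX C G (fun x => Real.log (r x)) x +
      ((n : ℝ) - 1) * ((n : ℝ) - 2) * gsX C G (fun x => Real.log (r x)) x := by
  have hxy := H566.pg_spec C x
  have hy : C.pg x • C.ψ (C.pi x) (C.py x) ∈ U := by rw [hxy]; exact hx
  have h1 := hc.scal_eq hG hr (φ := fun _ => 0) contDiff_const
    (fun z _ => by rw [add_zero, Real.exp_log (hc.pos z)]) hy
  have e : confm (fun _ => (0 : ℝ)) (fl n) = fl n := by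
    funext z
    simp [confm]
  rw [e, scal_fl, mul_zero, add_zero] at h1
  have e2 := lapX_eq hG (f := fun x => Real.log (r x)) (fun γ i => contDiff_infty.1 (hr γ i) 2)
    (C.pg x) (C.pi x) (C.py x)
  have e3 := gsX_eq hG (fun x => Real.log (r x)) (C.pg x) (C.pi x) (C.py x)
  rw [hxy] at e2 e3
  rw [e2, e3]
  exact h1

/-- round transport -/
theorem Cfl.scal_round (hG : MetX C G) (hc : Cfl C G U F r) {t : X → ℝ} (ht : ∀ x, 0 < t x)
    (hts : C.Ck ∞ fun x => Real.log (t x))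
    (hU : ∀ z ∈ U, r z = t z * (2 / (1 + ∑ k, F k z ^ 2))) {x : X} (hx : x ∈ U) :
    H66.scX C G x = -2 * ((n : ℝ) - 1) * lapX C G (fun x => Real.log (t x)) x +
      ((n : ℝ) - 1) * ((n : ℝ) - 2) * gsX C G (fun x => Real.log (t x)) x +
      n * (n - 1) * (t x ^ 2)⁻¹ := by
  have hxy := H566.pg_spec C x
  have hy : C.pg x • C.ψ (C.pi x) (C.py x) ∈ U := by rw [hxy]; exact hx
  have h1 := hc.scal_eq hG hts (φ := rd n) rd_smooth
    (fun z hz => by rw [Real.exp_add, Real.exp_log (ht z), exp_rd]; exact hU z hz) hy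
  rw [scal_rd] at h1
  have e2 := lapX_eq hG (f := fun x => Real.log (t x)) (fun γ i => contDiff_infty.1 (hts γ i) 2)
    (C.pg x) (C.pi x) (C.py x)
  have e3 := gsX_eq hG (fun x => Real.log (t x)) (C.pg x) (C.pi x) (C.py x)
  rw [hxy] at e2 e3 h1
  have e4 : Real.exp (-(2 * Real.log (t x))) = (t x ^ 2)⁻¹ := by
    rw [Real.exp_neg, two_mul, Real.exp_add, Real.exp_log (ht x), sq]
  rw [e4] at h1
  rw [e2, e3]
  have h2 : H66.scX C G x = Vale.Agent.P223.H.scal (G (C.pi x)) (C.py x) := rfl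
  rw [h2, h1]
  ring

end

end Vale.Agent.P223.H620
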